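import Vale.Agent.P088.R2.H558.Spec

/-!
# P088, stage 3: Caccioppoli inequalities with a general cut-off (one variable)
-/

open MeasureTheory Set
open scoped ContDiff Matrix Topology Manifold

noncomputable section

namespace Vale.Agent.P088.R2.H238.S3

open Vale.Agent.P088.LR Vale.Agent.P088.HY

variable {n : ℕ}

/-! ### calculus -/

theorem cp {f : V n → ℝ} (hf : ContDiff ℝ ∞ f) (i : Fin n) : ContDiff ℝ ∞ (pd i f) :=
  (hf.fderiv_right (m := ∞) (by simp)).clm_apply contDiff_const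

theorem dfr {f : V n → ℝ} (hf : ContDiff ℝ ∞ f) (x : V n) : DifferentiableAt ℝ f x :=
  hf.differentiable (by simp) x

theorem pmul {f g : V n → ℝ} (hf : ContDiff ℝ ∞ f) (hg : ContDiff ℝ ∞ g) (i : Fin n) (x : V n) :
    pd i (fun y => f y * g y) x = pd i f x * g x + f x * pd i g x := by
  unfold pd
  have h1 := ((dfr hf x).hasFDerivAt.mul (dfr hg x).hasFDerivAt).fderiv
  have h3 := congrArg (fun L : V n →L[ℝ] ℝ => L (Pi.single i 1)) h1
  refine Eq.trans h3 ?_
  simp only [_root_.add_apply, _root_.smul_apply, smul_eq_mul]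
  ring

theorem padd {f g : V n → ℝ} (hf : ContDiff ℝ ∞ f) (hg : ContDiff ℝ ∞ g) (i : Fin n) (x : V n) :
    pd i (fun y => f y + g y) x = pd i f x + pd i g x := by
  have h : HasFDerivAt (fun y => f y + g y) (fderiv ℝ f x + fderiv ℝ g x) x :=
    (dfr hf x).hasFDerivAt.add (dfr hg x).hasFDerivAt
  unfold pd
  rw [h.fderiv]
  rfl

theorem psub {f g : V n → ℝ} (hf : ContDiff ℝ ∞ f) (hg : ContDiff ℝ ∞ g) (i : Fin n) (x : V n) :
    pd i (fun y => f y - g y) x = pd i f x - pd i g x := by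
  have h : HasFDerivAt (fun y => f y - g y) (fderiv ℝ f x - fderiv ℝ g x) x :=
    (dfr hf x).hasFDerivAt.sub (dfr hg x).hasFDerivAt
  unfold pd
  rw [h.fderiv]
  rfl

theorem psum {ι : Type*} [Fintype ι] {f : ι → V n → ℝ} (hf : ∀ j, ContDiff ℝ ∞ (f j)) (i : Fin n)
    (x : V n) : pd i (fun y => ∑ j, f j y) x = ∑ j, pd i (f j) x := by
  unfold pd
  rw [(HasFDerivAt.fun_sum fun j _ => (dfr (hf j) x).hasFDerivAt).fderiv]
  simp [ContinuousLinearMap.sum_apply]

theorem pcomm {f : V n → ℝ} (hf : ContDiff ℝ ∞ f) (i j : Fin n) (x : V n) :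
    pd i (pd j f) x = pd j (pd i f) x := by
  have h1 : DifferentiableAt ℝ (fderiv ℝ f) x :=
    (hf.fderiv_right (m := ∞) (by simp)).differentiable (by simp) x
  have h2 : IsSymmSndFDerivAt ℝ f x := by
    refine hf.contDiffAt.isSymmSndFDerivAt ?_
    rw [minSmoothness_of_isRCLikeNormedField]
    exact ENat.LEInfty.out
  unfold pd
  rw [fderiv_clm_apply h1 (differentiableAt_const _), fderiv_clm_apply h1
    (differentiableAt_const _)]
  simp only [fderiv_fun_const, Pi.zero_apply, ContinuousLinearMap.comp_zero, zero_add,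
    ContinuousLinearMap.flip_apply]
  exact h2 _ _

theorem scp {f : V n → ℝ} (hc : HasCompactSupport f) (i : Fin n) : HasCompactSupport (pd i f) :=
  hc.fderiv_apply ℝ (Pi.single i 1)

theorem poff {f : V n → ℝ} {x : V n} (hx : x ∉ tsupport f) (i : Fin n) : pd i f x = 0 := by
  have h : f =ᶠ[𝓝 x] fun _ => 0 := notMem_tsupport_iff_eventuallyEq.1 hx
  unfold pd
  rw [h.fderiv_eq]
  simp

theorem icc {f : V n → ℝ} (hf : Continuous f) (hc : HasCompactSupport f) : Integrable f :=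
  hf.integrable_of_hasCompactSupport hc

theorem int0 {f : V n → ℝ} (hf : ContDiff ℝ ∞ f) (hc : HasCompactSupport f) (i : Fin n) :
    ∫ x, pd i f x = 0 := by
  have hX : ContDiff ℝ ∞ (fun _ : V n => (1 : ℝ)) := contDiff_const
  have h := integral_mul_fderiv_eq_neg_fderiv_mul_of_integrable (μ := (volume : Measure (V n)))
    (f := fun _ : V n => (1 : ℝ)) (g := f) (v := Pi.single i 1)
    (by simpa using (integrable_zero (V n) ℝ volume))
    (by simp only [one_mul]; exact icc (cp hf i).continuous (scp hc i))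
    (by simp only [one_mul]; exact icc hf.continuous hc)
    (fun x _ => (hX.differentiable (by simp)) x) (fun x _ => (hf.differentiable (by simp)) x)
  simpa [pd] using h

/-- the integral of a divergence is zero -/
theorem intdiv {F : Fin n → V n → ℝ} (hF : ∀ i, ContDiff ℝ ∞ (F i))
    (hc : ∀ i, HasCompactSupport (F i)) : ∫ x, ∑ i, pd i (F i) x = 0 := by
  rw [integral_finsetSum _ fun i _ => icc (cp (hF i) i).continuous (scp (hc i) i)]
  exact Finset.sum_eq_zero fun i _ => int0 (hF i) (hc i) i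

/-! ### notation -/

/-- `|∇f|²`. -/
def gq (f : V n → ℝ) (x : V n) : ℝ := ∑ i, pd i f x ^ 2

/-- `|∇²f|²`. -/
def hq (f : V n → ℝ) (x : V n) : ℝ := ∑ i, ∑ j, pd i (pd j f) x ^ 2

theorem gq_nn (f : V n → ℝ) (x : V n) : 0 ≤ gq f x := Finset.sum_nonneg fun _ _ => sq_nonneg _

theorem hq_nn (f : V n → ℝ) (x : V n) : 0 ≤ hq f x :=
  Finset.sum_nonneg fun _ _ => Finset.sum_nonneg fun _ _ => sq_nonneg _

theorem gq_c {f : V n → ℝ} (hf : ContDiff ℝ ∞ f) : Continuous (gq f) :=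
  continuous_finsetSum _ fun i _ => (cp hf i).continuous.pow 2

theorem hq_c {f : V n → ℝ} (hf : ContDiff ℝ ∞ f) : Continuous (hq f) :=
  continuous_finsetSum _ fun i _ => continuous_finsetSum _ fun j _ => (cp (cp hf j) i).continuous.pow 2

theorem Lv_c {s : MF n} (hs : SmM s) {f : V n → ℝ} (hf : ContDiff ℝ ∞ f) : ContDiff ℝ ∞ (Lv s f) :=
  ContDiff.sum fun i _ => ContDiff.sum fun j _ => (hs i j).mul (cp (cp hf j) i)

/-- Cauchy-Schwarz for a double sum. -/
theorem cs2 (e : Fin n → Fin n → ℝ) (a b : Fin n → ℝ) :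
    (∑ i, ∑ j, e i j * (a i * b j)) ^ 2 ≤ (∑ i, ∑ j, e i j ^ 2) * ((∑ i, a i ^ 2) * ∑ j, b j ^ 2) := by
  have h := Finset.sum_mul_sq_le_sq_mul_sq (Finset.univ : Finset (Fin n × Fin n))
    (fun p => e p.1 p.2) (fun p => a p.1 * b p.2)
  rw [Fintype.sum_prod_type, Fintype.sum_prod_type, Fintype.sum_prod_type] at h
  refine h.trans (le_of_eq ?_)
  congr 1
  rw [Finset.sum_mul_sum]
  exact Finset.sum_congr rfl fun i _ => Finset.sum_congr rfl fun j _ => by ring

theorem cs3 (e f : Fin n → Fin n → ℝ) :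
    (∑ i, ∑ j, e i j * f i j) ^ 2 ≤ (∑ i, ∑ j, e i j ^ 2) * ∑ i, ∑ j, f i j ^ 2 := by
  have h := Finset.sum_mul_sq_le_sq_mul_sq (Finset.univ : Finset (Fin n × Fin n))
    (fun p => e p.1 p.2) (fun p => f p.1 p.2)
  rw [Fintype.sum_prod_type, Fintype.sum_prod_type, Fintype.sum_prod_type] at h
  exact h

/-- The size of `s - 1`. -/
theorem esum {s : Matrix (Fin n) (Fin n) ℝ} (h : ∀ i j, |s i j - (1 : Matrix (Fin n) (Fin n) ℝ) i j| ≤
    1 / (8 * (n + 1))) : ∑ i, ∑ j, (s i j - (1 : Matrix (Fin n) (Fin n) ℝ) i j) ^ 2 ≤ 1 / 64 := by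
  calc ∑ i, ∑ j, (s i j - (1 : Matrix (Fin n) (Fin n) ℝ) i j) ^ 2
      ≤ ∑ _i : Fin n, ∑ _j : Fin n, (1 / (8 * ((n : ℝ) + 1))) ^ 2 := by
        refine Finset.sum_le_sum fun i _ => Finset.sum_le_sum fun j _ => ?_
        rw [← sq_abs]
        exact pow_le_pow_left₀ (abs_nonneg _) (h i j) 2
    _ = n * (n * (1 / (8 * ((n : ℝ) + 1))) ^ 2) := by simp
    _ ≤ 1 / 64 := by
        have hn : (0 : ℝ) ≤ n := Nat.cast_nonneg n
        rw [div_pow, one_pow, mul_one_div, mul_div_assoc', div_le_div_iff₀ (by positivity) (by norm_num)]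
        nlinarith

theorem sum_one (a b : Fin n → ℝ) :
    ∑ i, ∑ j, (1 : Matrix (Fin n) (Fin n) ℝ) i j * (a i * b j) = ∑ i, a i * b i := by
  refine Finset.sum_congr rfl fun i _ => ?_
  simp [Matrix.one_apply]

theorem split1 (s : Matrix (Fin n) (Fin n) ℝ) (a b : Fin n → ℝ) :
    ∑ i, ∑ j, s i j * (a i * b j) = (∑ i, a i * b i) +
      ∑ i, ∑ j, (s i j - (1 : Matrix (Fin n) (Fin n) ℝ) i j) * (a i * b j) := by
  rw [← sum_one a b, ← Finset.sum_add_distrib]
  refine Finset.sum_congr rfl fun i _ => ?_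
  rw [← Finset.sum_add_distrib]
  exact Finset.sum_congr rfl fun j _ => by ring

/-- ellipticity -/
theorem ell {s : Matrix (Fin n) (Fin n) ℝ} (h : ∀ i j, |s i j - (1 : Matrix (Fin n) (Fin n) ℝ) i j| ≤
    1 / (8 * (n + 1))) (a : Fin n → ℝ) :
    1 / 2 * ∑ i, a i ^ 2 ≤ ∑ i, ∑ j, s i j * (a i * a j) := by
  rw [split1]
  have h1 := cs2 (fun i j => s i j - (1 : Matrix (Fin n) (Fin n) ℝ) i j) a a
  have h2 := esum h
  have h3 : 0 ≤ ∑ i, a i ^ 2 := Finset.sum_nonneg fun _ _ => sq_nonneg _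
  have h4 : (∑ i, ∑ j, (s i j - (1 : Matrix (Fin n) (Fin n) ℝ) i j) * (a i * a j)) ^ 2 ≤
      (1 / 2 * ∑ i, a i ^ 2) ^ 2 := by
    refine h1.trans ?_
    nlinarith [mul_nonneg h3 h3, mul_le_mul_of_nonneg_right h2 (mul_nonneg h3 h3)]
  have h5 := abs_le_of_sq_le_sq h4 (by positivity)
  have h6 := neg_le_of_abs_le h5
  have h7 : ∑ i, a i * a i = ∑ i, a i ^ 2 := Finset.sum_congr rfl fun i _ => by ring
  rw [h7]
  linarith

theorem elb {s : Matrix (Fin n) (Fin n) ℝ} (h : ∀ i j, |s i j - (1 : Matrix (Fin n) (Fin n) ℝ) i j| ≤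
    1 / (8 * (n + 1))) (a b : Fin n → ℝ) :
    (∑ i, ∑ j, s i j * (a i * b j)) ^ 2 ≤ 4 * ((∑ i, a i ^ 2) * ∑ j, b j ^ 2) := by
  rw [split1]
  have h1 := cs2 (fun i j => s i j - (1 : Matrix (Fin n) (Fin n) ℝ) i j) a b
  have h2 := esum h
  have h3 : 0 ≤ ∑ i, a i ^ 2 := Finset.sum_nonneg fun _ _ => sq_nonneg _
  have h3' : 0 ≤ ∑ i, b i ^ 2 := Finset.sum_nonneg fun _ _ => sq_nonneg _
  have h4 := Finset.sum_mul_sq_le_sq_mul_sq Finset.univ a b
  have h5 := mul_le_mul_of_nonneg_right h2 (mul_nonneg h3 h3')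
  have h6 := mul_nonneg h3 h3'
  nlinarith [sq_nonneg ((∑ i, a i * b i) -
    ∑ i, ∑ j, (s i j - (1 : Matrix (Fin n) (Fin n) ℝ) i j) * (a i * b j))]

/-! ### the energy -/

section

variable {s : MF n} (hs : SmM s) {η w : V n → ℝ} (hη : ContDiff ℝ ∞ η) (hηc : HasCompactSupport η)
  (hw : ContDiff ℝ ∞ w)

include hs hη hηc hw

theorem en_id (hd : ∀ x ∈ tsupport η, ∀ j, ∑ i, pd i (fun y => s y i j) x = 0) :
    ∫ x, (η x ^ 2 * ∑ i, ∑ j, s x i j * (pd i w x * pd j w x) +
      2 * (η x * w x) * ∑ i, ∑ j, s x i j * (pd i η x * pd j w x) + η x ^ 2 * w x * Lv s w x) = 0 := by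
  have hm : ∀ i, ContDiff ℝ ∞ (fun y => ∑ j, s y i j * pd j w y) := fun i =>
    ContDiff.sum fun j _ => (hs i j).mul (cp hw j)
  have hF : ∀ i, ContDiff ℝ ∞ (fun y => (η y * η y) * (w y * ∑ j, s y i j * pd j w y)) := fun i =>
    (hη.mul hη).mul (hw.mul (hm i))
  have hc : ∀ i, HasCompactSupport (fun y => (η y * η y) * (w y * ∑ j, s y i j * pd j w y)) :=
    fun i => HasCompactSupport.intro hηc fun x hx => by
      rw [image_eq_zero_of_notMem_tsupport hx]; ring
  rw [← intdiv hF hc]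
  congr 1
  funext x
  have h1 : ∀ i, pd i (fun y => (η y * η y) * (w y * ∑ j, s y i j * pd j w y)) x =
      2 * (η x * w x) * (∑ j, s x i j * (pd i η x * pd j w x)) +
      η x ^ 2 * (∑ j, s x i j * (pd i w x * pd j w x)) +
      η x ^ 2 * w x * (∑ j, pd i (fun y => s y i j) x * pd j w x) +
      η x ^ 2 * w x * ∑ j, s x i j * pd i (pd j w) x := by
    intro i
    rw [pmul (hη.mul hη) (hw.mul (hm i)) i x, pmul hη hη i x, pmul hw (hm i) i x,
      psum (fun j => (hs i j).mul (cp hw j)) i x]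
    have h2 : ∀ j, pd i (fun y => s y i j * pd j w y) x =
        pd i (fun y => s y i j) x * pd j w x + s x i j * pd i (pd j w) x := fun j =>
      pmul (hs i j) (cp hw j) i x
    simp only [h2, Finset.sum_add_distrib]
    have h3 : ∑ j, s x i j * (pd i η x * pd j w x) = pd i η x * ∑ j, s x i j * pd j w x := by
      rw [Finset.mul_sum]; exact Finset.sum_congr rfl fun j _ => by ring
    have h4 : ∑ j, s x i j * (pd i w x * pd j w x) = pd i w x * ∑ j, s x i j * pd j w x := by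
      rw [Finset.mul_sum]; exact Finset.sum_congr rfl fun j _ => by ring
    rw [h3, h4]
    ring
  simp only [h1, Finset.sum_add_distrib, ← Finset.mul_sum]
  have h5 : η x ^ 2 * w x * ∑ i, ∑ j, pd i (fun y => s y i j) x * pd j w x = 0 := by
    by_cases hx : x ∈ tsupport η
    · rw [Finset.sum_comm]
      have : ∑ j, ∑ i, pd i (fun y => s y i j) x * pd j w x = 0 :=
        Finset.sum_eq_zero fun j _ => by rw [← Finset.sum_mul, hd x hx j, zero_mul]
      rw [this, mul_zero]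
    · rw [image_eq_zero_of_notMem_tsupport hx]; ring
  rw [h5]
  unfold Lv
  ring

/-- **first Caccioppoli inequality** -/
theorem cac1 (hd : ∀ x ∈ tsupport η, ∀ j, ∑ i, pd i (fun y => s y i j) x = 0)
    (hn : ∀ x ∈ tsupport η, ∀ i j, |s x i j - (1 : Matrix (Fin n) (Fin n) ℝ) i j| ≤
      1 / (8 * (n + 1))) {A : ℝ} (hA : 0 < A) :
    ∫ x, η x ^ 2 * gq w x ≤ ∫ x, (64 * (gq η x * w x ^ 2) + 2 * A * (η x ^ 2 * w x ^ 2) +
      2 * A⁻¹ * (η x ^ 2 * Lv s w x ^ 2)) := by
  have h0 : ∀ x ∉ tsupport η, η x = 0 := fun x hx => image_eq_zero_of_notMem_tsupport hx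
  have hg0 : ∀ x ∉ tsupport η, gq η x = 0 := fun x hx =>
    Finset.sum_eq_zero fun i _ => by rw [poff hx]; ring
  have hLc := (Lv_c hs hw).continuous
  have i1 : Integrable fun x => η x ^ 2 * gq w x :=
    icc ((hη.continuous.pow 2).mul (gq_c hw)) (HasCompactSupport.intro hηc fun x hx => by
      rw [h0 x hx]; ring)
  have i2 : Integrable fun x => 64 * (gq η x * w x ^ 2) + 2 * A * (η x ^ 2 * w x ^ 2) +
      2 * A⁻¹ * (η x ^ 2 * Lv s w x ^ 2) :=
    icc (((continuous_const.mul ((gq_c hη).mul (hw.continuous.pow 2))).add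
      (continuous_const.mul ((hη.continuous.pow 2).mul (hw.continuous.pow 2)))).add
      (continuous_const.mul ((hη.continuous.pow 2).mul (hLc.pow 2))))
      (HasCompactSupport.intro hηc fun x hx => by
      rw [h0 x hx, hg0 x hx]; ring)
  have hE : Continuous fun x => ∑ i, ∑ j, s x i j * (pd i w x * pd j w x) :=
    continuous_finsetSum _ fun i _ => continuous_finsetSum _ fun j _ =>
      (hs i j).continuous.mul ((cp hw i).continuous.mul (cp hw j).continuous)
  have hT : Continuous fun x => ∑ i, ∑ j, s x i j * (pd i η x * pd j w x) :=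
    continuous_finsetSum _ fun i _ => continuous_finsetSum _ fun j _ =>
      (hs i j).continuous.mul ((cp hη i).continuous.mul (cp hw j).continuous)
  have i3 : Integrable fun x => η x ^ 2 * ∑ i, ∑ j, s x i j * (pd i w x * pd j w x) +
      2 * (η x * w x) * ∑ i, ∑ j, s x i j * (pd i η x * pd j w x) + η x ^ 2 * w x * Lv s w x :=
    icc ((((hη.continuous.pow 2).mul hE).add ((continuous_const.mul
      (hη.continuous.mul hw.continuous)).mul hT)).add
      (((hη.continuous.pow 2).mul hw.continuous).mul hLc))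
      (HasCompactSupport.intro hηc fun x hx => by
      rw [h0 x hx]; ring)
  have h1 : ∫ x, η x ^ 2 * gq w x ≤ ∫ x, ((64 * (gq η x * w x ^ 2) + 2 * A * (η x ^ 2 * w x ^ 2) +
      2 * A⁻¹ * (η x ^ 2 * Lv s w x ^ 2)) + 4 *
      (η x ^ 2 * ∑ i, ∑ j, s x i j * (pd i w x * pd j w x) +
      2 * (η x * w x) * ∑ i, ∑ j, s x i j * (pd i η x * pd j w x) + η x ^ 2 * w x * Lv s w x)) := by
    refine integral_mono i1 (i2.add (i3.const_mul 4)) fun x => ?_
    show η x ^ 2 * gq w x ≤ (64 * (gq η x * w x ^ 2) + 2 * A * (η x ^ 2 * w x ^ 2) +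
      2 * A⁻¹ * (η x ^ 2 * Lv s w x ^ 2)) + 4 *
      (η x ^ 2 * ∑ i, ∑ j, s x i j * (pd i w x * pd j w x) +
      2 * (η x * w x) * ∑ i, ∑ j, s x i j * (pd i η x * pd j w x) + η x ^ 2 * w x * Lv s w x)
    by_cases hx : x ∈ tsupport η
    · have e1 := ell (hn x hx) (fun i => pd i w x)
      have e2 := elb (hn x hx) (fun i => pd i η x) (fun i => pd i w x)
      have g1 : ∑ i, pd i w x ^ 2 = gq w x := rfl
      have g2 : ∑ i, pd i η x ^ 2 = gq η x := rfl
      rw [g1] at e1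
      rw [g1, g2] at e2
      set T := ∑ i, ∑ j, s x i j * (pd i η x * pd j w x)
      set E := ∑ i, ∑ j, s x i j * (pd i w x * pd j w x)
      set L := Lv s w x
      have n1 := gq_nn w x
      have n2 := gq_nn η x
      have p1 : |2 * (η x * w x) * T| ≤ 1 / 4 * (η x ^ 2 * gq w x) + 16 * (gq η x * w x ^ 2) := by
        refine abs_le_of_sq_le_sq ?_ (by positivity)
        have q1 : (η x * w x) ^ 2 * T ^ 2 ≤ (η x * w x) ^ 2 * (4 * (gq η x * gq w x)) :=
          mul_le_mul_of_nonneg_left e2 (sq_nonneg _)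
        nlinarith [sq_nonneg (1 / 4 * (η x ^ 2 * gq w x) - 16 * (gq η x * w x ^ 2))]
      have p2 : -(η x ^ 2 * w x * L) ≤ 1 / 2 * (A * (η x ^ 2 * w x ^ 2) +
          A⁻¹ * (η x ^ 2 * L ^ 2)) := by
        have q2 : 0 ≤ A⁻¹ * (η x * (A * w x + L)) ^ 2 := by positivity
        have q3 : A⁻¹ * (η x * (A * w x + L)) ^ 2 = A * (η x ^ 2 * w x ^ 2) +
            A⁻¹ * (η x ^ 2 * L ^ 2) + 2 * (η x ^ 2 * w x * L) := by
          field_simp
          ring
        linarith
      have p3 := neg_le_of_abs_le p1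
      have p4 : η x ^ 2 * (1 / 2 * gq w x) ≤ η x ^ 2 * E :=
        mul_le_mul_of_nonneg_left e1 (sq_nonneg _)
      nlinarith
    · rw [h0 x hx, hg0 x hx]
      simp
  rw [integral_add i2 (i3.const_mul 4), integral_const_mul, en_id hs hη hηc hw hd] at h1
  linarith

end

/-! ### second derivatives -/

section

variable {s : MF n} (hs : SmM s) {η w : V n → ℝ} (hη : ContDiff ℝ ∞ η) (hηc : HasCompactSupport η)
  (hw : ContDiff ℝ ∞ w)

/-- the Laplacian -/
def lp (w : V n → ℝ) (x : V n) : ℝ := ∑ i, pd i (pd i w) x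

theorem lp_s {w : V n → ℝ} (hw : ContDiff ℝ ∞ w) : ContDiff ℝ ∞ (lp w) :=
  ContDiff.sum fun i _ => cp (cp hw i) i

theorem pd_lp {w : V n → ℝ} (hw : ContDiff ℝ ∞ w) (i : Fin n) (x : V n) :
    ∑ j, pd j (pd j (pd i w)) x = pd i (lp w) x := by
  unfold lp
  rw [psum (fun j => cp (cp hw j) j) i x]
  refine Finset.sum_congr rfl fun j _ => ?_
  have h1 : pd j (pd i w) = pd i (pd j w) := funext fun y => pcomm hw j i y
  rw [h1, pcomm (cp hw j) j i x]

include hη hηc hw in
theorem h2_id : ∫ x, (η x ^ 2 * hq w x - η x ^ 2 * lp w x ^ 2 +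
    2 * η x * (∑ j, ∑ i, pd j (pd i w) x * (pd j η x * pd i w x)) -
    2 * η x * (∑ j, pd j η x * pd j w x) * lp w x) = 0 := by
  have hm : ∀ j, ContDiff ℝ ∞ (fun y => ∑ i, pd j (pd i w) y * pd i w y) := fun j =>
    ContDiff.sum fun i _ => (cp (cp hw i) j).mul (cp hw i)
  have hF : ∀ j, ContDiff ℝ ∞ (fun y => (η y * η y) * ((∑ i, pd j (pd i w) y * pd i w y) -
      pd j w y * lp w y)) := fun j =>
    (hη.mul hη).mul ((hm j).sub ((cp hw j).mul (lp_s hw)))
  have hc : ∀ j, HasCompactSupport (fun y => (η y * η y) * ((∑ i, pd j (pd i w) y * pd i w y) -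
      pd j w y * lp w y)) := fun j => HasCompactSupport.intro hηc fun x hx => by
    rw [image_eq_zero_of_notMem_tsupport hx]; ring
  rw [← intdiv hF hc]
  congr 1
  funext x
  have h1 : ∀ j, pd j (fun y => (η y * η y) * ((∑ i, pd j (pd i w) y * pd i w y) -
      pd j w y * lp w y)) x =
      2 * η x * (∑ i, pd j (pd i w) x * (pd j η x * pd i w x)) -
      2 * η x * (pd j η x * pd j w x) * lp w x +
      η x ^ 2 * (∑ i, pd j (pd j (pd i w)) x * pd i w x) +
      η x ^ 2 * (∑ i, pd j (pd i w) x ^ 2) - η x ^ 2 * (pd j (pd j w) x * lp w x) -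
      η x ^ 2 * (pd j w x * pd j (lp w) x) := by
    intro j
    rw [pmul (hη.mul hη) ((hm j).sub ((cp hw j).mul (lp_s hw))) j x, pmul hη hη j x,
      psub (hm j) ((cp hw j).mul (lp_s hw)) j x, pmul (cp hw j) (lp_s hw) j x,
      psum (fun i => (cp (cp hw i) j).mul (cp hw i)) j x]
    have h2 : ∀ i, pd j (fun y => pd j (pd i w) y * pd i w y) x =
        pd j (pd j (pd i w)) x * pd i w x + pd j (pd i w) x ^ 2 := fun i => by
      rw [pmul (cp (cp hw i) j) (cp hw i) j x]; ring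
    simp only [h2, Finset.sum_add_distrib]
    have h3 : ∑ i, pd j (pd i w) x * (pd j η x * pd i w x) =
        pd j η x * ∑ i, pd j (pd i w) x * pd i w x := by
      rw [Finset.mul_sum]; exact Finset.sum_congr rfl fun i _ => by ring
    rw [h3]
    ring
  simp only [h1, Finset.sum_add_distrib, Finset.sum_sub_distrib, ← Finset.mul_sum]
  have h4 : ∑ j, ∑ i, pd j (pd j (pd i w)) x * pd i w x = ∑ i, pd i w x * pd i (lp w) x := by
    rw [Finset.sum_comm]
    refine Finset.sum_congr rfl fun i _ => ?_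
    rw [← Finset.sum_mul, pd_lp hw i x, mul_comm]
  have h5 : ∑ j, pd j (pd j w) x * lp w x = lp w x ^ 2 := by
    rw [← Finset.sum_mul]
    show lp w x * lp w x = lp w x ^ 2
    ring
  have h6 : ∑ j, 2 * η x * (pd j η x * pd j w x) * lp w x =
      2 * η x * (∑ j, pd j η x * pd j w x) * lp w x := by
    rw [Finset.mul_sum, Finset.sum_mul]
  rw [h4, h5, h6]
  unfold hq
  ring

theorem lp_le {s : MF n} {w : V n → ℝ} {x : V n}
    (h : ∀ i j, |s x i j - (1 : Matrix (Fin n) (Fin n) ℝ) i j| ≤ 1 / (8 * (n + 1))) :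
    lp w x ^ 2 ≤ 2 * Lv s w x ^ 2 + 1 / 32 * hq w x := by
  have h1 := cs3 (fun i j => s x i j - (1 : Matrix (Fin n) (Fin n) ℝ) i j)
    (fun i j => pd i (pd j w) x)
  have h2 := esum h
  have h3 := hq_nn w x
  have h4 : Lv s w x = lp w x + ∑ i, ∑ j, (s x i j - (1 : Matrix (Fin n) (Fin n) ℝ) i j) *
      pd i (pd j w) x := by
    have h5 : lp w x = ∑ i, ∑ j, (1 : Matrix (Fin n) (Fin n) ℝ) i j * pd i (pd j w) x := by
      unfold lp
      refine Finset.sum_congr rfl fun i _ => ?_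
      simp [Matrix.one_apply]
    rw [h5, ← Finset.sum_add_distrib]
    unfold Lv
    refine Finset.sum_congr rfl fun i _ => ?_
    rw [← Finset.sum_add_distrib]
    exact Finset.sum_congr rfl fun j _ => by ring
  have h6 : ∑ i, ∑ j, pd i (pd j w) x ^ 2 = hq w x := rfl
  rw [h6] at h1
  have h7 := mul_le_mul_of_nonneg_right h2 h3
  set D := ∑ i, ∑ j, (s x i j - (1 : Matrix (Fin n) (Fin n) ℝ) i j) * pd i (pd j w) x
  have h8 : lp w x = Lv s w x - D := by linarith
  rw [h8]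
  nlinarith [sq_nonneg (Lv s w x + D)]

include hs hη hηc hw in
/-- **second Caccioppoli inequality** -/
theorem cac2 (hn : ∀ x ∈ tsupport η, ∀ i j, |s x i j - (1 : Matrix (Fin n) (Fin n) ℝ) i j| ≤
      1 / (8 * (n + 1))) :
    ∫ x, η x ^ 2 * hq w x ≤ ∫ x, (6 * (η x ^ 2 * Lv s w x ^ 2) + 8 * (gq η x * gq w x)) := by
  have h0 : ∀ x ∉ tsupport η, η x = 0 := fun x hx => image_eq_zero_of_notMem_tsupport hx
  have hg0 : ∀ x ∉ tsupport η, gq η x = 0 := fun x hx =>
    Finset.sum_eq_zero fun i _ => by rw [poff hx]; ring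
  have hLc := (Lv_c hs hw).continuous
  have i1 : Integrable fun x => η x ^ 2 * hq w x :=
    icc ((hη.continuous.pow 2).mul (hq_c hw)) (HasCompactSupport.intro hηc fun x hx => by
      rw [h0 x hx]; ring)
  have i2 : Integrable fun x => 6 * (η x ^ 2 * Lv s w x ^ 2) + 8 * (gq η x * gq w x) :=
    icc ((continuous_const.mul ((hη.continuous.pow 2).mul (hLc.pow 2))).add
      (continuous_const.mul ((gq_c hη).mul (gq_c hw))))
      (HasCompactSupport.intro hηc fun x hx => by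
      rw [h0 x hx, hg0 x hx]; ring)
  have hT : Continuous fun x => ∑ j, ∑ i, pd j (pd i w) x * (pd j η x * pd i w x) :=
    continuous_finsetSum _ fun j _ => continuous_finsetSum _ fun i _ =>
      (cp (cp hw i) j).continuous.mul ((cp hη j).continuous.mul (cp hw i).continuous)
  have hT3 : Continuous fun x => ∑ j, pd j η x * pd j w x :=
    continuous_finsetSum _ fun j _ => (cp hη j).continuous.mul (cp hw j).continuous
  have i3 : Integrable fun x => η x ^ 2 * hq w x - η x ^ 2 * lp w x ^ 2 +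
      2 * η x * (∑ j, ∑ i, pd j (pd i w) x * (pd j η x * pd i w x)) -
      2 * η x * (∑ j, pd j η x * pd j w x) * lp w x :=
    icc ((((((hη.continuous.pow 2).mul (hq_c hw)).sub ((hη.continuous.pow 2).mul
      ((lp_s hw).continuous.pow 2))).add ((continuous_const.mul hη.continuous).mul hT))).sub
      (((continuous_const.mul hη.continuous).mul hT3).mul (lp_s hw).continuous))
      (HasCompactSupport.intro hηc fun x hx => by
      rw [h0 x hx]; ring)
  have h1 : ∫ x, η x ^ 2 * hq w x ≤ ∫ x, ((6 * (η x ^ 2 * Lv s w x ^ 2) + 8 * (gq η x * gq w x)) +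
      (16 / 11) * (η x ^ 2 * hq w x - η x ^ 2 * lp w x ^ 2 +
      2 * η x * (∑ j, ∑ i, pd j (pd i w) x * (pd j η x * pd i w x)) -
      2 * η x * (∑ j, pd j η x * pd j w x) * lp w x)) := by
    refine integral_mono i1 (i2.add (i3.const_mul (16 / 11))) fun x => ?_
    show η x ^ 2 * hq w x ≤ (6 * (η x ^ 2 * Lv s w x ^ 2) + 8 * (gq η x * gq w x)) +
      (16 / 11) * (η x ^ 2 * hq w x - η x ^ 2 * lp w x ^ 2 +
      2 * η x * (∑ j, ∑ i, pd j (pd i w) x * (pd j η x * pd i w x)) -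
      2 * η x * (∑ j, pd j η x * pd j w x) * lp w x)
    by_cases hx : x ∈ tsupport η
    · have e1 := lp_le (w := w) (hn x hx)
      have e2 := cs2 (fun j i => pd j (pd i w) x) (fun j => pd j η x) (fun i => pd i w x)
      have e3 := Finset.sum_mul_sq_le_sq_mul_sq Finset.univ (fun j => pd j η x)
        (fun j => pd j w x)
      have g1 : ∑ i, pd i w x ^ 2 = gq w x := rfl
      have g2 : ∑ i, pd i η x ^ 2 = gq η x := rfl
      have g3 : ∑ j, ∑ i, pd j (pd i w) x ^ 2 = hq w x := rfl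
      rw [g1, g2, g3] at e2
      rw [g1, g2] at e3
      set T2 := ∑ j, ∑ i, pd j (pd i w) x * (pd j η x * pd i w x)
      set T3 := ∑ j, pd j η x * pd j w x
      set L := Lv s w x
      set H := hq w x
      set D := lp w x
      have n1 := gq_nn w x
      have n2 := gq_nn η x
      have n3 : 0 ≤ H := hq_nn w x
      have n4 : 0 ≤ gq η x * gq w x := mul_nonneg n2 n1
      have p1 : |2 * η x * T2| ≤ 1 / 4 * (η x ^ 2 * H) + 4 * (gq η x * gq w x) := by
        refine abs_le_of_sq_le_sq ?_ (by positivity)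
        have q1 : η x ^ 2 * T2 ^ 2 ≤ η x ^ 2 * (H * (gq η x * gq w x)) :=
          mul_le_mul_of_nonneg_left e2 (sq_nonneg _)
        nlinarith [sq_nonneg (1 / 4 * (η x ^ 2 * H) - 4 * (gq η x * gq w x))]
      have p2 : 2 * η x * T3 * D ≤ η x ^ 2 * D ^ 2 + gq η x * gq w x := by
        nlinarith [sq_nonneg (η x * D - T3)]
      have p3 := neg_le_of_abs_le p1
      have p4 : η x ^ 2 * D ^ 2 ≤ η x ^ 2 * (2 * L ^ 2 + 1 / 32 * H) :=
        mul_le_mul_of_nonneg_left e1 (sq_nonneg _)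
      have n5 : 0 ≤ η x ^ 2 * L ^ 2 := by positivity
      nlinarith
    · rw [h0 x hx, hg0 x hx]
      simp
  rw [integral_add i2 (i3.const_mul (16 / 11)), integral_const_mul, h2_id hη hηc hw] at h1
  linarith

end

end Vale.Agent.P088.R2.H238.S3
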