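import Vale.Agent.P088.R2.H558.Spec

/-!
# P088, stage 3: the mixed derivative on the diagonal, averaged with a variable scale
-/

open MeasureTheory Set
open scoped ContDiff Matrix ENNReal

noncomputable section

namespace Vale.Agent.P088.R2.H238.S3

open Vale.Agent.P088.LR Vale.Agent.P088.HY

variable {n : ℕ}

theorem mem_bpp {p : V n} {r : ℝ} {z : VV n} :
    z ∈ Metric.ball (p, p) r ↔ dist z.1 p < r ∧ dist z.2 p < r := by
  rw [← ball_prod_same]
  simp [Set.mem_prod, Metric.mem_ball]

/-- The scale does not vary much. -/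
def Slow (B : Set (V n)) (lam : V n → ℝ) : Prop :=
  ∀ p ∈ B, ∀ q ∈ B, dist p q < 2 / lam p + 2 / lam q → lam p ≤ 2 * lam q

/-- Averaging over the balls about the diagonal, variable radii. -/
theorem fubv {B : Set (V n)} (hB : MeasurableSet B) {U : Set (VV n)} (hU : IsOpen U)
    {lam : V n → ℝ} (hlm : Measurable lam) (hl1 : ∀ p ∈ B, 1 ≤ lam p) (hsl : Slow B lam)
    (hsub : ∀ p ∈ B, Metric.ball (p, p) (2 / lam p) ⊆ U) {g : VV n → ℝ} (hg : IntegrableOn g U)
    (hg0 : ∀ z ∈ U, 0 ≤ g z) :
    IntegrableOn (fun p => lam p ^ n * ∫ z in Metric.ball (p, p) (2 / lam p), g z) B ∧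
      ∫ p in B, lam p ^ n * ∫ z in Metric.ball (p, p) (2 / lam p), g z ≤ 16 ^ n * ∫ z in U, g z := by
  classical
  obtain ⟨S, hS⟩ : ∃ S : Set (V n × VV n), S = {q | q.2 ∈ Metric.ball (q.1, q.1) (2 / lam q.1)} :=
    ⟨_, rfl⟩
  have hSm : MeasurableSet S := by
    have e : S = {q : V n × VV n | dist q.2.1 q.1 < 2 / lam q.1} ∩
        {q | dist q.2.2 q.1 < 2 / lam q.1} := by
      rw [hS]
      ext q
      change q.2 ∈ Metric.ball (q.1, q.1) (2 / lam q.1) ↔ _
      rw [mem_bpp]
      rfl
    rw [e]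
    have h1 : Measurable fun q : V n × VV n => 2 / lam q.1 :=
      measurable_const.div (hlm.comp measurable_fst)
    have h2 : Measurable fun q : V n × VV n => dist q.2.1 q.1 :=
      (by fun_prop : Continuous fun q : V n × VV n => dist q.2.1 q.1).measurable
    have h3 : Measurable fun q : V n × VV n => dist q.2.2 q.1 :=
      (by fun_prop : Continuous fun q : V n × VV n => dist q.2.2 q.1).measurable
    exact (measurableSet_lt h2 h1).inter (measurableSet_lt h3 h1)
  have hUm := hU.measurableSet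
  -- the function
  obtain ⟨H, hH⟩ : ∃ H : V n × VV n → ℝ, H = S.indicator fun q => lam q.1 ^ n * g q.2 := ⟨_, rfl⟩
  have hHm : AEStronglyMeasurable H ((volume.restrict B).prod (volume.restrict U)) := by
    rw [hH]
    exact ((((hlm.comp measurable_fst).pow_const n).aestronglyMeasurable).mul
      hg.aestronglyMeasurable.comp_snd).indicator hSm
  have hball : ∀ p ∈ B, lam p ^ n * ∫ z in Metric.ball (p, p) (2 / lam p), g z =
      ∫ z in U, H (p, z) := by
    intro p hp
    have e : (fun z => H (p, z)) = (Metric.ball (p, p) (2 / lam p)).indicator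
        fun z => lam p ^ n * g z := by
      ext z
      rw [hH, hS]
      rfl
    rw [e, integral_indicator Metric.isOpen_ball.measurableSet,
      Measure.restrict_restrict Metric.isOpen_ball.measurableSet,
      inter_eq_self_of_subset_left (hsub p hp), integral_const_mul]
  -- the inner integral
  have hin : ∀ z ∈ U, ∫⁻ p in B, ENNReal.ofReal (H (p, z)) ≤ ENNReal.ofReal (16 ^ n * g z) := by
    intro z hz
    by_cases hne : ∃ p ∈ B, z ∈ Metric.ball (p, p) (2 / lam p)
    · obtain ⟨p₀, hp₀, hz₀⟩ := hne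
      have hl0 : 0 < lam p₀ := by linarith [hl1 p₀ hp₀]
      have hb : ∀ p ∈ B, ENNReal.ofReal (H (p, z)) ≤ (Metric.ball z.1 (4 / lam p₀)).indicator
          (fun _ => ENNReal.ofReal ((2 * lam p₀) ^ n * g z)) p := by
        intro p hp
        by_cases hpz : z ∈ Metric.ball (p, p) (2 / lam p)
        · have hl : 0 < lam p := by linarith [hl1 p hp]
          have d1 := (mem_bpp.1 hpz).1
          have d0 := (mem_bpp.1 hz₀).1
          have d2 : dist p p₀ < 2 / lam p + 2 / lam p₀ := by
            calc dist p p₀ ≤ dist p z.1 + dist z.1 p₀ := dist_triangle _ _ _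
              _ < _ := by rw [dist_comm p z.1]; linarith
          have d3 : lam p ≤ 2 * lam p₀ := hsl p hp p₀ hp₀ d2
          have d4 : lam p₀ ≤ 2 * lam p := hsl p₀ hp₀ p hp (by rw [dist_comm]; linarith)
          have d5 : 2 / lam p ≤ 4 / lam p₀ := by
            rw [div_le_div_iff₀ hl hl0]; linarith
          have hmem : p ∈ Metric.ball z.1 (4 / lam p₀) := by
            rw [Metric.mem_ball, dist_comm]; linarith
          rw [indicator_of_mem hmem]
          have hv : H (p, z) = lam p ^ n * g z := by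
            rw [hH, hS]
            exact indicator_of_mem (show (p, z) ∈ {q : V n × VV n |
              q.2 ∈ Metric.ball (q.1, q.1) (2 / lam q.1)} from hpz) _
          rw [hv]
          exact ENNReal.ofReal_le_ofReal (mul_le_mul_of_nonneg_right
            (pow_le_pow_left₀ hl.le d3 n) (hg0 z hz))
        · have hv : H (p, z) = 0 := by
            rw [hH, hS]
            exact indicator_of_notMem (show (p, z) ∉ {q : V n × VV n |
              q.2 ∈ Metric.ball (q.1, q.1) (2 / lam q.1)} from hpz) _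
          rw [hv, ENNReal.ofReal_zero]
          exact zero_le
      calc ∫⁻ p in B, ENNReal.ofReal (H (p, z))
          ≤ ∫⁻ p in B, (Metric.ball z.1 (4 / lam p₀)).indicator
              (fun _ => ENNReal.ofReal ((2 * lam p₀) ^ n * g z)) p :=
            setLIntegral_mono' hB hb
        _ ≤ ∫⁻ p, (Metric.ball z.1 (4 / lam p₀)).indicator
              (fun _ => ENNReal.ofReal ((2 * lam p₀) ^ n * g z)) p :=
            lintegral_mono' Measure.restrict_le_self le_rfl
        _ = ENNReal.ofReal ((2 * lam p₀) ^ n * g z) * volume (Metric.ball z.1 (4 / lam p₀)) := by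
            rw [lintegral_indicator Metric.isOpen_ball.measurableSet, lintegral_const,
              Measure.restrict_apply_univ]
        _ = ENNReal.ofReal (16 ^ n * g z) := by
            rw [Real.volume_pi_ball _ (by positivity), Fintype.card_fin,
              ← ENNReal.ofReal_mul (mul_nonneg (by positivity) (hg0 z hz))]
            congr 1
            have e : (2 * lam p₀) ^ n * (2 * (4 / lam p₀)) ^ n = 16 ^ n := by
              rw [← mul_pow]
              congr 1
              field_simp
              norm_num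
            calc (2 * lam p₀) ^ n * g z * (2 * (4 / lam p₀)) ^ n
                = (2 * lam p₀) ^ n * (2 * (4 / lam p₀)) ^ n * g z := by ring
              _ = _ := by rw [e]
    · have h0 : ∀ p ∈ B, ENNReal.ofReal (H (p, z)) ≤ 0 := by
        intro p hp
        have hpz : z ∉ Metric.ball (p, p) (2 / lam p) := fun h => hne ⟨p, hp, h⟩
        have hv : H (p, z) = 0 := by
          rw [hH, hS]
          exact indicator_of_notMem (show (p, z) ∉ {q : V n × VV n |
            q.2 ∈ Metric.ball (q.1, q.1) (2 / lam q.1)} from hpz) _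
        rw [hv, ENNReal.ofReal_zero]
      calc ∫⁻ p in B, ENNReal.ofReal (H (p, z)) ≤ ∫⁻ _p in B, 0 := setLIntegral_mono' hB h0
        _ = 0 := by simp
        _ ≤ _ := zero_le
  -- Tonelli
  have hH0 : ∀ q : V n × VV n, q.2 ∈ U → q.1 ∈ B → 0 ≤ H q := by
    intro q h2 h1
    rw [hH]
    by_cases hq : q ∈ S
    · rw [indicator_of_mem hq]
      exact mul_nonneg (pow_nonneg (by linarith [hl1 q.1 h1]) n) (hg0 _ h2)
    · rw [indicator_of_notMem hq]
  have hton : ∫⁻ p in B, ∫⁻ z in U, ENNReal.ofReal (H (p, z)) ≤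
      ENNReal.ofReal (16 ^ n * ∫ z in U, g z) := by
    have hsw : ∫⁻ p in B, ∫⁻ z in U, ENNReal.ofReal (H (p, z)) =
        ∫⁻ z in U, ∫⁻ p in B, ENNReal.ofReal (H (p, z)) :=
      lintegral_lintegral_swap (f := fun p z => ENNReal.ofReal (H (p, z)))
        hHm.aemeasurable.ennreal_ofReal
    rw [hsw]
    calc ∫⁻ z in U, ∫⁻ p in B, ENNReal.ofReal (H (p, z))
        ≤ ∫⁻ z in U, ENNReal.ofReal (16 ^ n * g z) := setLIntegral_mono' hUm hin
      _ = ENNReal.ofReal (∫ z in U, 16 ^ n * g z) := by
          rw [ofReal_integral_eq_lintegral_ofReal (hg.const_mul _)]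
          exact (ae_restrict_iff' hUm).2 (Filter.Eventually.of_forall fun z hz =>
            mul_nonneg (by positivity) (hg0 z hz))
      _ = _ := by rw [integral_const_mul]
  -- the outer function
  have hval : ∀ p ∈ B, ENNReal.ofReal (∫ z in U, H (p, z)) = ∫⁻ z in U, ENNReal.ofReal (H (p, z)) := by
    intro p hp
    refine ofReal_integral_eq_lintegral_ofReal ?_ ?_
    · have e : (fun z => H (p, z)) = (Metric.ball (p, p) (2 / lam p)).indicator
          fun z => lam p ^ n * g z := by
        ext z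
        rw [hH, hS]
        rfl
      rw [e]
      exact (hg.const_mul _).indicator Metric.isOpen_ball.measurableSet
    · exact (ae_restrict_iff' hUm).2 (Filter.Eventually.of_forall fun z hz => hH0 (p, z) hz hp)
  have hm : AEStronglyMeasurable (fun p => ∫ z in U, H (p, z)) (volume.restrict B) :=
    hHm.integral_prod_right'
  have hnn : 0 ≤ᵐ[volume.restrict B] fun p => ∫ z in U, H (p, z) :=
    (ae_restrict_iff' hB).2 (Filter.Eventually.of_forall fun p hp =>
      setIntegral_nonneg hUm fun z hz => hH0 (p, z) hz hp)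
  have hlt : ∫⁻ p in B, ENNReal.ofReal (∫ z in U, H (p, z)) ≤
      ENNReal.ofReal (16 ^ n * ∫ z in U, g z) := by
    refine le_trans (le_of_eq ?_) hton
    exact setLIntegral_congr_fun hB hval
  have hI : Integrable (fun p => ∫ z in U, H (p, z)) (volume.restrict B) := by
    refine ⟨hm, ?_⟩
    rw [hasFiniteIntegral_iff_ofReal hnn]
    exact hlt.trans_lt ENNReal.ofReal_lt_top
  have hgi : 0 ≤ ∫ z in U, g z := setIntegral_nonneg hUm hg0
  constructor
  · exact (integrableOn_congr_fun hball hB).2 hI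
  · rw [setIntegral_congr_fun hB hball, integral_eq_lintegral_of_nonneg_ae hnn hm]
    exact ENNReal.toReal_le_of_le_ofReal (by positivity) hlt

/-- **(S8) the mixed derivatives on the diagonal** -/
theorem diag_est (hINP : RowINP) (n : ℕ) : ∃ (K : ℕ) (C ε : ℝ), 0 < C ∧ 0 < ε ∧
    ∀ s₁ s₂ : MF n, SmM s₁ → SmM s₂ →
    (∀ i j, Cl K ε (fun x => s₁ x i j - (1 : Matrix (Fin n) (Fin n) ℝ) i j)) →
    (∀ i j, Cl K ε (fun x => s₂ x i j - (1 : Matrix (Fin n) (Fin n) ℝ) i j)) →
    ∀ (B : Set (V n)) (U : Set (VV n)) (lam om M : V n → ℝ) (k F g : VV n → ℝ),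
    MeasurableSet B → IsOpen U → Measurable lam → (∀ p ∈ B, 1 ≤ lam p) → Slow B lam →
    (∀ p ∈ B, Metric.ball (p, p) (2 / lam p) ⊆ U) → ContDiffOn ℝ ∞ k U → ContDiffOn ℝ ∞ F U →
    (∀ z ∈ U, Lx s₁ k z + Ly s₂ k z = F z) →
    (∀ p ∈ B, ∀ l ≤ K, ∀ z ∈ Metric.ball (p, p) (2 / lam p),
      ‖iteratedFDeriv ℝ l F z‖ ≤ M p * lam p ^ l) →
    Measurable om → (∀ p ∈ B, 0 ≤ om p) → IntegrableOn g U → (∀ z ∈ U, 0 ≤ g z) →
    (∀ p ∈ B, ∀ z ∈ Metric.ball (p, p) (2 / lam p), om p * lam p ^ (n + 4) * k z ^ 2 ≤ g z) →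
    IntegrableOn (fun p => om p * M p ^ 2) B → ∀ i j,
    IntegrableOn (fun p => om p * dx i (dy j k) (p, p) ^ 2) B ∧
      ∫ p in B, om p * dx i (dy j k) (p, p) ^ 2 ≤
        C * ((∫ z in U, g z) + ∫ p in B, om p * M p ^ 2) := by
  obtain ⟨K, C, ε, hC, hε, h⟩ := hINP n
  refine ⟨K, 2 * C ^ 2 * 16 ^ n, ε, by positivity, hε, ?_⟩
  intro s₁ s₂ hs₁ hs₂ h1 h2 B U lam om M k F g hB hU hlm hl1 hsl hsub hk hF he hM hom hom0 hg hg0
    hgk hMi i j
  obtain ⟨f1, f2⟩ := fubv hB hU hlm hl1 hsl hsub hg hg0
  have hUm := hU.measurableSet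
  -- the pointwise bound
  have hpt : ∀ p ∈ B, om p * dx i (dy j k) (p, p) ^ 2 ≤
      2 * C ^ 2 * (lam p ^ n * (∫ z in Metric.ball (p, p) (2 / lam p), g z) + om p * M p ^ 2) := by
    intro p hp
    have hl : 0 < lam p := by linarith [hl1 p hp]
    have hb := hsub p hp
    have hgb : IntegrableOn g (Metric.ball (p, p) (2 / lam p)) := hg.mono_set hb
    have hlp : 0 < lam p ^ (n + 4) := pow_pos hl _
    rcases (hom0 p hp).lt_or_eq with ho | ho
    · have hkc : ContinuousOn k (Metric.ball (p, p) (2 / lam p)) := hk.continuousOn.mono hb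
      have hki : IntegrableOn (fun z => k z ^ 2) (Metric.ball (p, p) (2 / lam p)) := by
        have hm : AEStronglyMeasurable (fun z => k z ^ 2)
            (volume.restrict (Metric.ball (p, p) (2 / lam p))) :=
          (hkc.pow 2).aestronglyMeasurable Metric.isOpen_ball.measurableSet
        refine Integrable.mono' (hgb.const_mul (om p * lam p ^ (n + 4))⁻¹) hm ?_
        refine (ae_restrict_iff' Metric.isOpen_ball.measurableSet).2
          (Filter.Eventually.of_forall fun z hz => ?_)
        rw [Real.norm_of_nonneg (sq_nonneg _), ← div_eq_inv_mul, le_div_iff₀ (by positivity)]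
        have := hgk p hp z hz
        linarith
      have hc := h s₁ s₂ hs₁ hs₂ h1 h2 p (lam p) (hl1 p hp) k F (hk.mono hb) (hF.mono hb)
        (fun z hz => he z (hb hz)) hki (M p) (hM p hp) i j
      obtain ⟨I, hI⟩ : ∃ I : ℝ, I = ∫ z in Metric.ball (p, p) (2 / lam p), k z ^ 2 := ⟨_, rfl⟩
      have hI0 : 0 ≤ I := by rw [hI]; exact integral_nonneg fun z => sq_nonneg _
      have hI2 : om p * lam p ^ (n + 4) * I ≤ ∫ z in Metric.ball (p, p) (2 / lam p), g z := by
        rw [hI, ← integral_const_mul]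
        exact setIntegral_mono_on (hki.const_mul _) hgb Metric.isOpen_ball.measurableSet
          (hgk p hp)
      rw [← hI] at hc
      have hM0 : 0 ≤ M p := by
        have h3 := hM p hp 0 (Nat.zero_le _) (p, p) (Metric.mem_ball_self (by positivity))
        rw [pow_zero, mul_one] at h3
        exact (norm_nonneg _).trans h3
      have hs := pow_le_pow_left₀ (abs_nonneg _) hc 2
      rw [sq_abs] at hs
      have e1 : (C * (lam p ^ (n + 2) * √I + M p)) ^ 2 ≤
          2 * C ^ 2 * (lam p ^ n * (lam p ^ (n + 4) * I) + M p ^ 2) := by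
        have e2 : (lam p ^ (n + 2) * √I) ^ 2 = lam p ^ n * (lam p ^ (n + 4) * I) := by
          rw [mul_pow, Real.sq_sqrt hI0, ← pow_mul, ← mul_assoc, ← pow_add]
          congr 2
          ring
        have e3 : (lam p ^ (n + 2) * √I + M p) ^ 2 ≤
            2 * (lam p ^ (n + 2) * √I) ^ 2 + 2 * M p ^ 2 := by
          nlinarith [sq_nonneg (lam p ^ (n + 2) * √I - M p)]
        rw [mul_pow]
        rw [e2] at e3
        have := mul_le_mul_of_nonneg_left e3 (sq_nonneg C)
        linarith
      have e4 := mul_le_mul_of_nonneg_left (hs.trans e1) ho.le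
      have e5 : om p * (2 * C ^ 2 * (lam p ^ n * (lam p ^ (n + 4) * I) + M p ^ 2)) =
          2 * C ^ 2 * (lam p ^ n * (om p * lam p ^ (n + 4) * I) + om p * M p ^ 2) := by ring
      rw [e5] at e4
      refine e4.trans ?_
      have e6 := mul_le_mul_of_nonneg_left hI2 (pow_nonneg hl.le n)
      have e7 : lam p ^ n * (om p * lam p ^ (n + 4) * I) + om p * M p ^ 2 ≤
        lam p ^ n * (∫ z in Metric.ball (p, p) (2 / lam p), g z) + om p * M p ^ 2 := by linarith
      exact mul_le_mul_of_nonneg_left e7 (by positivity)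
    · rw [← ho]
      simp only [zero_mul, add_zero]
      have : 0 ≤ ∫ z in Metric.ball (p, p) (2 / lam p), g z :=
        setIntegral_nonneg Metric.isOpen_ball.measurableSet fun z hz => hg0 z (hb hz)
      positivity
  have hdom : IntegrableOn (fun p => 2 * C ^ 2 *
      (lam p ^ n * (∫ z in Metric.ball (p, p) (2 / lam p), g z) + om p * M p ^ 2)) B :=
    (f1.add hMi).const_mul _
  have hdk : ContDiffOn ℝ ∞ (dx i (dy j k)) U := by
    have a1 : ContDiffOn ℝ ∞ (dy j k) U :=
      (hk.fderiv_of_isOpen hU (by simp)).clm_apply contDiffOn_const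
    exact (a1.fderiv_of_isOpen hU (by simp)).clm_apply contDiffOn_const
  have hmeas : AEStronglyMeasurable (fun p => om p * dx i (dy j k) (p, p) ^ 2)
      (volume.restrict B) := by
    refine hom.aestronglyMeasurable.mul ?_
    have hc : ContinuousOn (fun p : V n => dx i (dy j k) (p, p) ^ 2) B := by
      refine ContinuousOn.pow ?_ 2
      refine hdk.continuousOn.comp (by fun_prop) fun p hp => ?_
      exact hsub p hp (Metric.mem_ball_self (by
        have : 0 < lam p := by linarith [hl1 p hp]
        positivity))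
    exact hc.aestronglyMeasurable hB
  have hint : IntegrableOn (fun p => om p * dx i (dy j k) (p, p) ^ 2) B := by
    refine Integrable.mono' hdom hmeas ((ae_restrict_iff' hB).2
      (Filter.Eventually.of_forall fun p hp => ?_))
    rw [Real.norm_of_nonneg (mul_nonneg (hom0 p hp) (sq_nonneg _))]
    exact hpt p hp
  refine ⟨hint, ?_⟩
  refine (setIntegral_mono_on hint hdom hB hpt).trans ?_
  rw [integral_const_mul, integral_add f1 hMi]
  have hgi : 0 ≤ ∫ z in U, g z := setIntegral_nonneg hUm hg0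
  have hMi0 : 0 ≤ ∫ p in B, om p * M p ^ 2 :=
    setIntegral_nonneg hB fun p hp => mul_nonneg (hom0 p hp) (sq_nonneg _)
  have h16 : (1 : ℝ) ≤ 16 ^ n := one_le_pow₀ (by norm_num)
  have e1 : (∫ p in B, lam p ^ n * ∫ z in Metric.ball (p, p) (2 / lam p), g z) +
      (∫ p in B, om p * M p ^ 2) ≤ 16 ^ n * ((∫ z in U, g z) + ∫ p in B, om p * M p ^ 2) := by
    nlinarith
  calc 2 * C ^ 2 * ((∫ p in B, lam p ^ n * ∫ z in Metric.ball (p, p) (2 / lam p), g z) +
      ∫ p in B, om p * M p ^ 2)
      ≤ 2 * C ^ 2 * (16 ^ n * ((∫ z in U, g z) + ∫ p in B, om p * M p ^ 2)) :=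
        mul_le_mul_of_nonneg_left e1 (by positivity)
    _ = _ := by ring

end Vale.Agent.P088.R2.H238.S3
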