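import Vale.Agent.P088.R2.H354.Spec3
import Vale.Agent.P088.R2.H238.S3.Cac

/-!
# P088, stage 3: linear change of coordinates in `Stp`
-/

open MeasureTheory Set
open scoped ContDiff Matrix Topology

noncomputable section

namespace Vale.Agent.P088.R2.H238.S3

open Vale.Agent.P088.LR Vale.Agent.P088.HY Vale.Agent.P088.HY.T3

variable {n : ℕ}

/-- The linear map of a matrix. -/
def lm (A : Matrix (Fin n) (Fin n) ℝ) : V n →L[ℝ] V n :=
  LinearMap.toContinuousLinearMap (Matrix.toLin' A)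

theorem lm_apply (A : Matrix (Fin n) (Fin n) ℝ) (x : V n) : lm A x = A *ᵥ x := by simp [lm]

theorem mv_cd (A : Matrix (Fin n) (Fin n) ℝ) : ContDiff ℝ ∞ fun x : V n => A *ᵥ x := by
  have h : (fun x : V n => A *ᵥ x) = lm A := by
    funext x; rw [lm_apply]
  rw [h]
  exact (lm A).contDiff

theorem mv_c (A : Matrix (Fin n) (Fin n) ℝ) : Continuous fun x : V n => A *ᵥ x :=
  (mv_cd A).continuous

theorem mv_single (A : Matrix (Fin n) (Fin n) ℝ) (i : Fin n) :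
    A *ᵥ (Pi.single i (1 : ℝ) : V n) = ∑ k, A k i • (Pi.single k (1 : ℝ) : V n) := by
  funext k
  rw [Finset.sum_apply]
  simp [Matrix.mulVec, dotProduct, Pi.single_apply]

/-- chain rule -/
theorem pd_mv (A : Matrix (Fin n) (Fin n) ℝ) {f : V n → ℝ} {x : V n}
    (hf : DifferentiableAt ℝ f (A *ᵥ x)) (i : Fin n) :
    pd i (fun y => f (A *ᵥ y)) x = ∑ k, A k i * pd k f (A *ᵥ x) := by
  have h1 : HasFDerivAt (fun y : V n => A *ᵥ y) (lm A) x := by
    have h : (fun x : V n => A *ᵥ x) = lm A := by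
      funext x; rw [lm_apply]
    rw [h]
    exact (lm A).hasFDerivAt
  have h2 : HasFDerivAt (fun y => f (A *ᵥ y)) ((fderiv ℝ f (A *ᵥ x)).comp (lm A)) x :=
    hf.hasFDerivAt.comp x h1
  unfold pd
  rw [h2.fderiv, ContinuousLinearMap.comp_apply, lm_apply, mv_single, map_sum]
  refine Finset.sum_congr rfl fun k _ => ?_
  rw [map_smul, smul_eq_mul]

section

variable {A : Matrix (Fin n) (Fin n) ℝ} (hA : A.det ≠ 0)

include hA

theorem ia (x : V n) : A⁻¹ *ᵥ (A *ᵥ x) = x := by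
  rw [Matrix.mulVec_mulVec, Matrix.nonsing_inv_mul A hA.isUnit, Matrix.one_mulVec]

theorem ai (x : V n) : A *ᵥ (A⁻¹ *ᵥ x) = x := by
  rw [Matrix.mulVec_mulVec, Matrix.mul_nonsing_inv A hA.isUnit, Matrix.one_mulVec]

end

/-- The homeomorphism of an invertible matrix. -/
def hml (A : Matrix (Fin n) (Fin n) ℝ) (hA : A.det ≠ 0) : V n ≃ₜ V n where
  toFun x := A *ᵥ x
  invFun x := A⁻¹ *ᵥ x
  left_inv := ia hA
  right_inv := ai hA
  continuous_toFun := mv_c A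
  continuous_invFun := mv_c A⁻¹

/-- The image of the volume. -/
theorem map_vol {A : Matrix (Fin n) (Fin n) ℝ} (hA : A.det ≠ 0) :
    Measure.map (fun x : V n => A *ᵥ x) volume = ENNReal.ofReal |A.det⁻¹| • volume := by
  have h := Real.map_matrix_volume_pi_eq_smul_volume_pi hA
  have e : (Matrix.toLin' A : V n → V n) = fun x => A *ᵥ x := by
    funext x; rw [Matrix.toLin'_apply]
  rw [e] at h
  exact h

theorem map_res {A : Matrix (Fin n) (Fin n) ℝ} (hA : A.det ≠ 0) (D : Set (V n)) :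
    Measure.map (fun x : V n => A *ᵥ x) (volume.restrict ((fun x => A *ᵥ x) ⁻¹' D)) =
      ENNReal.ofReal |A.det⁻¹| • volume.restrict D := by
  have h := (hml A hA).measurableEmbedding.restrict_map volume D
  have h2 : Measure.map (hml A hA) volume = ENNReal.ofReal |A.det⁻¹| • volume := map_vol hA
  rw [h2, Measure.restrict_smul] at h
  exact h.symm

/-- Change of variables. -/
theorem int_mv {A : Matrix (Fin n) (Fin n) ℝ} (hA : A.det ≠ 0) (D : Set (V n)) (f : V n → ℝ) :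
    ∫ x in (fun x => A *ᵥ x) ⁻¹' D, f (A *ᵥ x) = |A.det⁻¹| * ∫ x in D, f x := by
  have h := (hml A hA).measurableEmbedding.integral_map
    (μ := volume.restrict ((fun x => A *ᵥ x) ⁻¹' D)) f
  have h2 : Measure.map (hml A hA) (volume.restrict ((fun x => A *ᵥ x) ⁻¹' D)) =
      ENNReal.ofReal |A.det⁻¹| • volume.restrict D := map_res hA D
  rw [h2, integral_smul_measure, ENNReal.toReal_ofReal (abs_nonneg _), smul_eq_mul] at h
  exact h.symm

theorem mem_mv {A : Matrix (Fin n) (Fin n) ℝ} (hA : A.det ≠ 0) {D : Set (V n)} {f : V n → ℝ}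
    (h : MemLp f 2 (volume.restrict ((fun x => A *ᵥ x) ⁻¹' D))) :
    MemLp (fun x => f (A⁻¹ *ᵥ x)) 2 (volume.restrict D) := by
  have h1 : MemLp (fun x => f (A⁻¹ *ᵥ x)) 2
      (Measure.map (hml A hA) (volume.restrict ((fun x => A *ᵥ x) ⁻¹' D))) := by
    rw [(hml A hA).measurableEmbedding.memLp_map_measure_iff]
    refine h.ae_eq (Filter.Eventually.of_forall fun x => ?_)
    show f x = f (A⁻¹ *ᵥ (A *ᵥ x))
    rw [ia hA]
  have h2 : Measure.map (hml A hA) (volume.restrict ((fun x => A *ᵥ x) ⁻¹' D)) =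
      ENNReal.ofReal |A.det⁻¹| • volume.restrict D := map_res hA D
  rw [h2] at h1
  have hc : ENNReal.ofReal |A.det⁻¹| ≠ 0 := by
    rw [ne_eq, ENNReal.ofReal_eq_zero, not_le]
    exact abs_pos.2 (inv_ne_zero hA)
  refine h1.of_measure_le_smul (c := (ENNReal.ofReal |A.det⁻¹|)⁻¹) (ENNReal.inv_ne_top.2 hc) ?_
  rw [smul_smul, ENNReal.inv_mul_cancel hc ENNReal.ofReal_ne_top, one_smul]

/-- The transformed tensor. -/
def psl (c : ℝ) (A : Matrix (Fin n) (Fin n) ℝ) (s : MF n) : MF n := fun x =>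
  c • (A * s (A⁻¹ *ᵥ x) * Aᵀ)

theorem psl_A {c : ℝ} {A : Matrix (Fin n) (Fin n) ℝ} (hA : A.det ≠ 0) (s : MF n) (x : V n)
    (i j : Fin n) : psl c A s (A *ᵥ x) i j = c * ∑ l, ∑ k, A i k * s x k l * A j l := by
  unfold psl
  rw [ia hA, Matrix.smul_apply, smul_eq_mul, Matrix.mul_apply]
  congr 1
  refine Finset.sum_congr rfl fun l _ => ?_
  rw [Matrix.mul_apply, Matrix.transpose_apply, Finset.sum_mul]

/-- The second derivatives. -/
theorem Lv_psl {c : ℝ} {A : Matrix (Fin n) (Fin n) ℝ} (hA : A.det ≠ 0) (s : MF n) {f : V n → ℝ}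
    (hf : ContDiff ℝ ∞ f) (x : V n) :
    Lv (psl c A s) f (A *ᵥ x) = c * Lv s (fun x => f (A *ᵥ x)) x := by
  have h1 : ∀ j, pd j (fun x => f (A *ᵥ x)) = fun x => ∑ l, A l j * pd l f (A *ᵥ x) := fun j =>
    funext fun y => pd_mv A (dfr hf _) j
  have h2 : ∀ i j, pd i (pd j (fun x => f (A *ᵥ x))) x =
      ∑ l, ∑ k, A l j * (A k i * pd k (pd l f) (A *ᵥ x)) := by
    intro i j
    have hg : ∀ l, ContDiff ℝ ∞ (fun x : V n => pd l f (A *ᵥ x)) := fun l =>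
      (cp hf l).comp (mv_cd A)
    have hk : ContDiff ℝ ∞ (fun _ : V n => (0 : ℝ)) := contDiff_const
    rw [h1 j]
    have hgl : ∀ l, ContDiff ℝ ∞ (fun x : V n => A l j * pd l f (A *ᵥ x)) := fun l =>
      contDiff_const.mul (hg l)
    refine (psum hgl i x).trans (Finset.sum_congr rfl fun l _ => ?_)
    have hcl : ContDiff ℝ ∞ (fun _ : V n => A l j) := contDiff_const
    refine (pmul hcl (hg l) i x).trans ?_
    have h3 : pd i (fun _ : V n => A l j) x = 0 := by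
      unfold pd; simp
    rw [h3, zero_mul, zero_add, pd_mv A (f := pd l f) (x := x) (dfr (cp hf l) _) i,
      Finset.mul_sum]
  unfold Lv
  simp only [h2, psl_A hA, Finset.mul_sum, Finset.sum_mul]
  -- both sides are sums over four indices
  calc ∑ i, ∑ j, ∑ l, ∑ k, c * (A i k * s x k l * A j l) * pd i (pd j f) (A *ᵥ x)
      = ∑ l, ∑ k, ∑ j, ∑ i, c * (A i k * s x k l * A j l) * pd i (pd j f) (A *ᵥ x) := by
        rw [Finset.sum_comm]
        simp_rw [fun j : Fin n => Finset.sum_comm (s := (Finset.univ : Finset (Fin n)))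
          (t := Finset.univ) (f := fun i l => ∑ k, c * (A i k * s x k l * A j l) *
            pd i (pd j f) (A *ᵥ x))]
        rw [Finset.sum_comm]
        refine Finset.sum_congr rfl fun l _ => ?_
        simp_rw [fun j : Fin n => Finset.sum_comm (s := (Finset.univ : Finset (Fin n)))
          (t := Finset.univ) (f := fun i k => c * (A i k * s x k l * A j l) *
            pd i (pd j f) (A *ᵥ x))]
        rw [Finset.sum_comm]
    _ = ∑ k, ∑ l, ∑ j, ∑ i, c * (s x k l * (A j l * (A i k * pd i (pd j f) (A *ᵥ x)))) := by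
        rw [Finset.sum_comm]
        refine Finset.sum_congr rfl fun k _ => Finset.sum_congr rfl fun l _ =>
          Finset.sum_congr rfl fun j _ => Finset.sum_congr rfl fun i _ => by ring

/-! ### combinations -/

theorem quad (B : Fin n → Fin n → ℝ) (v : Fin n → ℝ) :
    ∑ i, (∑ k, B k i * v k) ^ 2 ≤ (∑ i, ∑ k, B k i ^ 2) * ∑ k, v k ^ 2 := by
  rw [Finset.sum_mul]
  exact Finset.sum_le_sum fun i _ => Finset.sum_mul_sq_le_sq_mul_sq Finset.univ (fun k => B k i) v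

theorem comb_int {d : ℕ} {μ : Measure (V n)} {u : Fin d → V n → ℝ} (h : ∀ q, MemLp (u q) 2 μ)
    (c : Fin d → ℝ) : Integrable (fun x => (∑ q, c q * u q x) ^ 2) μ := by
  have h1 : MemLp (fun x => ∑ q, c q * u q x) 2 μ :=
    memLp_finsetSum _ fun q _ => (h q).const_mul (c q)
  exact h1.integrable_sq

theorem memLp_cs {f : V n → ℝ} (hf : Continuous f) (hc : HasCompactSupport f) (D : Set (V n)) :
    MemLp f 2 (volume.restrict D) :=
  (hf.memLp_of_hasCompactSupport hc).restrict D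

/-- Change of variables, backwards. -/
theorem int_mv' {A : Matrix (Fin n) (Fin n) ℝ} (hA : A.det ≠ 0) (D : Set (V n)) (f : V n → ℝ) :
    ∫ x in (fun x => A⁻¹ *ᵥ x) ⁻¹' D, f x = |A.det⁻¹|⁻¹ * ∫ x in D, f (A *ᵥ x) := by
  have h := int_mv hA ((fun x => A⁻¹ *ᵥ x) ⁻¹' D) f
  have e : (fun x => A *ᵥ x) ⁻¹' ((fun x => A⁻¹ *ᵥ x) ⁻¹' D) = D := by
    ext x
    show A⁻¹ *ᵥ (A *ᵥ x) ∈ D ↔ x ∈ D
    rw [ia hA]
  rw [e] at h
  rw [h, ← mul_assoc, inv_mul_cancel₀ (abs_pos.2 (inv_ne_zero hA)).ne', one_mul]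

/-- **Linear change of coordinates in `Stp`.** -/
theorem stp_lin {A : Matrix (Fin n) (Fin n) ℝ} (hA : A.det ≠ 0) {c : ℝ} (hc : 0 < c)
    {D G : Set (V n)} (hD : IsOpen D) {s₁ s₂ : MF n} (h : Stp D G s₁ s₂) :
    Stp ((fun x => A⁻¹ *ᵥ x) ⁻¹' D) ((fun x => A⁻¹ *ᵥ x) ⁻¹' G) (psl c A s₁) (psl c A s₂) := by
  obtain ⟨C₀, hC₀, h⟩ := h
  obtain ⟨J, hJ⟩ : ∃ J : ℝ, J = |A.det⁻¹| := ⟨_, rfl⟩
  have hJ0 : 0 < J := by rw [hJ]; exact abs_pos.2 (inv_ne_zero hA)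
  obtain ⟨NA, hNA⟩ : ∃ N : ℝ, N = ∑ i, ∑ k, A i k ^ 2 := ⟨_, rfl⟩
  obtain ⟨NB, hNB⟩ : ∃ N : ℝ, N = ∑ i, ∑ k, A⁻¹ k i ^ 2 := ⟨_, rfl⟩
  have hNA0 : 0 ≤ NA := by
    rw [hNA]; exact Finset.sum_nonneg fun _ _ => Finset.sum_nonneg fun _ _ => sq_nonneg _
  have hNB0 : 0 ≤ NB := by
    rw [hNB]; exact Finset.sum_nonneg fun _ _ => Finset.sum_nonneg fun _ _ => sq_nonneg _
  have hci : 0 ≤ (c ^ 2)⁻¹ := by positivity
  refine ⟨(1 + NB) * (1 + NA) * (1 + (c ^ 2)⁻¹) * C₀, by positivity, ?_⟩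
  intro d f h₁ h₂ hf hfc hfD hh1 hh1c hh1D hh2 hh2c hh2D hL ε hε
  have eD : (fun x => A *ᵥ x) ⁻¹' ((fun x => A⁻¹ *ᵥ x) ⁻¹' D) = D := by
    ext x
    show A⁻¹ *ᵥ (A *ᵥ x) ∈ D ↔ x ∈ D
    rw [ia hA]
  have eDG : (fun x => A *ᵥ x) ⁻¹' ((fun x => A⁻¹ *ᵥ x) ⁻¹' (D \ G)) = D \ G := by
    ext x
    show A⁻¹ *ᵥ (A *ᵥ x) ∈ D \ G ↔ x ∈ D \ G
    rw [ia hA]
  have eDG' : (fun x => A⁻¹ *ᵥ x) ⁻¹' D \ (fun x => A⁻¹ *ᵥ x) ⁻¹' G =
      (fun x => A⁻¹ *ᵥ x) ⁻¹' (D \ G) := rfl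
  -- supports
  have hcs : ∀ {u : V n → ℝ}, HasCompactSupport u → HasCompactSupport fun x => u (A *ᵥ x) :=
    fun {u} hu => hu.comp_homeomorph (hml A hA)
  have hts : ∀ {u : V n → ℝ}, tsupport (fun x => u (A *ᵥ x)) = (fun x => A *ᵥ x) ⁻¹' tsupport u := by
    intro u
    exact (tsupport_comp_eq_preimage u (hml A hA))
  have hmem : ∀ {S : Set (V n)} {u : V n → ℝ}, tsupport u ⊆ (fun x => A⁻¹ *ᵥ x) ⁻¹' S →
      tsupport (fun x => u (A *ᵥ x)) ⊆ S := by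
    intro S u hu x hx
    rw [hts] at hx
    have := hu hx
    have h3 : A⁻¹ *ᵥ (A *ᵥ x) ∈ S := this
    rwa [ia hA] at h3
  obtain ⟨w, dv, w1, w0, w2, w3, w4, wk, wb⟩ := h d (fun q x => f q (A *ᵥ x))
    (fun q x => c⁻¹ * h₁ q (A *ᵥ x)) (fun q x => c⁻¹ * h₂ q (A *ᵥ x))
    (fun q => (hf q).comp (mv_cd A)) (fun q => hcs (hfc q)) (fun q => hmem (hfD q))
    (fun q => contDiff_const.mul ((hh1 q).comp (mv_cd A))) (fun q => (hcs (hh1c q)).mul_left)
    (fun q => tsupport_mul_subset_right.trans (hmem (hh1D q)))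
    (fun q => contDiff_const.mul ((hh2 q).comp (mv_cd A))) (fun q => (hcs (hh2c q)).mul_left)
    (fun q => tsupport_mul_subset_right.trans (hmem (hh2D q)))
    (fun q x hx => by
      have h3 := Lv_psl (c := c) hA s₁ (hf q) x
      have h4 := hL q (A *ᵥ x) (by
        show A⁻¹ *ᵥ (A *ᵥ x) ∈ D
        rwa [ia hA])
      rw [h3] at h4
      have h5 : Lv s₁ (fun x => f q (A *ᵥ x)) x = c⁻¹ * (h₁ q (A *ᵥ x) + h₂ q (A *ᵥ x)) := by
        rw [← h4, ← mul_assoc, inv_mul_cancel₀ hc.ne', one_mul]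
      rw [h5, mul_add]) (ε * J / (1 + NB)) (by positivity)
  -- the gradients
  have hwd : ∀ q, ∀ x ∈ D, DifferentiableAt ℝ (w q) x := fun q x hx =>
    ((w1 q).contDiffAt (hD.mem_nhds hx)).differentiableAt (by simp)
  have gw : ∀ q i, ∀ x ∈ D, pd i (fun x => w q (A⁻¹ *ᵥ x)) (A *ᵥ x) =
      ∑ k, A⁻¹ k i * pd k (w q) x := by
    intro q i x hx
    have h3 := pd_mv A⁻¹ (f := w q) (x := A *ᵥ x) (by rw [ia hA]; exact hwd q x hx) i
    rw [ia hA] at h3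
    exact h3
  have gf : ∀ q i x, pd i (f q) (A *ᵥ x) = ∑ k, A⁻¹ k i * pd k (fun x => f q (A *ᵥ x)) x := by
    intro q i x
    have h3 := pd_mv A⁻¹ (f := fun x => f q (A *ᵥ x)) (x := A *ᵥ x)
      (dfr ((hf q).comp (mv_cd A)) _) i
    rw [ia hA] at h3
    have h4 : (fun y => f q (A *ᵥ (A⁻¹ *ᵥ y))) = f q := by
      funext y; rw [ai hA]
    rw [h4] at h3
    exact h3
  have gp : ∀ (φ : V n → ℝ), ContDiff ℝ ∞ φ → ∀ i x, pd i φ (A *ᵥ x) =
      ∑ k, A⁻¹ k i * pd k (fun x => φ (A *ᵥ x)) x := by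
    intro φ hφ i x
    have h3 := pd_mv A⁻¹ (f := fun x => φ (A *ᵥ x)) (x := A *ᵥ x)
      (dfr (hφ.comp (mv_cd A)) _) i
    rw [ia hA] at h3
    have h4 : (fun y => φ (A *ᵥ (A⁻¹ *ᵥ y))) = φ := by
      funext y; rw [ai hA]
    rw [h4] at h3
    exact h3
  -- contraction
  have contr : ∀ (s : Matrix (Fin n) (Fin n) ℝ) (p r : Fin n → ℝ),
      ∑ i, ∑ j, (A * s * Aᵀ) i j * ((∑ k, A⁻¹ k i * p k) * (∑ l, A⁻¹ l j * r l)) =
        ∑ k, ∑ l, s k l * (p k * r l) := by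
    intro s p r
    have e1 : ∀ (S : Matrix (Fin n) (Fin n) ℝ) (p r : Fin n → ℝ),
        ∑ i, ∑ j, S i j * (p i * r j) = p ⬝ᵥ (S *ᵥ r) := by
      intro S p r
      simp only [dotProduct, Matrix.mulVec, Finset.mul_sum]
      exact Finset.sum_congr rfl fun i _ => Finset.sum_congr rfl fun j _ => by ring
    have e2 : ∀ p : Fin n → ℝ, (fun i => ∑ k, A⁻¹ k i * p k) = (A⁻¹)ᵀ *ᵥ p := by
      intro p
      funext i
      simp only [Matrix.mulVec, dotProduct, Matrix.transpose_apply]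
    rw [e1 (A * s * Aᵀ) (fun i => ∑ k, A⁻¹ k i * p k) (fun j => ∑ l, A⁻¹ l j * r l), e1 s p r,
      e2 p, e2 r]
    rw [Matrix.mulVec_mulVec, Matrix.mul_assoc, ← Matrix.transpose_mul,
      Matrix.nonsing_inv_mul A hA.isUnit, Matrix.transpose_one, Matrix.mul_one,
      ← Matrix.vecMul_transpose, Matrix.transpose_transpose, Matrix.dotProduct_mulVec,
      Matrix.vecMul_vecMul, ← Matrix.mul_assoc, Matrix.nonsing_inv_mul A hA.isUnit,
      Matrix.one_mul, ← Matrix.dotProduct_mulVec]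
  have hDm : MeasurableSet D := hD.measurableSet
  have hD'o : IsOpen ((fun x : V n => A⁻¹ *ᵥ x) ⁻¹' D) := hD.preimage (mv_c A⁻¹)
  have pull : ∀ (i : Fin n) {u : Fin n → V n → ℝ}, (∀ k, MemLp (u k) 2 (volume.restrict D)) →
      MemLp (fun x => ∑ k, A⁻¹ k i * u k (A⁻¹ *ᵥ x)) 2
        (volume.restrict ((fun x => A⁻¹ *ᵥ x) ⁻¹' D)) := by
    intro i u hu
    refine memLp_finsetSum _ fun k _ => MemLp.const_mul ?_ _
    have := hu k
    rw [← eD] at this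
    exact mem_mv hA this
  have pull' : ∀ (i : Fin n) {u : Fin n → V n → ℝ}, (∀ k, MemLp (u k) 2 (volume.restrict (D \ G))) →
      MemLp (fun x => ∑ k, A⁻¹ k i * u k (A⁻¹ *ᵥ x)) 2
        (volume.restrict ((fun x => A⁻¹ *ᵥ x) ⁻¹' (D \ G))) := by
    intro i u hu
    refine memLp_finsetSum _ fun k _ => MemLp.const_mul ?_ _
    have := hu k
    rw [← eDG] at this
    exact mem_mv hA this
  have gw' : ∀ q i, ∀ x ∈ (fun x : V n => A⁻¹ *ᵥ x) ⁻¹' D, pd i (fun x => w q (A⁻¹ *ᵥ x)) x =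
      ∑ k, A⁻¹ k i * pd k (w q) (A⁻¹ *ᵥ x) := by
    intro q i x hx
    exact pd_mv A⁻¹ (f := w q) (x := x) (hwd q _ hx) i
  refine ⟨fun q x => w q (A⁻¹ *ᵥ x), fun q i x => ∑ k, A⁻¹ k i * dv q k (A⁻¹ *ᵥ x), fun q => ?_,
    fun q x hx => w0 q _ hx, fun q => ?_, fun q i => ?_, fun q i => pull' i fun k => w4 q k,
    fun q φ hφ hφc hφD => ?_, fun cc => ⟨?_, ?_⟩⟩
  · exact (w1 q).comp ((mv_cd A⁻¹).of_le (by exact_mod_cast le_top)).contDiffOn fun x hx => hx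
  · have := w2 q
    rw [← eD] at this
    exact mem_mv hA this
  · refine (pull i fun k => w3 q k).ae_eq ?_
    refine (ae_restrict_mem hD'o.measurableSet).mono fun x hx => ?_
    exact (gw' q i x hx).symm
  · -- the weak equation
    have hk := wk q (fun x => φ (A *ᵥ x)) (hφ.comp (mv_cd A)) (hcs hφc) (hmem hφD)
    rw [eDG', int_mv' hA, int_mv' hA]
    congr 1
    have e1 : ∫ x in D, ∑ i, ∑ j, psl c A s₂ (A *ᵥ x) i j *
        (pd i (fun x => w q (A⁻¹ *ᵥ x)) (A *ᵥ x) * pd j φ (A *ᵥ x)) =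
        c * ∫ x in D, ∑ i, ∑ j, s₂ x i j * (pd i (w q) x * pd j (fun x => φ (A *ᵥ x)) x) := by
      rw [← integral_const_mul]
      refine setIntegral_congr_fun hDm fun x hx => ?_
      show ∑ i, ∑ j, psl c A s₂ (A *ᵥ x) i j *
        (pd i (fun x => w q (A⁻¹ *ᵥ x)) (A *ᵥ x) * pd j φ (A *ᵥ x)) = _
      have e2 : ∀ i j, psl c A s₂ (A *ᵥ x) i j = c * (A * s₂ x * Aᵀ) i j := fun i j => by
        unfold psl; rw [ia hA]; rfl
      rw [← contr (s₂ x) (fun k => pd k (w q) x) (fun l => pd l (fun x => φ (A *ᵥ x)) x),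
        Finset.mul_sum]
      refine Finset.sum_congr rfl fun i _ => ?_
      rw [Finset.mul_sum]
      refine Finset.sum_congr rfl fun j _ => ?_
      rw [e2, gw q i x hx, gp φ hφ j x]
      ring
    have e3 : ∫ x in D \ G, ∑ i, ∑ j, (psl c A s₁ (A *ᵥ x) i j - psl c A s₂ (A *ᵥ x) i j) *
        ((∑ k, A⁻¹ k i * dv q k (A⁻¹ *ᵥ (A *ᵥ x))) * pd j φ (A *ᵥ x)) =
        c * ∫ x in D \ G, ∑ i, ∑ j, (s₁ x i j - s₂ x i j) *
          (dv q i x * pd j (fun x => φ (A *ᵥ x)) x) := by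
      rw [← integral_const_mul]
      congr 1
      funext x
      have e2 : ∀ i j, psl c A s₁ (A *ᵥ x) i j - psl c A s₂ (A *ᵥ x) i j =
          c * (A * (s₁ x - s₂ x) * Aᵀ) i j := fun i j => by
        unfold psl
        rw [ia hA, Matrix.mul_sub, Matrix.sub_mul, Matrix.smul_apply, Matrix.smul_apply,
          Matrix.sub_apply, smul_eq_mul, smul_eq_mul]
        ring
      have e4 := contr (s₁ x - s₂ x) (fun k => dv q k x) (fun l => pd l (fun x => φ (A *ᵥ x)) x)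
      simp only [Matrix.sub_apply] at e4
      rw [← e4, Finset.mul_sum]
      refine Finset.sum_congr rfl fun i _ => ?_
      rw [Finset.mul_sum]
      refine Finset.sum_congr rfl fun j _ => ?_
      rw [e2, gp φ hφ j x, ia hA]
      ring
    rw [e1, hk, e3]
  · -- the first bound
    have hb := (wb cc).1
    have i4 : ∀ k, Integrable (fun x => (∑ q, cc q * (dv q k x -
        pd k (fun x => f q (A *ᵥ x)) x)) ^ 2) (volume.restrict (D \ G)) := fun k =>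
      comb_int (fun q => (w4 q k).sub (memLp_cs (cp ((hf q).comp (mv_cd A)) k).continuous
        (scp (hcs (hfc q)) k) _)) cc
    rw [eDG', int_mv' hA, ← hJ]
    have b1 : ∫ x in D \ G, ∑ i, (∑ q, cc q * ((∑ k, A⁻¹ k i * dv q k (A⁻¹ *ᵥ (A *ᵥ x))) -
        pd i (f q) (A *ᵥ x))) ^ 2 ≤ ∫ x in D \ G, NB * ∑ k, (∑ q, cc q * (dv q k x -
        pd k (fun x => f q (A *ᵥ x)) x)) ^ 2 := by
      refine integral_mono_of_nonneg (Filter.Eventually.of_forall fun x =>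
        Finset.sum_nonneg fun _ _ => sq_nonneg _)
        ((integrable_finsetSum _ fun k _ => i4 k).const_mul NB)
        (Filter.Eventually.of_forall fun x => ?_)
      show ∑ i, (∑ q, cc q * ((∑ k, A⁻¹ k i * dv q k (A⁻¹ *ᵥ (A *ᵥ x))) -
        pd i (f q) (A *ᵥ x))) ^ 2 ≤ NB * ∑ k, (∑ q, cc q * (dv q k x -
        pd k (fun x => f q (A *ᵥ x)) x)) ^ 2
      have q1 := quad (fun k i => A⁻¹ k i) (fun k => ∑ q, cc q * (dv q k x -
        pd k (fun x => f q (A *ᵥ x)) x))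
      rw [← hNB] at q1
      refine le_trans (le_of_eq ?_) q1
      refine Finset.sum_congr rfl fun i _ => ?_
      congr 1
      simp only [Finset.mul_sum]
      rw [Finset.sum_comm]
      refine Finset.sum_congr rfl fun q _ => ?_
      rw [gf q i x, ia hA, ← Finset.sum_sub_distrib, Finset.mul_sum]
      exact Finset.sum_congr rfl fun k _ => by ring
    have b2 : ∫ x in D, (∑ q, cc q * (c⁻¹ * h₂ q (A *ᵥ x))) ^ 2 =
        (c ^ 2)⁻¹ * (J * ∫ x in (fun x => A⁻¹ *ᵥ x) ⁻¹' D, (∑ q, cc q * h₂ q x) ^ 2) := by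
      have := int_mv hA ((fun x => A⁻¹ *ᵥ x) ⁻¹' D) (fun x => (∑ q, cc q * h₂ q x) ^ 2)
      rw [eD, ← hJ] at this
      rw [← this, ← integral_const_mul]
      congr 1
      funext x
      have e : ∑ q, cc q * (c⁻¹ * h₂ q (A *ᵥ x)) = c⁻¹ * ∑ q, cc q * h₂ q (A *ᵥ x) := by
        rw [Finset.mul_sum]; exact Finset.sum_congr rfl fun q _ => by ring
      rw [e, mul_pow, inv_pow]
    rw [b2] at hb
    rw [integral_const_mul] at b1
    obtain ⟨X, hX⟩ : ∃ X : ℝ, X = ∫ x in (fun x => A⁻¹ *ᵥ x) ⁻¹' D, (∑ q, cc q * h₂ q x) ^ 2 :=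
      ⟨_, rfl⟩
    rw [← hX] at hb
    rw [← hX]
    have hX0 : 0 ≤ X := by rw [hX]; exact integral_nonneg fun x => sq_nonneg _
    have hs0 : 0 ≤ ∑ q, cc q ^ 2 := Finset.sum_nonneg fun _ _ => sq_nonneg _
    refine (mul_le_mul_of_nonneg_left (b1.trans (mul_le_mul_of_nonneg_left hb hNB0))
      (inv_nonneg.2 hJ0.le)).trans ?_
    have e5 : J⁻¹ * (NB * (C₀ * ((c ^ 2)⁻¹ * (J * X)) + ε * J / (1 + NB) * ∑ q, cc q ^ 2)) =
        NB * (c ^ 2)⁻¹ * C₀ * X + NB / (1 + NB) * (ε * ∑ q, cc q ^ 2) := by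
      field_simp
    rw [e5]
    have b3 : NB / (1 + NB) ≤ 1 := by
      rw [div_le_one (by positivity)]; linarith
    have b4 : NB / (1 + NB) * (ε * ∑ q, cc q ^ 2) ≤ 1 * (ε * ∑ q, cc q ^ 2) :=
      mul_le_mul_of_nonneg_right b3 (by positivity)
    have b5 : NB * (c ^ 2)⁻¹ * C₀ * X ≤ (1 + NB) * (1 + NA) * (1 + (c ^ 2)⁻¹) * C₀ * X := by
      refine mul_le_mul_of_nonneg_right (mul_le_mul_of_nonneg_right ?_ hC₀) hX0
      have u1 : NB ≤ (1 + NB) * (1 + NA) := by nlinarith [mul_nonneg hNA0 hNB0]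
      exact mul_le_mul u1 (by linarith) hci (by positivity)
    linarith
  · -- the second bound
    have hb := (wb cc).2
    have i1 := comb_int w2 cc
    have i2 : ∀ k, Integrable (fun x => (∑ q, cc q * pd k (w q) x) ^ 2) (volume.restrict D) :=
      fun k => comb_int (fun q => w3 q k) cc
    rw [int_mv' hA, ← hJ]
    have b1 : ∫ x in D, ((∑ q, cc q * w q (A⁻¹ *ᵥ (A *ᵥ x))) ^ 2 +
        ∑ i, (∑ q, cc q * pd i (fun x => w q (A⁻¹ *ᵥ x)) (A *ᵥ x)) ^ 2) ≤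
        ∫ x in D, (1 + NB) * ((∑ q, cc q * w q x) ^ 2 +
          ∑ k, (∑ q, cc q * pd k (w q) x) ^ 2) := by
      refine integral_mono_of_nonneg (Filter.Eventually.of_forall fun x => by positivity)
        ((i1.add (integrable_finsetSum _ fun k _ => i2 k)).const_mul (1 + NB))
        ((ae_restrict_mem hDm).mono fun x hx => ?_)
      show (∑ q, cc q * w q (A⁻¹ *ᵥ (A *ᵥ x))) ^ 2 +
        ∑ i, (∑ q, cc q * pd i (fun x => w q (A⁻¹ *ᵥ x)) (A *ᵥ x)) ^ 2 ≤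
        (1 + NB) * ((∑ q, cc q * w q x) ^ 2 + ∑ k, (∑ q, cc q * pd k (w q) x) ^ 2)
      have q1 := quad (fun k i => A⁻¹ k i) (fun k => ∑ q, cc q * pd k (w q) x)
      rw [← hNB] at q1
      have q2 : ∑ i, (∑ q, cc q * pd i (fun x => w q (A⁻¹ *ᵥ x)) (A *ᵥ x)) ^ 2 =
          ∑ i, (∑ k, A⁻¹ k i * ∑ q, cc q * pd k (w q) x) ^ 2 := by
        refine Finset.sum_congr rfl fun i _ => ?_
        congr 1
        simp only [Finset.mul_sum]
        rw [Finset.sum_comm]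
        refine Finset.sum_congr rfl fun q _ => ?_
        rw [gw q i x hx, Finset.mul_sum]
        exact Finset.sum_congr rfl fun k _ => by ring
      rw [q2]
      simp only [ia hA]
      have q3 : 0 ≤ ∑ k, (∑ q, cc q * pd k (w q) x) ^ 2 :=
        Finset.sum_nonneg fun _ _ => sq_nonneg _
      nlinarith [mul_nonneg hNB0 (sq_nonneg (∑ q, cc q * w q x))]
    rw [integral_const_mul] at b1
    have b2 : ∫ x in D, (∑ q, cc q * (c⁻¹ * h₂ q (A *ᵥ x))) ^ 2 =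
        (c ^ 2)⁻¹ * (J * ∫ x in (fun x => A⁻¹ *ᵥ x) ⁻¹' D, (∑ q, cc q * h₂ q x) ^ 2) := by
      have := int_mv hA ((fun x => A⁻¹ *ᵥ x) ⁻¹' D) (fun x => (∑ q, cc q * h₂ q x) ^ 2)
      rw [eD, ← hJ] at this
      rw [← this, ← integral_const_mul]
      congr 1
      funext x
      have e : ∑ q, cc q * (c⁻¹ * h₂ q (A *ᵥ x)) = c⁻¹ * ∑ q, cc q * h₂ q (A *ᵥ x) := by
        rw [Finset.mul_sum]; exact Finset.sum_congr rfl fun q _ => by ring
      rw [e, mul_pow, inv_pow]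
    have b3 : ∫ x in D \ G, ((∑ q, cc q * f q (A *ᵥ x)) ^ 2 +
        ∑ i, (∑ q, cc q * pd i (fun x => f q (A *ᵥ x)) x) ^ 2) ≤
        (1 + NA) * (J * ∫ x in (fun x => A⁻¹ *ᵥ x) ⁻¹' (D \ G), ((∑ q, cc q * f q x) ^ 2 +
          ∑ i, (∑ q, cc q * pd i (f q) x) ^ 2)) := by
      have t1 := int_mv hA ((fun x => A⁻¹ *ᵥ x) ⁻¹' (D \ G)) (fun x => (∑ q, cc q * f q x) ^ 2 +
          ∑ i, (∑ q, cc q * pd i (f q) x) ^ 2)
      rw [eDG, ← hJ] at t1
      rw [← t1, ← integral_const_mul]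
      have j1 : Integrable (fun x => (∑ q, cc q * f q (A *ᵥ x)) ^ 2) (volume.restrict (D \ G)) :=
        comb_int (u := fun q x => f q (A *ᵥ x)) (fun q => memLp_cs
          ((hf q).comp (mv_cd A)).continuous (hcs (hfc q)) _) cc
      have j2 : ∀ i, Integrable (fun x => (∑ q, cc q * pd i (f q) (A *ᵥ x)) ^ 2)
          (volume.restrict (D \ G)) := fun i =>
        comb_int (u := fun q x => pd i (f q) (A *ᵥ x)) (fun q => memLp_cs
          ((cp (hf q) i).comp (mv_cd A)).continuous (hcs (scp (hfc q) i)) _) cc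
      refine integral_mono_of_nonneg (Filter.Eventually.of_forall fun x => by positivity)
        ((j1.add (integrable_finsetSum _ fun i _ => j2 i)).const_mul (1 + NA))
        (Filter.Eventually.of_forall fun x => ?_)
      show (∑ q, cc q * f q (A *ᵥ x)) ^ 2 +
        ∑ i, (∑ q, cc q * pd i (fun x => f q (A *ᵥ x)) x) ^ 2 ≤
        (1 + NA) * ((∑ q, cc q * f q (A *ᵥ x)) ^ 2 + ∑ i, (∑ q, cc q * pd i (f q) (A *ᵥ x)) ^ 2)
      have q1 := quad (fun l i => A l i) (fun l => ∑ q, cc q * pd l (f q) (A *ᵥ x))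
      have q4 : ∑ i, ∑ k, A k i ^ 2 = NA := by rw [hNA, Finset.sum_comm]
      rw [q4] at q1
      have q2 : ∑ i, (∑ q, cc q * pd i (fun x => f q (A *ᵥ x)) x) ^ 2 =
          ∑ i, (∑ l, A l i * ∑ q, cc q * pd l (f q) (A *ᵥ x)) ^ 2 := by
        refine Finset.sum_congr rfl fun i _ => ?_
        congr 1
        simp only [Finset.mul_sum]
        rw [Finset.sum_comm]
        refine Finset.sum_congr rfl fun q _ => ?_
        rw [pd_mv A (f := f q) (x := x) (dfr (hf q) _) i, Finset.mul_sum]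
        exact Finset.sum_congr rfl fun k _ => by ring
      rw [q2]
      have q3 : 0 ≤ ∑ i, (∑ q, cc q * pd i (f q) (A *ᵥ x)) ^ 2 :=
        Finset.sum_nonneg fun _ _ => sq_nonneg _
      nlinarith [mul_nonneg hNA0 (sq_nonneg (∑ q, cc q * f q (A *ᵥ x)))]
    rw [eDG']
    obtain ⟨X, hX⟩ : ∃ X : ℝ, X = ∫ x in (fun x => A⁻¹ *ᵥ x) ⁻¹' D, (∑ q, cc q * h₂ q x) ^ 2 :=
      ⟨_, rfl⟩
    obtain ⟨Y, hY⟩ : ∃ Y : ℝ, Y = ∫ x in (fun x => A⁻¹ *ᵥ x) ⁻¹' (D \ G),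
      ((∑ q, cc q * f q x) ^ 2 + ∑ i, (∑ q, cc q * pd i (f q) x) ^ 2) := ⟨_, rfl⟩
    rw [b2, ← hX] at hb
    rw [← hY] at b3
    rw [← hX, ← hY]
    have hX0 : 0 ≤ X := by rw [hX]; exact integral_nonneg fun x => sq_nonneg _
    have hY0 : 0 ≤ Y := by rw [hY]; exact integral_nonneg fun x => by positivity
    have hs0 : 0 ≤ ∑ q, cc q ^ 2 := Finset.sum_nonneg fun _ _ => sq_nonneg _
    have b6 : C₀ * ((∫ x in D \ G, ((∑ q, cc q * f q (A *ᵥ x)) ^ 2 +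
        ∑ i, (∑ q, cc q * pd i (fun x => f q (A *ᵥ x)) x) ^ 2)) + (c ^ 2)⁻¹ * (J * X)) ≤
        C₀ * ((1 + NA) * (J * Y) + (c ^ 2)⁻¹ * (J * X)) :=
      mul_le_mul_of_nonneg_left (by linarith) hC₀
    have b7 := hb.trans (add_le_add b6 le_rfl)
    refine (mul_le_mul_of_nonneg_left (b1.trans (mul_le_mul_of_nonneg_left b7 (by positivity)))
      (inv_nonneg.2 hJ0.le)).trans ?_
    have e5 : J⁻¹ * ((1 + NB) * (C₀ * ((1 + NA) * (J * Y) + (c ^ 2)⁻¹ * (J * X)) +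
        ε * J / (1 + NB) * ∑ q, cc q ^ 2)) =
        (1 + NB) * C₀ * ((1 + NA) * Y + (c ^ 2)⁻¹ * X) + ε * ∑ q, cc q ^ 2 := by
      field_simp
    rw [e5]
    have b8 : (1 + NA) * Y + (c ^ 2)⁻¹ * X ≤ (1 + NA) * (1 + (c ^ 2)⁻¹) * (Y + X) := by
      have u1 : 0 ≤ (c ^ 2)⁻¹ * Y := by positivity
      have u2 : 0 ≤ NA * (c ^ 2)⁻¹ * (Y + X) := by positivity
      have u3 : 0 ≤ NA * X := by positivity
      nlinarith
    have b9 := mul_le_mul_of_nonneg_left b8 (by positivity : (0 : ℝ) ≤ (1 + NB) * C₀)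
    have e6 : (1 + NB) * C₀ * ((1 + NA) * (1 + (c ^ 2)⁻¹) * (Y + X)) =
      (1 + NB) * (1 + NA) * (1 + (c ^ 2)⁻¹) * C₀ * (Y + X) := by ring
    linarith

end Vale.Agent.P088.R2.H238.S3
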