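import Vale.Agent.P088.R2.H238.S3.Nrm1

/-!
# P088, stage 3: the normalisation (row NORM)
-/

open MeasureTheory Set
open scoped ContDiff Matrix Topology

noncomputable section

namespace Vale.Agent.P088.R2.H238.S3.Nm

open Vale.Agent.P088.LR Vale.Agent.P088.HY Vale.Agent.P088.HY.T3 Vale.Agent.P088.R2.H238.S3
  Vale.Agent.P088.R2.H238.S3.A

variable {n : ℕ}

theorem Eb_mono {r R : ℝ} (hr : 0 ≤ r) (h : r ≤ R) (a : V n) : Eb a r ⊆ Eb a R := fun x hx =>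
  lt_of_lt_of_le (show HY.sq (x - a) < r ^ 2 from hx) (pow_le_pow_left₀ hr h 2)

theorem sq_dot (x : V n) : HY.sq x = x ⬝ᵥ x := by
  unfold HY.sq dotProduct
  exact Finset.sum_congr rfl fun i _ => by ring

theorem sq_mv (M : Matrix (Fin n) (Fin n) ℝ) (x : V n) :
    HY.sq (M *ᵥ x) ≤ (∑ i, ∑ k, M i k ^ 2) * HY.sq x := by
  unfold HY.sq
  exact quad (fun k i => M i k) x

theorem sq_nn (x : V n) : 0 ≤ HY.sq x := by
  unfold HY.sq; exact Finset.sum_nonneg fun _ _ => sq_nonneg _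

theorem sq_sm (t : ℝ) (x : V n) : HY.sq (t • x) = t ^ 2 * HY.sq x := by
  unfold HY.sq
  rw [Finset.mul_sum]
  exact Finset.sum_congr rfl fun i _ => by rw [Pi.smul_apply, smul_eq_mul]; ring

theorem sq_cp (x : V n) (i : Fin n) : x i ^ 2 ≤ HY.sq x := by
  unfold HY.sq
  exact Finset.single_le_sum (f := fun i => x i ^ 2) (fun _ _ => sq_nonneg _) (Finset.mem_univ i)

theorem nm_le {x : V n} {R : ℝ} (hR : 0 ≤ R) (h : HY.sq x ≤ R ^ 2) : ‖x‖ ≤ R := by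
  refine (pi_norm_le_iff_of_nonneg hR).2 fun i => ?_
  rw [Real.norm_eq_abs]
  exact abs_le_of_sq_le_sq ((sq_cp x i).trans h) hR

theorem sq_sub_le (x y : V n) : HY.sq (x - y) ≤ 2 * (HY.sq x + HY.sq y) := by
  unfold HY.sq
  rw [← Finset.sum_add_distrib, Finset.mul_sum]
  refine Finset.sum_le_sum fun i _ => ?_
  rw [Pi.sub_apply]
  nlinarith [sq_nonneg (x i + y i)]

theorem e0_dot (hn : 0 < n) : e0 n ⬝ᵥ e0 n = 1 := by
  unfold e0 dotProduct
  rw [Finset.sum_eq_single (⟨0, hn⟩ : Fin n)]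
  · simp
  · intro i _ hi
    have : i.val ≠ 0 := fun h => hi (Fin.ext h)
    simp [this]
  · intro h; exact absurd (Finset.mem_univ _) h

/-- The cut-off entries of `P s Pᵀ - 1`. -/
def fs (χ : V n → ℝ) (P : Matrix (Fin n) (Fin n) ℝ) (s : MF n) (i j : Fin n) (x : V n) : ℝ :=
  χ x * ((P * s x * Pᵀ) i j - (1 : Matrix (Fin n) (Fin n) ℝ) i j)

/-- The normalised tensor. -/
def sn (χ' χ : V n → ℝ) (P : Matrix (Fin n) (Fin n) ℝ) (t : ℝ) (s : MF n) : MF n := fun z =>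
  Matrix.of fun i j => (1 : Matrix (Fin n) (Fin n) ℝ) i j +
    χ' z * fs χ P s i j (fa (t⁻¹ • P) (e0 n) z)

theorem pspt (P S : Matrix (Fin n) (Fin n) ℝ) (i j : Fin n) :
    (P * S * Pᵀ) i j = ∑ l, ∑ k, P i k * P j l * S k l := by
  rw [Matrix.mul_apply]
  refine Finset.sum_congr rfl fun l _ => ?_
  rw [Matrix.mul_apply, Matrix.transpose_apply, Finset.sum_mul]
  exact Finset.sum_congr rfl fun k _ => by ring

theorem sm_fs {χ : V n → ℝ} (hχ : ContDiff ℝ ∞ χ) {R : ℝ} (hs : tsupport χ ⊆ Eb 0 R)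
    (P : Matrix (Fin n) (Fin n) ℝ) {s : MF n}
    (h : ∀ i j, ContDiffOn ℝ ∞ (fun x => s x i j) (Eb 0 R)) (i j : Fin n) :
    ContDiff ℝ ∞ (fs χ P s i j) := by
  refine smx (Eb_open 0 R) hχ hs (f := fun x => (P * s x * Pᵀ) i j -
    (1 : Matrix (Fin n) (Fin n) ℝ) i j) ?_
  refine ContDiffOn.sub ?_ contDiffOn_const
  have e : (fun x => (P * s x * Pᵀ) i j) = fun x => ∑ l, ∑ k, P i k * P j l * s x k l := by
    funext x; exact pspt P (s x) i j
  rw [e]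
  exact ContDiffOn.sum fun l _ => ContDiffOn.sum fun k _ => contDiffOn_const.mul (h k l)

theorem inv_sP {P : Matrix (Fin n) (Fin n) ℝ} (hP : P.det ≠ 0) {t : ℝ} (ht : 0 < t) :
    (t⁻¹ • P)⁻¹ = t • P⁻¹ := by
  refine Matrix.inv_eq_left_inv ?_
  rw [Matrix.smul_mul, Matrix.mul_smul, smul_smul, mul_inv_cancel₀ ht.ne', one_smul,
    Matrix.nonsing_inv_mul P hP.isUnit]

theorem det_sP {P : Matrix (Fin n) (Fin n) ℝ} (hP : P.det ≠ 0) {t : ℝ} (ht : 0 < t) :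
    (t⁻¹ • P).det ≠ 0 := by
  rw [Matrix.det_smul]
  exact mul_ne_zero (pow_ne_zero _ (inv_ne_zero ht.ne')) hP

theorem psl_P {P : Matrix (Fin n) (Fin n) ℝ} {t : ℝ} (ht : 0 < t) (v : V n) (s : MF n) (z : V n) :
    psl (t ^ 2) (t⁻¹ • P) v s z = P * s (fa (t⁻¹ • P) v z) * Pᵀ := by
  unfold psl
  rw [Matrix.transpose_smul, Matrix.mul_smul, Matrix.smul_mul, Matrix.smul_mul, smul_smul,
    smul_smul]
  have e : t ^ 2 * (t⁻¹ * t⁻¹) = 1 := by field_simp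
  rw [← mul_assoc] at e
  rw [show t ^ 2 * t⁻¹ * t⁻¹ = 1 by rw [← e]]
  rw [one_smul]

theorem one_tensor (hn : 0 < n) {K : ℕ} {ε R B C t : ℝ} {s : MF n} {χ χ' : V n → ℝ}
    {P : Matrix (Fin n) (Fin n) ℝ} (hP : P.det ≠ 0)
    (hs : ∀ i j, ContDiffOn ℝ ∞ (fun x => s x i j) (Eb 0 R))
    (hp : ∀ x ∈ Eb (0 : V n) R, (s x).IsSymm)
    (hd : ∀ x ∈ Eb (0 : V n) R, ∀ j, ∑ i, pd i (fun y => s y i j) x = 0)
    (h0 : P * s 0 * Pᵀ = 1) (hR : 0 < R)
    (c1 : ContDiff ℝ ∞ χ) (c2 : tsupport χ ⊆ Eb 0 R) (c3 : ∀ x ∈ Eb (0 : V n) (R / 2), χ x = 1)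
    (d1 : ContDiff ℝ ∞ χ') (d2 : tsupport χ' ⊆ Eb 0 32) (d3 : ∀ x ∈ Eb (0 : V n) 24, χ' x = 1)
    (hC : Cl K C χ') (hB : ∀ i j, Cl (K + 1) B (fs χ P s i j)) (ht : 0 < t)
    (ht1 : t * ‖lm P⁻¹‖ ≤ 1) (htε : 2 ^ K * (C * (B * (t * ‖lm P⁻¹‖) * 33)) ≤ ε)
    (hin : ∀ z ∈ Eb (0 : V n) 24, fa (t⁻¹ • P) (e0 n) z ∈ Eb (0 : V n) (R / 2)) :
    SmM (sn χ' χ P t s) ∧ (∀ x, (sn χ' χ P t s x).IsSymm) ∧
    (∀ i j, Cl K ε (fun x => sn χ' χ P t s x i j - (1 : Matrix (Fin n) (Fin n) ℝ) i j)) ∧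
    (∀ x ∉ Eb (0 : V n) 32, sn χ' χ P t s x = 1) ∧
    (∀ x ∈ Eb (0 : V n) 24, sn χ' χ P t s x = psl (t ^ 2) (t⁻¹ • P) (e0 n) s x) ∧
    (∀ x ∈ Eb (0 : V n) 24, ∀ j, ∑ i, pd i (fun y => sn χ' χ P t s y i j) x = 0) := by
  have hin' : ∀ z ∈ Eb (0 : V n) 24, fa (t⁻¹ • P) (e0 n) z ∈ Eb (0 : V n) R := fun z hz =>
    Eb_mono (by linarith) (by linarith) _ (hin z hz)
  have on : ∀ x ∈ Eb (0 : V n) 24, sn χ' χ P t s x = psl (t ^ 2) (t⁻¹ • P) (e0 n) s x := by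
    intro x hx
    rw [psl_P ht]
    ext i j
    show (1 : Matrix (Fin n) (Fin n) ℝ) i j + χ' x * fs χ P s i j (fa (t⁻¹ • P) (e0 n) x) = _
    unfold fs
    rw [d3 x hx, c3 _ (hin x hx)]
    ring
  have eN : ‖lm (t⁻¹ • P)⁻¹‖ = t * ‖lm P⁻¹‖ := by
    have : lm (t⁻¹ • P)⁻¹ = t • lm P⁻¹ := by
      rw [inv_sP hP ht]
      ext x : 1
      rw [lm_apply, smul_apply, lm_apply, Matrix.smul_mulVec]
    rw [this, norm_smul, Real.norm_of_nonneg ht.le]
  refine ⟨fun i j => ?_, fun x => ?_, fun i j => ?_, fun x hx => ?_, on, fun x hx j => ?_⟩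
  · show ContDiff ℝ ∞ fun z => (1 : Matrix (Fin n) (Fin n) ℝ) i j +
      χ' z * fs χ P s i j (fa (t⁻¹ • P) (e0 n) z)
    exact contDiff_const.add (d1.mul ((sm_fs c1 c2 P hs i j).comp (fa_cd _ _)))
  · refine Matrix.IsSymm.ext fun i j => ?_
    show (1 : Matrix (Fin n) (Fin n) ℝ) j i + χ' x * fs χ P s j i (fa (t⁻¹ • P) (e0 n) x) =
      (1 : Matrix (Fin n) (Fin n) ℝ) i j + χ' x * fs χ P s i j (fa (t⁻¹ • P) (e0 n) x)
    have e1 : (1 : Matrix (Fin n) (Fin n) ℝ) j i = (1 : Matrix (Fin n) (Fin n) ℝ) i j := by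
      rw [Matrix.one_apply, Matrix.one_apply]; simp only [eq_comm]
    have e2 : ∀ y, fs χ P s j i y = fs χ P s i j y := by
      intro y
      unfold fs
      by_cases hy : y ∈ Eb (0 : V n) R
      · have h1 : (P * s y * Pᵀ).IsSymm := by
          unfold Matrix.IsSymm
          rw [Matrix.transpose_mul, Matrix.transpose_mul, Matrix.transpose_transpose,
            (hp y hy).eq, Matrix.mul_assoc]
        rw [e1, h1.apply]
      · rw [image_eq_zero_of_notMem_tsupport fun h => hy (c2 h)]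
        simp
    rw [e1, e2]
  · have e : (fun x => sn χ' χ P t s x i j - (1 : Matrix (Fin n) (Fin n) ℝ) i j) =
        fun x => χ' x * fs χ P s i j (fa (t⁻¹ • P) (e0 n) x) := by
      funext x
      show (1 : Matrix (Fin n) (Fin n) ℝ) i j + χ' x * fs χ P s i j (fa (t⁻¹ • P) (e0 n) x) - _ = _
      ring
    rw [e]
    have hf0 : fs χ P s i j 0 = 0 := by
      unfold fs; rw [h0, sub_self, mul_zero]
    have hB0 : 0 ≤ B := (norm_nonneg _).trans (hB i j 0 (by omega) 0)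
    have he : ‖e0 n‖ ≤ 1 := nm_le zero_le_one (by rw [sq_dot, e0_dot hn]; norm_num)
    refine Cl_mono htε (cl_cut d1 ((sm_fs c1 c2 P hs i j).comp (fa_cd _ _)) hC (R := 32)
      (fun y hy => ?_) (fun y hy l hl => ?_) (by positivity))
    · have h1 := d2 hy
      unfold Eb at h1
      rw [mem_setOf_eq, sub_zero] at h1
      exact nm_le (by norm_num) h1.le
    · refine near_fa (sm_fs c1 c2 P hs i j) (hB i j) hf0 _ _ (le_of_eq eN) ht1 (by norm_num) ?_ l hl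
      exact (norm_sub_le _ _).trans (by linarith)
  · ext i j
    show (1 : Matrix (Fin n) (Fin n) ℝ) i j + χ' x * fs χ P s i j (fa (t⁻¹ • P) (e0 n) x) = _
    rw [image_eq_zero_of_notMem_tsupport fun h => hx (d2 h)]
    ring
  · -- divergence
    have e1 : ∀ i, pd i (fun y => sn χ' χ P t s y i j) x =
        ∑ l, ∑ k, P i k * P j l * ∑ m, t * P⁻¹ m i * pd m (fun y => s y k l)
          (fa (t⁻¹ • P) (e0 n) x) := by
      intro i
      rw [pd_loc (Eb_open 0 24) (f := fun y => sn χ' χ P t s y i j)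
        (g := fun y => ∑ l, ∑ k, P i k * P j l * s (fa (t⁻¹ • P) (e0 n) y) k l)
        (fun y hy => by rw [on y hy, psl_P ht, pspt]) hx i]
      have hdf : ∀ k l, DifferentiableAt ℝ (fun y => s y k l) (fa (t⁻¹ • P) (e0 n) x) :=
        fun k l => (((hs k l).contDiffAt ((Eb_open 0 R).mem_nhds (hin' x hx))).differentiableAt
          (by simp))
      have hfa : DifferentiableAt ℝ (fa (t⁻¹ • P) (e0 n)) x :=
        (fa_cd (t⁻¹ • P) (e0 n)).differentiable (by simp) x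
      have hdg : ∀ k l, DifferentiableAt ℝ (fun y => s (fa (t⁻¹ • P) (e0 n) y) k l) x := fun k l =>
        (hdf k l).comp x hfa
      have h2 : HasFDerivAt (fun y => ∑ l, ∑ k, P i k * P j l * s (fa (t⁻¹ • P) (e0 n) y) k l)
          (∑ l, ∑ k, (P i k * P j l) • fderiv ℝ (fun y => s (fa (t⁻¹ • P) (e0 n) y) k l) x) x :=
        HasFDerivAt.fun_sum fun l _ => HasFDerivAt.fun_sum fun k _ =>
          (hdg k l).hasFDerivAt.const_mul _
      have h3 : pd i (fun y => ∑ l, ∑ k, P i k * P j l * s (fa (t⁻¹ • P) (e0 n) y) k l) x =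
          ∑ l, ∑ k, P i k * P j l * pd i (fun y => s (fa (t⁻¹ • P) (e0 n) y) k l) x := by
        unfold pd
        rw [h2.fderiv]
        simp only [ContinuousLinearMap.sum_apply, smul_apply, smul_eq_mul]
      rw [h3]
      refine Finset.sum_congr rfl fun l _ => Finset.sum_congr rfl fun k _ => ?_
      rw [pd_fa (t⁻¹ • P) (e0 n) (f := fun y => s y k l) (x := x) (hdf k l) i, inv_sP hP ht]
      rfl
    simp only [e1]
    have e2 : ∀ k m, ∑ i, P i k * P⁻¹ m i = (1 : Matrix (Fin n) (Fin n) ℝ) m k := by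
      intro k m
      rw [← Matrix.nonsing_inv_mul P hP.isUnit, Matrix.mul_apply]
      exact Finset.sum_congr rfl fun i _ => by ring
    calc ∑ i, ∑ l, ∑ k, P i k * P j l * ∑ m, t * P⁻¹ m i * pd m (fun y => s y k l)
          (fa (t⁻¹ • P) (e0 n) x)
        = ∑ i, ∑ l, ∑ k, ∑ m, (P i k * P⁻¹ m i) * (t * P j l * pd m (fun y => s y k l)
          (fa (t⁻¹ • P) (e0 n) x)) := by
          refine Finset.sum_congr rfl fun i _ => Finset.sum_congr rfl fun l _ =>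
            Finset.sum_congr rfl fun k _ => ?_
          rw [Finset.mul_sum]
          exact Finset.sum_congr rfl fun m _ => by ring
      _ = ∑ l, ∑ k, ∑ m, (∑ i, P i k * P⁻¹ m i) * (t * P j l * pd m (fun y => s y k l)
          (fa (t⁻¹ • P) (e0 n) x)) := by
          rw [Finset.sum_comm]
          refine Finset.sum_congr rfl fun l _ => ?_
          rw [Finset.sum_comm]
          refine Finset.sum_congr rfl fun k _ => ?_
          rw [Finset.sum_comm]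
          exact Finset.sum_congr rfl fun m _ => by rw [Finset.sum_mul]
      _ = ∑ l, t * P j l * ∑ k, pd k (fun y => s y k l) (fa (t⁻¹ • P) (e0 n) x) := by
          refine Finset.sum_congr rfl fun l _ => ?_
          rw [Finset.mul_sum]
          refine Finset.sum_congr rfl fun k _ => ?_
          rw [Finset.sum_eq_single k]
          · rw [e2, Matrix.one_apply_eq, one_mul]
          · intro m _ hm
            rw [e2, Matrix.one_apply_ne hm, zero_mul]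
          · intro h; exact absurd (Finset.mem_univ _) h
      _ = 0 := by
          refine Finset.sum_eq_zero fun l _ => ?_
          rw [hd _ (hin' x hx) l, mul_zero]

theorem ex_t {X₁ X₂ X₃ X₄ Y₁ Y₂ Y₃ Y₄ : ℝ} (h₁ : 0 < Y₁) (h₂ : 0 < Y₂) (h₃ : 0 < Y₃)
    (h₄ : 0 < Y₄) : ∃ t : ℝ, 0 < t ∧ t ≤ 1 ∧ t * X₁ ≤ Y₁ ∧ t * X₂ ≤ Y₂ ∧ t * X₃ ≤ Y₃ ∧
      t * X₄ ≤ Y₄ := by
  have key : ∀ X Y : ℝ, 0 < Y → ∀ᶠ t : ℝ in 𝓝[>] 0, t * X ≤ Y := by
    intro X Y hY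
    have h : Filter.Tendsto (fun t : ℝ => t * X) (𝓝[>] 0) (𝓝 0) := by
      have : Filter.Tendsto (fun t : ℝ => t * X) (𝓝 0) (𝓝 (0 * X)) :=
        (continuous_id.mul continuous_const).tendsto 0
      rw [zero_mul] at this
      exact this.mono_left nhdsWithin_le_nhds
    exact (h.eventually (gt_mem_nhds hY)).mono fun t ht => le_of_lt ht
  have h0 : ∀ᶠ t : ℝ in 𝓝[>] 0, 0 < t := eventually_mem_nhdsWithin
  obtain ⟨t, a0, a1, a2, a3, a4, a5⟩ := (h0.and ((key 1 1 one_pos).and ((key X₁ Y₁ h₁).and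
    ((key X₂ Y₂ h₂).and ((key X₃ Y₃ h₃).and (key X₄ Y₄ h₄)))))).exists
  exact ⟨t, a0, by linarith, a2, a3, a4, a5⟩

theorem cpt {χ : V n → ℝ} {R : ℝ} (hR : 0 < R) (h : tsupport χ ⊆ Eb 0 R) :
    HasCompactSupport χ := by
  refine Metric.isCompact_of_isClosed_isBounded (isClosed_tsupport χ)
    ((Metric.isBounded_closedBall (x := (0 : V n)) (r := R)).subset fun x hx => ?_)
  have h1 := h hx
  unfold Eb at h1
  rw [mem_setOf_eq, sub_zero] at h1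
  rw [mem_closedBall_zero_iff]
  exact nm_le hR.le h1.le

/-- A cut-off between balls. -/
theorem ball_cut {r R : ℝ} (hr : 0 < r) (hrR : r < R) : ∃ χ : V n → ℝ, ContDiff ℝ ∞ χ ∧
    tsupport χ ⊆ Eb 0 R ∧ ∀ x ∈ Eb (0 : V n) r, χ x = 1 := by
  have hc : IsClosed {x : V n | HY.sq (x - 0) ≤ r ^ 2} := by
    have h : Continuous fun x : V n => HY.sq (x - 0) := by
      unfold HY.sq
      exact continuous_finsetSum _ fun j _ => (by fun_prop : Continuous fun x : V n => (x - 0) j ^ 2)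
    exact isClosed_le h continuous_const
  obtain ⟨χ, O, h1, h2, h3, h4, h5, h6⟩ := ex_cut hc (Eb_open (0 : V n) R) (fun x hx => by
    have h1 : HY.sq (x - 0) ≤ r ^ 2 := hx
    show HY.sq (x - 0) < R ^ 2
    nlinarith)
  exact ⟨χ, h1, h2, fun x hx => h5 x (h4 (le_of_lt (show HY.sq (x - 0) < r ^ 2 from hx)))⟩

/-- **NORM.** -/
theorem rowNORM : RowNORM := by
  intro hcore n hn s₁ s₂ R r a G hR hr har oG hG c₁ c₂ p₁ p₂ d₁ d₂ heq hst
  obtain ⟨K, ε, hε, hcore⟩ := hcore n hn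
  have hn0 : 0 < n := by omega
  have m0 : (0 : V n) ∈ Eb (0 : V n) R := by
    show HY.sq (0 - 0) < R ^ 2
    rw [sub_zero]
    have : HY.sq (0 : V n) = 0 := by unfold HY.sq; simp
    rw [this]; positivity
  have ha0 : a ≠ 0 := by
    intro h
    rw [h] at har
    have : HY.sq (0 : V n) = 0 := by unfold HY.sq; simp
    rw [this] at har
    have : 0 < r ^ 2 := by positivity
    linarith
  -- the values at `0`
  have hS : s₂ 0 = s₁ 0 := by
    ext i j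
    have k1 : ContinuousAt (fun x => s₂ x i j - s₁ x i j) 0 :=
      ((c₂ i j).continuousOn.continuousAt ((Eb_open 0 R).mem_nhds m0)).sub
        ((c₁ i j).continuousOn.continuousAt ((Eb_open 0 R).mem_nhds m0))
    have k2 : Filter.Tendsto (fun τ : ℝ => τ • a) (𝓝[>] 0) (𝓝 0) := by
      have : Filter.Tendsto (fun τ : ℝ => τ • a) (𝓝 0) (𝓝 ((0 : ℝ) • a)) :=
        (continuous_id.smul continuous_const).tendsto 0
      rw [zero_smul] at this
      exact this.mono_left nhdsWithin_le_nhds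
    have k3 := k1.tendsto.comp k2
    have k4 : ∀ᶠ τ : ℝ in 𝓝[>] 0, ((fun x => s₂ x i j - s₁ x i j) ∘ fun τ : ℝ => τ • a) τ = 0 := by
      have h0 : ∀ᶠ τ : ℝ in 𝓝[>] 0, 0 < τ := eventually_mem_nhdsWithin
      have h1 : ∀ᶠ τ : ℝ in 𝓝[>] 0, τ < 1 :=
        (Filter.tendsto_id.mono_left nhdsWithin_le_nhds).eventually (gt_mem_nhds one_pos)
      have h2 : ∀ᶠ τ : ℝ in 𝓝[>] 0, τ • a ∈ Eb (0 : V n) R :=
        k2.eventually ((Eb_open 0 R).mem_nhds m0)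
      filter_upwards [h0, h1, h2] with τ t0 t1 t2
      have h3 : τ • a ∈ Eb a r := by
        show HY.sq (τ • a - a) < r ^ 2
        have e : τ • a - a = (τ - 1) • a := by rw [sub_smul, one_smul]
        rw [e, sq_sm, har]
        have : (τ - 1) ^ 2 < 1 := by nlinarith
        have hr2 : 0 < r ^ 2 := by positivity
        nlinarith
      have h4 := heq _ ⟨hG ⟨h3, t2⟩, t2⟩
      show s₂ (τ • a) i j - s₁ (τ • a) i j = 0
      rw [h4, sub_self]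
    have k5 : Filter.Tendsto ((fun x => s₂ x i j - s₁ x i j) ∘ fun τ : ℝ => τ • a) (𝓝[>] 0)
        (𝓝 0) :=
      tendsto_const_nhds.congr' (by filter_upwards [k4] with τ h using h.symm)
    have k6 := tendsto_nhds_unique k3 k5
    exact sub_eq_zero.1 k6
  obtain ⟨P, hP, hPS, β, hβ, hPa⟩ := nmat hn0 (p₁ 0 m0) ha0
  obtain ⟨χ, g1, g2, g3⟩ := ball_cut (n := n) (half_pos hR) (by linarith : R / 2 < R)
  obtain ⟨χ', f1, f2, f3⟩ := ball_cut (n := n) (r := 24) (R := 32) (by norm_num) (by norm_num)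
  obtain ⟨C, hC0, hC⟩ := cl_compact f1 (cpt (by norm_num) f2) K
  have hBex : ∀ s : MF n, (∀ i j, ContDiffOn ℝ ∞ (fun x => s x i j) (Eb 0 R)) →
      ∃ B : ℝ, 0 < B ∧ ∀ i j, Cl (K + 1) B (fs χ P s i j) := by
    intro s hs
    have h1 : ∀ i j, ∃ B > 0, Cl (K + 1) B (fs χ P s i j) := fun i j =>
      cl_compact (sm_fs g1 g2 P hs i j) ((cpt hR g2).mul_right (f' := fun x => (P * s x * Pᵀ) i j -
        (1 : Matrix (Fin n) (Fin n) ℝ) i j)) (K + 1)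
    choose B hB0 hB using h1
    refine ⟨1 + ∑ i, ∑ j, B i j, ?_, fun i j => Cl_mono ?_ (hB i j)⟩
    · have : 0 ≤ ∑ i, ∑ j, B i j := Finset.sum_nonneg fun i _ => Finset.sum_nonneg fun j _ =>
        (hB0 i j).le
      linarith
    · have h2 : B i j ≤ ∑ j, B i j := Finset.single_le_sum (f := fun j => B i j)
        (fun j _ => (hB0 i j).le) (Finset.mem_univ j)
      have h3 : ∑ j, B i j ≤ ∑ i, ∑ j, B i j := Finset.single_le_sum (f := fun i => ∑ j, B i j)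
        (fun i _ => Finset.sum_nonneg fun j _ => (hB0 i j).le) (Finset.mem_univ i)
      linarith
  obtain ⟨B₁, hB₁0, hB₁⟩ := hBex s₁ c₁
  obtain ⟨B₂, hB₂0, hB₂⟩ := hBex s₂ c₂
  obtain ⟨N, hN⟩ : ∃ N : ℝ, N = ∑ i, ∑ k, P⁻¹ i k ^ 2 := ⟨_, rfl⟩
  have hN0 : 0 ≤ N := by
    rw [hN]; exact Finset.sum_nonneg fun _ _ => Finset.sum_nonneg fun _ _ => sq_nonneg _
  obtain ⟨t, ht, ht1, t1, t2, t3, t4⟩ := ex_t (X₁ := N + 1) (Y₁ := β)
    (X₂ := N * (2 * (24 ^ 2 + 1)) + 1) (Y₂ := (R / 2) ^ 2) (X₃ := ‖lm P⁻¹‖) (Y₃ := 1)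
    (X₄ := 2 ^ K * (C * ((B₁ + B₂) * ‖lm P⁻¹‖ * 33))) (Y₄ := ε) hβ (by positivity) one_pos hε
  obtain ⟨A, hA⟩ : ∃ A : Matrix (Fin n) (Fin n) ℝ, A = t⁻¹ • P := ⟨_, rfl⟩
  have hAd : A.det ≠ 0 := by rw [hA]; exact det_sP hP ht
  have hAi : A⁻¹ = t • P⁻¹ := by rw [hA]; exact inv_sP hP ht
  have hfa : ∀ z : V n, fa A (e0 n) z = t • (P⁻¹ *ᵥ (z - e0 n)) := by
    intro z; unfold fa; rw [hAi, Matrix.smul_mulVec]
  have hfs : ∀ z : V n, HY.sq (fa A (e0 n) z) ≤ t ^ 2 * (N * HY.sq (z - e0 n)) := by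
    intro z
    rw [hfa, sq_sm, hN]
    exact mul_le_mul_of_nonneg_left (sq_mv _ _) (by positivity)
  have he1 : HY.sq (e0 n) = 1 := by rw [sq_dot, e0_dot hn0]
  have hin : ∀ z ∈ Eb (0 : V n) 24, fa A (e0 n) z ∈ Eb (0 : V n) (R / 2) := by
    intro z hz
    have h1 : HY.sq (z - 0) < 24 ^ 2 := hz
    rw [sub_zero] at h1
    show HY.sq (fa A (e0 n) z - 0) < (R / 2) ^ 2
    rw [sub_zero]
    have h2 := sq_sub_le z (e0 n)
    rw [he1] at h2
    have h3 : N * HY.sq (z - e0 n) ≤ N * (2 * (24 ^ 2 + 1)) :=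
      mul_le_mul_of_nonneg_left (by linarith) hN0
    have h4 : t ^ 2 * (N * HY.sq (z - e0 n)) ≤ t * (N * (2 * (24 ^ 2 + 1))) := by
      have u1 : t ^ 2 ≤ t := by nlinarith
      exact mul_le_mul u1 h3 (mul_nonneg hN0 (sq_nn _)) ht.le
    have h5 := hfs z
    nlinarith
  have hin' : ∀ z ∈ Eb (0 : V n) 24, fa A (e0 n) z ∈ Eb (0 : V n) R := fun z hz =>
    Eb_mono (by linarith) (by linarith) _ (hin z hz)
  have hball : ∀ z ∈ Eb (0 : V n) 1, fa A (e0 n) z ∈ Eb a r := by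
    intro z hz
    have h1 : HY.sq (z - 0) < 1 ^ 2 := hz
    rw [sub_zero] at h1
    show HY.sq (fa A (e0 n) z - a) < r ^ 2
    obtain ⟨x, hx⟩ : ∃ x : V n, x = fa A (e0 n) z := ⟨_, rfl⟩
    obtain ⟨w, hw⟩ : ∃ w : V n, w = z - e0 n := ⟨_, rfl⟩
    have e1 : HY.sq (x - a) = HY.sq x - 2 * (x ⬝ᵥ a) + HY.sq a := by
      rw [sq_dot, sq_dot, sq_dot, sub_dotProduct, dotProduct_sub, dotProduct_sub,
        dotProduct_comm a x]
      ring
    have e2 : x ⬝ᵥ a = -(t * β * (w ⬝ᵥ e0 n)) := by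
      have h2 : x = t • (P⁻¹ *ᵥ w) := by rw [hx, hfa, hw]
      rw [h2, smul_dotProduct, smul_eq_mul, dotProduct_comm, Matrix.dotProduct_mulVec,
        ← Matrix.mulVec_transpose, hPa, neg_dotProduct, smul_dotProduct, smul_eq_mul,
        dotProduct_comm (e0 n) w]
      ring
    have e3 : HY.sq z = HY.sq w + 2 * (w ⬝ᵥ e0 n) + 1 := by
      have h2 : z = w + e0 n := by rw [hw, sub_add_cancel]
      rw [h2, sq_dot, add_dotProduct, dotProduct_add, dotProduct_add, e0_dot hn0,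
        dotProduct_comm (e0 n) w, sq_dot]
      ring
    have e4 := hfs z
    rw [← hx, ← hw] at e4
    rw [← hx, e1, har, e2]
    have hw0 := sq_nn w
    obtain ⟨m, hm⟩ : ∃ m : ℝ, m = -(w ⬝ᵥ e0 n) := ⟨_, rfl⟩
    have e5 : w ⬝ᵥ e0 n = -m := by rw [hm, neg_neg]
    rw [e5] at e3 ⊢
    have hm0 : HY.sq w < 2 * m := by linarith
    have hmp : 0 < m := by linarith
    have e6 : t ^ 2 * (N * HY.sq w) ≤ t * (t * N * (2 * m)) := by
      have u1 : N * HY.sq w ≤ N * (2 * m) := mul_le_mul_of_nonneg_left hm0.le hN0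
      nlinarith [mul_le_mul_of_nonneg_left u1 (by positivity : (0 : ℝ) ≤ t ^ 2)]
    have e7 : t * N < β := by nlinarith
    have e8 : t * (t * N * (2 * m)) < t * (β * (2 * m)) :=
      mul_lt_mul_of_pos_left (mul_lt_mul_of_pos_right e7 (by linarith)) ht
    nlinarith
  have hP0₂ : P * s₂ 0 * Pᵀ = 1 := by rw [hS]; exact hPS
  have hCB : ∀ B : ℝ, 0 < B → B ≤ B₁ + B₂ → 2 ^ K * (C * (B * (t * ‖lm P⁻¹‖) * 33)) ≤ ε := by
    intro B hB hB'
    refine le_trans ?_ t4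
    have u1 : 2 ^ K * (C * (B * (t * ‖lm P⁻¹‖) * 33)) =
      B * (2 ^ K * (C * ((t * ‖lm P⁻¹‖) * 33))) := by ring
    have u2 : t * (2 ^ K * (C * ((B₁ + B₂) * ‖lm P⁻¹‖ * 33))) =
      (B₁ + B₂) * (2 ^ K * (C * ((t * ‖lm P⁻¹‖) * 33))) := by ring
    rw [u1, u2]
    exact mul_le_mul_of_nonneg_right hB' (by positivity)
  have hsy : ∀ {s : MF n}, (∀ x ∈ Eb (0 : V n) R, (s x).PosDef) →
      ∀ x ∈ Eb (0 : V n) R, (s x).IsSymm := by
    intro s hs x hx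
    have h := (hs x hx).isHermitian
    unfold Matrix.IsHermitian at h
    rw [Matrix.conjTranspose_eq_transpose_of_trivial] at h
    exact h
  rw [hA] at hin
  obtain ⟨a1, a2, a3, a4, a5, a6⟩ := one_tensor hn0 hP c₁ (hsy p₁) d₁ hPS hR g1 g2 g3 f1 f2 f3 hC
    hB₁ ht t3 (hCB B₁ hB₁0 (by linarith)) hin
  obtain ⟨b1, b2, b3, b4, b5, b6⟩ := one_tensor hn0 hP c₂ (hsy p₂) d₂ hP0₂ hR g1 g2 g3 f1 f2 f3 hC
    hB₂ ht t3 (hCB B₂ hB₂0 (by linarith)) hin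
  rw [← hA] at hin a5 b5
  obtain ⟨σ₁, hσ₁⟩ : ∃ σ : MF n, σ = sn χ' χ P t s₁ := ⟨_, rfl⟩
  obtain ⟨σ₂, hσ₂⟩ : ∃ σ : MF n, σ = sn χ' χ P t s₂ := ⟨_, rfl⟩
  rw [← hσ₁] at a1 a2 a3 a4 a5 a6
  rw [← hσ₂] at b1 b2 b3 b4 b5 b6
  have oG' : IsOpen ((fun x => fa A (e0 n) x) ⁻¹' G) := oG.preimage (fa_c A (e0 n))
  have hN : Nrm K ε σ₁ σ₂ ((fun x => fa A (e0 n) x) ⁻¹' G) :=
    { oG := oG'
      b1 := fun z hz => hG ⟨hball z hz, hin' z (Eb_mono (by norm_num) (by norm_num) _ hz)⟩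
      sm₁ := a1
      sm₂ := b1
      sy₁ := a2
      sy₂ := b2
      cl₁ := a3
      cl₂ := b3
      of₁ := a4
      of₂ := b4
      dv₁ := a6
      dv₂ := b6
      eq := fun x hx => by
        rw [a5 x hx.2, b5 x hx.2]
        unfold psl
        rw [heq _ ⟨hx.1, hin' x hx.2⟩] }
  have hst' : Stp (Eb 0 24) ((fun x => fa A (e0 n) x) ⁻¹' G) σ₁ σ₂ := by
    refine stp_congr (Eb_open 0 24) a5 b5 oG'.measurableSet ?_
    refine stp_res ((Eb_open 0 R).preimage (fa_c A (e0 n))) oG'.measurableSet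
      (fun z hz => hin' z hz) ?_
    exact stp_aff hAd (e0 n) (by positivity) (Eb_open 0 R) hst
  obtain ⟨δ, hδ, hfin⟩ := hcore σ₁ σ₂ _ hN hst'
  -- back
  obtain ⟨M, hM⟩ : ∃ M : ℝ, M = ∑ i, ∑ k, A i k ^ 2 := ⟨_, rfl⟩
  have hM0 : 0 ≤ M := by
    rw [hM]; exact Finset.sum_nonneg fun _ _ => Finset.sum_nonneg fun _ _ => sq_nonneg _
  obtain ⟨δ', h1, h2, h3, h4, -, -⟩ := ex_t (X₁ := M) (Y₁ := δ ^ 2 / 2) (X₂ := M) (Y₂ := 1)
    (X₃ := 0) (Y₃ := 1) (X₄ := 0) (Y₄ := 1) (by positivity) one_pos one_pos one_pos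
  refine ⟨δ', h1, fun x hx => ?_⟩
  have hx1 : HY.sq (x - 0) < δ' ^ 2 := hx
  rw [sub_zero] at hx1
  obtain ⟨z, hz⟩ : ∃ z : V n, z = af A (e0 n) x := ⟨_, rfl⟩
  have hzx : fa A (e0 n) z = x := by rw [hz, fa_af hAd]
  have hze : z - e0 n = A *ᵥ x := by rw [hz]; unfold af; rw [add_sub_cancel_right]
  have hzs : HY.sq (z - e0 n) ≤ δ' * M := by
    rw [hze]
    refine (sq_mv A x).trans ?_
    rw [← hM, mul_comm]
    exact mul_le_mul_of_nonneg_right (by nlinarith) hM0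
  have hz1 : z ∈ Eb (e0 n) δ := by
    show HY.sq (z - e0 n) < δ ^ 2
    have : 0 < δ ^ 2 := by positivity
    linarith
  have hz2 : z ∈ Eb (0 : V n) 24 := by
    show HY.sq (z - 0) < 24 ^ 2
    rw [sub_zero]
    have h5 := sq_sub_le (z - e0 n) (-(e0 n))
    rw [sub_neg_eq_add, sub_add_cancel] at h5
    have h6 : HY.sq (-(e0 n)) = 1 := by
      rw [← he1]; unfold HY.sq
      exact Finset.sum_congr rfl fun i _ => by rw [Pi.neg_apply]; ring
    rw [h6] at h5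
    linarith
  have h5 := hfin z hz1
  rw [a5 z hz2, b5 z hz2] at h5
  unfold psl at h5
  rw [hzx] at h5
  have h6 : A * s₂ x * Aᵀ = A * s₁ x * Aᵀ :=
    smul_right_injective _ (by positivity : t ^ 2 ≠ 0) h5
  have hAu : IsUnit A.det := hAd.isUnit
  have hBu : IsUnit Aᵀ.det := by rw [Matrix.det_transpose]; exact hAu
  have h7 : A⁻¹ * (A * s₂ x * Aᵀ) * (Aᵀ)⁻¹ = s₂ x := by
    rw [Matrix.mul_assoc A, ← Matrix.mul_assoc, Matrix.nonsing_inv_mul A hAu, Matrix.one_mul,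
      Matrix.mul_assoc, Matrix.mul_nonsing_inv _ hBu, Matrix.mul_one]
  have h8 : A⁻¹ * (A * s₁ x * Aᵀ) * (Aᵀ)⁻¹ = s₁ x := by
    rw [Matrix.mul_assoc A, ← Matrix.mul_assoc, Matrix.nonsing_inv_mul A hAu, Matrix.one_mul,
      Matrix.mul_assoc, Matrix.mul_nonsing_inv _ hBu, Matrix.mul_one]
  rw [← h7, h6, h8]

end Vale.Agent.P088.R2.H238.S3.Nm
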