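import Vale.Agent.P088.R2.H238.S3.Cac

/-!
# P088, stage 3: the weighted estimate of a divergence free tensor by its trace free part
-/

open MeasureTheory Set
open scoped ContDiff Matrix Topology Manifold

noncomputable section

namespace Vale.Agent.P088.R2.H238.S3

open Vale.Agent.P088.LR Vale.Agent.P088.HY

variable {n : ℕ}

/-- A smooth cut-off. -/
theorem ex_cut {K W : Set (V n)} (hK : IsClosed K) (hW : IsOpen W) (hKW : K ⊆ W) :
    ∃ (χ : V n → ℝ) (O : Set (V n)), ContDiff ℝ ∞ χ ∧ tsupport χ ⊆ W ∧ IsOpen O ∧ K ⊆ O ∧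
      (∀ x ∈ O, χ x = 1) ∧ ∀ x, 0 ≤ χ x ∧ χ x ≤ 1 := by
  obtain ⟨O, hO, hKO, hOc⟩ := normal_exists_closure_subset hK hW hKW
  obtain ⟨W₁, hW₁, hNW₁, hW₁c⟩ := normal_exists_closure_subset isClosed_closure hW hOc
  obtain ⟨f, hf0, hf1, hf⟩ := exists_contMDiffMap_zero_one_of_isClosed 𝓘(ℝ, V n) (n := (⊤ : ℕ∞))
    (s := W₁ᶜ) (t := closure O) hW₁.isClosed_compl isClosed_closure
    (disjoint_compl_left_iff_subset.2 hNW₁)
  refine ⟨f, O, f.contMDiff.contDiff, ?_, hO, hKO, fun x hx => hf1 (subset_closure hx), hf⟩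
  refine (closure_mono ?_).trans hW₁c
  intro x hx
  by_contra h
  exact hx (hf0 h)

/-- Extension by zero. -/
theorem smx {O : Set (V n)} (hO : IsOpen O) {χ f : V n → ℝ} (hχ : ContDiff ℝ ∞ χ)
    (hs : tsupport χ ⊆ O) (hf : ContDiffOn ℝ ∞ f O) : ContDiff ℝ ∞ fun x => χ x * f x := by
  rw [contDiff_iff_contDiffAt]
  intro x
  by_cases hx : x ∈ tsupport χ
  · exact hχ.contDiffAt.mul (hf.contDiffAt (hO.mem_nhds (hs hx)))
  · have h : χ =ᶠ[𝓝 x] fun _ => 0 := notMem_tsupport_iff_eventuallyEq.1 hx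
    have h1 : (fun y => χ y * f y) =ᶠ[𝓝 x] fun _ => 0 := by
      filter_upwards [h] with y hy
      rw [hy, zero_mul]
    exact contDiffAt_const.congr_of_eventuallyEq h1

theorem pd_loc {U : Set (V n)} (hU : IsOpen U) {f g : V n → ℝ} (h : ∀ x ∈ U, f x = g x) {x : V n}
    (hx : x ∈ U) (i : Fin n) : pd i f x = pd i g x := by
  unfold pd
  have h1 : f =ᶠ[𝓝 x] g := by
    filter_upwards [hU.mem_nhds hx] with y hy
    exact h y hy
  rw [h1.fderiv_eq]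

theorem Lv_loc {U : Set (V n)} (hU : IsOpen U) {f g : V n → ℝ} (h : ∀ x ∈ U, f x = g x) {x : V n}
    (hx : x ∈ U) (s : MF n) : Lv s f x = Lv s g x := by
  unfold Lv
  refine Finset.sum_congr rfl fun i _ => Finset.sum_congr rfl fun j _ => ?_
  rw [pd_loc hU (fun y hy => pd_loc hU h hy j) hx i]

/-! ### the weight -/

/-- `e^{-ρG}`. -/
def Ew (ρ : ℝ) (G : V n → ℝ) (x : V n) : ℝ := Real.exp (-(ρ * G x))

theorem Ew_s {ρ : ℝ} {G : V n → ℝ} (hG : ContDiff ℝ ∞ G) : ContDiff ℝ ∞ (Ew ρ G) :=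
  (contDiff_const.mul hG).neg.exp

theorem Ew_sq (ρ : ℝ) (G : V n → ℝ) (x : V n) : Ew ρ G x ^ 2 = Real.exp (-(2 * ρ * G x)) := by
  unfold Ew
  rw [← Real.exp_nat_mul]
  congr 1
  push_cast
  ring

theorem Ew_inv (ρ : ℝ) (G : V n → ℝ) (x : V n) : Ew ρ G x ^ 2 * Real.exp (2 * ρ * G x) = 1 := by
  rw [Ew_sq, ← Real.exp_add]
  simp

theorem pd_Ew {ρ : ℝ} {G : V n → ℝ} (hG : ContDiff ℝ ∞ G) (i : Fin n) (x : V n) :
    pd i (Ew ρ G) x = -(ρ * pd i G x) * Ew ρ G x := by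
  have h1 : HasFDerivAt (fun y => -(ρ * G y)) (-(ρ • fderiv ℝ G x)) x :=
    ((dfr hG x).hasFDerivAt.const_mul ρ).neg
  unfold pd Ew
  rw [h1.exp.fderiv]
  simp only [_root_.smul_apply, _root_.neg_apply, smul_eq_mul]
  ring

/-- The gradient of a cut-off times the weight. -/
theorem gq_cut {ρ M : ℝ} (hρ : 0 ≤ ρ) {G χ : V n → ℝ} (hG : ContDiff ℝ ∞ G)
    (hχ : ContDiff ℝ ∞ χ) {x : V n} (h1 : |χ x| ≤ 1) (h2 : ∀ k, |pd k χ x| ≤ ρ)
    (h3 : ∀ k, |pd k G x| ≤ M) :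
    gq (fun y => χ y * Ew ρ G y) x ≤ 2 * n * (ρ ^ 2 * (1 + M ^ 2)) * Ew ρ G x ^ 2 := by
  unfold gq
  calc ∑ i, pd i (fun y => χ y * Ew ρ G y) x ^ 2
      ≤ ∑ _i : Fin n, 2 * (ρ ^ 2 * (1 + M ^ 2)) * Ew ρ G x ^ 2 := by
        refine Finset.sum_le_sum fun i _ => ?_
        rw [pmul hχ (Ew_s hG) i x, pd_Ew hG]
        have e : pd i χ x * Ew ρ G x + χ x * (-(ρ * pd i G x) * Ew ρ G x) =
          (pd i χ x - ρ * (χ x * pd i G x)) * Ew ρ G x := by ring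
        rw [e, mul_pow]
        refine mul_le_mul_of_nonneg_right ?_ (sq_nonneg _)
        have a1 : pd i χ x ^ 2 ≤ ρ ^ 2 := by
          rw [← sq_abs]; exact pow_le_pow_left₀ (abs_nonneg _) (h2 i) 2
        have a2 : pd i G x ^ 2 ≤ M ^ 2 := by
          rw [← sq_abs]; exact pow_le_pow_left₀ (abs_nonneg _) (h3 i) 2
        have a3 : χ x ^ 2 ≤ 1 := by
          rw [← sq_abs]; exact pow_le_one₀ (abs_nonneg _) h1
        have a4 : (χ x * pd i G x) ^ 2 ≤ 1 * M ^ 2 := by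
          rw [mul_pow]; exact mul_le_mul a3 a2 (sq_nonneg _) zero_le_one
        have a5 : ρ ^ 2 * (χ x * pd i G x) ^ 2 ≤ ρ ^ 2 * (1 * M ^ 2) :=
          mul_le_mul_of_nonneg_left a4 (sq_nonneg _)
        nlinarith [sq_nonneg (pd i χ x + ρ * (χ x * pd i G x))]
    _ = _ := by simp; ring

/-- Weighted one-variable solvability. -/
def Slv (O : Set (V n)) (s : MF n) (G : V n → ℝ) (ρ κ : ℝ) : Prop :=
  ∀ F : V n → ℝ, ContDiff ℝ ∞ F → HasCompactSupport F → tsupport F ⊆ O →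
  ∃ w : V n → ℝ, ContDiffOn ℝ ∞ w O ∧ (∀ x ∈ O, Lv s w x = F x) ∧
    IntegrableOn (fun x => w x ^ 2 * Real.exp (-(2 * ρ * G x))) O ∧
    ∫ x in O, w x ^ 2 * Real.exp (-(2 * ρ * G x)) ≤
      κ ^ 2 * ∫ x, F x ^ 2 * Real.exp (-(2 * ρ * G x))

/-- The geometry of the cut-offs. -/
structure Cu (O : Set (V n)) (ρ : ℝ) (χ χ₁ χ₂ : V n → ℝ) : Prop where
  s0 : ContDiff ℝ ∞ χ
  s1 : ContDiff ℝ ∞ χ₁
  s2 : ContDiff ℝ ∞ χ₂
  c2 : HasCompactSupport χ₂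
  o2 : tsupport χ₂ ⊆ O
  i1 : ∀ x ∈ tsupport χ, χ₁ x = 1
  i2 : ∀ x ∈ tsupport χ₁, χ₂ x = 1
  b1 : ∀ x, |χ₁ x| ≤ 1
  b2 : ∀ x, |χ₂ x| ≤ 1
  d1 : ∀ k x, |pd k χ₁ x| ≤ ρ
  d2 : ∀ k x, |pd k χ₂ x| ≤ ρ

theorem Cu.t01 {O : Set (V n)} {ρ : ℝ} {χ χ₁ χ₂ : V n → ℝ} (h : Cu O ρ χ χ₁ χ₂) :
    tsupport χ ⊆ tsupport χ₁ := fun x hx => by
  refine subset_tsupport _ ?_
  show χ₁ x ≠ 0
  rw [h.i1 x hx]
  exact one_ne_zero

theorem Cu.t12 {O : Set (V n)} {ρ : ℝ} {χ χ₁ χ₂ : V n → ℝ} (h : Cu O ρ χ χ₁ χ₂) :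
    tsupport χ₁ ⊆ tsupport χ₂ := fun x hx => by
  refine subset_tsupport _ ?_
  show χ₂ x ≠ 0
  rw [h.i2 x hx]
  exact one_ne_zero

theorem Cu.c1 {O : Set (V n)} {ρ : ℝ} {χ χ₁ χ₂ : V n → ℝ} (h : Cu O ρ χ χ₁ χ₂) :
    HasCompactSupport χ₁ := h.c2.of_isClosed_subset isClosed_closure h.t12

theorem Cu.c0 {O : Set (V n)} {ρ : ℝ} {χ χ₁ χ₂ : V n → ℝ} (h : Cu O ρ χ χ₁ χ₂) :
    HasCompactSupport χ := h.c1.of_isClosed_subset isClosed_closure h.t01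

/-- The weighted interior estimate: `∇w` and `∇²w` from `w` and `F`, `W` is equal to `w` near the
supports of the cut-offs. -/
theorem wint {O : Set (V n)} (hO : IsOpen O) {s : MF n} (hs : SmM s) {G : V n → ℝ}
    (hG : ContDiff ℝ ∞ G) {ρ M κ : ℝ} (hρ : 1 ≤ ρ) {χ χ₁ χ₂ : V n → ℝ} (hc : Cu O ρ χ χ₁ χ₂)
    (hd : ∀ x ∈ O, ∀ j, ∑ i, pd i (fun y => s y i j) x = 0)
    (hn : ∀ x ∈ O, ∀ i j, |s x i j - (1 : Matrix (Fin n) (Fin n) ℝ) i j| ≤ 1 / (8 * (n + 1)))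
    (hM : ∀ x ∈ O, ∀ k, |pd k G x| ≤ M) {w F : V n → ℝ} (hw : ContDiffOn ℝ ∞ w O)
    (hF : ContDiff ℝ ∞ F) (hFc : HasCompactSupport F) (he : ∀ x ∈ O, Lv s w x = F x)
    (hi : IntegrableOn (fun x => w x ^ 2 * Real.exp (-(2 * ρ * G x))) O)
    (hk : ∫ x in O, w x ^ 2 * Real.exp (-(2 * ρ * G x)) ≤
      κ ^ 2 * ∫ x, F x ^ 2 * Real.exp (-(2 * ρ * G x))) :
    ∃ W : V n → ℝ, ContDiff ℝ ∞ W ∧ (∀ x ∈ tsupport χ₂, Lv s W x = F x) ∧
      ∫ x, (χ₂ x * Ew ρ G x) ^ 2 * gq W x ≤ (130 * (n + 1) * (ρ ^ 2 * (1 + M ^ 2) * κ ^ 2 +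
        (ρ ^ 2)⁻¹)) * ∫ x, F x ^ 2 * Real.exp (-(2 * ρ * G x)) ∧
      ∫ x, (χ₁ x * Ew ρ G x) ^ 2 * hq W x ≤ (6 + 16 * n * (ρ ^ 2 * (1 + M ^ 2)) *
        (130 * (n + 1) * (ρ ^ 2 * (1 + M ^ 2) * κ ^ 2 + (ρ ^ 2)⁻¹))) *
        ∫ x, F x ^ 2 * Real.exp (-(2 * ρ * G x)) := by
  have hρ0 : 0 < ρ := by linarith
  obtain ⟨χ₃, U, h3s, h3t, hU, hKU, h31, h3b⟩ := ex_cut (isClosed_tsupport χ₂) hO hc.o2
  obtain ⟨W, hW⟩ : ∃ W : V n → ℝ, W = fun x => χ₃ x * w x := ⟨_, rfl⟩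
  have hWs : ContDiff ℝ ∞ W := by rw [hW]; exact smx hO h3s h3t hw
  have hWU : ∀ x ∈ U, W x = w x := fun x hx => by rw [hW]; simp only [h31 x hx, one_mul]
  have hUO : ∀ x ∈ U ∩ O, W x = w x := fun x hx => hWU x hx.1
  have hWL : ∀ x ∈ tsupport χ₂, Lv s W x = F x := fun x hx => by
    rw [Lv_loc (hU.inter hO) hUO ⟨hKU hx, hc.o2 hx⟩, he x (hc.o2 hx)]
  obtain ⟨N2, hN2⟩ : ∃ N2 : ℝ, N2 = ∫ x, F x ^ 2 * Real.exp (-(2 * ρ * G x)) := ⟨_, rfl⟩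
  have hEs : ContDiff ℝ ∞ (Ew ρ G) := Ew_s hG
  have hFi : Integrable fun x => F x ^ 2 * Real.exp (-(2 * ρ * G x)) :=
    icc ((hF.continuous.pow 2).mul (Real.continuous_exp.comp
      (continuous_const.mul hG.continuous).neg)) (HasCompactSupport.intro hFc fun x hx => by
      rw [image_eq_zero_of_notMem_tsupport hx]; ring)
  have hN0 : 0 ≤ N2 := by
    rw [hN2]; exact integral_nonneg fun x => by positivity
  have hM0 : 0 ≤ 1 + M ^ 2 := by positivity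
  have hwi : Integrable (O.indicator fun x => w x ^ 2 * Real.exp (-(2 * ρ * G x))) :=
    hi.integrable_indicator hO.measurableSet
  have hwe : ∫ x, O.indicator (fun x => w x ^ 2 * Real.exp (-(2 * ρ * G x))) x ≤ κ ^ 2 * N2 := by
    rw [integral_indicator hO.measurableSet, hN2]; exact hk
  obtain ⟨B1, hB1⟩ : ∃ B1 : ℝ, B1 = 130 * (n + 1) * (ρ ^ 2 * (1 + M ^ 2) * κ ^ 2 + (ρ ^ 2)⁻¹) :=
    ⟨_, rfl⟩
  have hB10 : 0 ≤ B1 := by rw [hB1]; positivity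
  -- the cut-offs times the weight
  have hη2 : ContDiff ℝ ∞ fun y => χ₂ y * Ew ρ G y := hc.s2.mul hEs
  have hη1 : ContDiff ℝ ∞ fun y => χ₁ y * Ew ρ G y := hc.s1.mul hEs
  have t2 : tsupport (fun y => χ₂ y * Ew ρ G y) ⊆ tsupport χ₂ := tsupport_mul_subset_left
  have t1 : tsupport (fun y => χ₁ y * Ew ρ G y) ⊆ tsupport χ₁ := tsupport_mul_subset_left
  have c2 : HasCompactSupport fun y => χ₂ y * Ew ρ G y := hc.c2.mul_right
  have c1 : HasCompactSupport fun y => χ₁ y * Ew ρ G y := hc.c1.mul_right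
  have hgW := gq_c hWs
  have hLc := (Lv_c hs hWs).continuous
  -- first step
  have s1 : ∫ x, (χ₂ x * Ew ρ G x) ^ 2 * gq W x ≤ B1 * N2 := by
    have a1 := cac1 hs hη2 c2 hWs (fun x hx => hd x (hc.o2 (t2 hx)))
      (fun x hx => hn x (hc.o2 (t2 hx))) (A := ρ ^ 2) (by positivity)
    refine a1.trans ?_
    have a2 : ∫ x, (64 * (gq (fun y => χ₂ y * Ew ρ G y) x * W x ^ 2) +
        2 * ρ ^ 2 * ((χ₂ x * Ew ρ G x) ^ 2 * W x ^ 2) +
        2 * (ρ ^ 2)⁻¹ * ((χ₂ x * Ew ρ G x) ^ 2 * Lv s W x ^ 2)) ≤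
        ∫ x, ((128 * n * (ρ ^ 2 * (1 + M ^ 2)) + 2 * ρ ^ 2) *
          O.indicator (fun x => w x ^ 2 * Real.exp (-(2 * ρ * G x))) x +
          2 * (ρ ^ 2)⁻¹ * (F x ^ 2 * Real.exp (-(2 * ρ * G x)))) := by
      refine integral_mono (icc ?_ (HasCompactSupport.intro c2 fun x hx => ?_))
        ((hwi.const_mul _).add (hFi.const_mul _)) fun x => ?_
      · exact ((continuous_const.mul ((gq_c hη2).mul (hWs.continuous.pow 2))).add
          (continuous_const.mul ((hη2.continuous.pow 2).mul (hWs.continuous.pow 2)))).add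
          (continuous_const.mul ((hη2.continuous.pow 2).mul (hLc.pow 2)))
      · have z1 : χ₂ x * Ew ρ G x = 0 :=
          image_eq_zero_of_notMem_tsupport (f := fun y => χ₂ y * Ew ρ G y) hx
        have z2 : gq (fun y => χ₂ y * Ew ρ G y) x = 0 :=
          Finset.sum_eq_zero fun i _ => by rw [poff hx]; ring
        rw [z1, z2]; ring
      · show 64 * (gq (fun y => χ₂ y * Ew ρ G y) x * W x ^ 2) +
          2 * ρ ^ 2 * ((χ₂ x * Ew ρ G x) ^ 2 * W x ^ 2) +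
          2 * (ρ ^ 2)⁻¹ * ((χ₂ x * Ew ρ G x) ^ 2 * Lv s W x ^ 2) ≤
          (128 * n * (ρ ^ 2 * (1 + M ^ 2)) + 2 * ρ ^ 2) *
          O.indicator (fun x => w x ^ 2 * Real.exp (-(2 * ρ * G x))) x +
          2 * (ρ ^ 2)⁻¹ * (F x ^ 2 * Real.exp (-(2 * ρ * G x)))
        by_cases hx : x ∈ tsupport χ₂
        · have hxO := hc.o2 hx
          rw [indicator_of_mem hxO, hWL x hx, hWU x (hKU hx), ← Ew_sq]
          have b1 := gq_cut hρ0.le hG hc.s2 (hc.b2 x) (fun k => hc.d2 k x) (hM x hxO)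
          have b2 : χ₂ x ^ 2 ≤ 1 := by
            rw [← sq_abs]; exact pow_le_one₀ (abs_nonneg _) (hc.b2 x)
          have b3 := mul_le_mul_of_nonneg_right b1 (sq_nonneg (w x))
          have b4 : 0 ≤ Ew ρ G x ^ 2 * w x ^ 2 := by positivity
          have b5 := mul_le_mul_of_nonneg_right b2 b4
          have b6 : 0 ≤ Ew ρ G x ^ 2 * F x ^ 2 := by positivity
          have b7 := mul_le_mul_of_nonneg_right b2 b6
          have b8 : 0 < (ρ ^ 2)⁻¹ := by positivity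
          have b9 := mul_le_mul_of_nonneg_left b7 b8.le
          have b10 := mul_le_mul_of_nonneg_left b5 (sq_nonneg ρ)
          have e1 : (χ₂ x * Ew ρ G x) ^ 2 * w x ^ 2 = χ₂ x ^ 2 * (Ew ρ G x ^ 2 * w x ^ 2) := by ring
          have e2 : (χ₂ x * Ew ρ G x) ^ 2 * F x ^ 2 = χ₂ x ^ 2 * (Ew ρ G x ^ 2 * F x ^ 2) := by ring
          rw [e1, e2]
          nlinarith
        · have z1 : χ₂ x = 0 := image_eq_zero_of_notMem_tsupport hx
          have z2 : gq (fun y => χ₂ y * Ew ρ G y) x = 0 :=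
            Finset.sum_eq_zero fun i _ => by rw [poff (fun h => hx (t2 h))]; ring
          rw [z1, z2]
          have z3 : 0 ≤ O.indicator (fun x => w x ^ 2 * Real.exp (-(2 * ρ * G x))) x :=
            indicator_nonneg (fun y _ => by positivity) x
          have z4 : 0 ≤ (128 * n * (ρ ^ 2 * (1 + M ^ 2)) + 2 * ρ ^ 2) *
            O.indicator (fun x => w x ^ 2 * Real.exp (-(2 * ρ * G x))) x :=
            mul_nonneg (by positivity) z3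
          have z5 : 0 ≤ 2 * (ρ ^ 2)⁻¹ * (F x ^ 2 * Real.exp (-(2 * ρ * G x))) := by positivity
          linarith
    refine a2.trans ?_
    rw [integral_add (hwi.const_mul _) (hFi.const_mul _), integral_const_mul, integral_const_mul,
      ← hN2]
    have a3 : (128 * n * (ρ ^ 2 * (1 + M ^ 2)) + 2 * ρ ^ 2) *
        ∫ x, O.indicator (fun x => w x ^ 2 * Real.exp (-(2 * ρ * G x))) x ≤
        (128 * n * (ρ ^ 2 * (1 + M ^ 2)) + 2 * ρ ^ 2) * (κ ^ 2 * N2) :=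
      mul_le_mul_of_nonneg_left hwe (by positivity)
    have a4 : 0 ≤ κ ^ 2 * N2 := by positivity
    have a5 : 2 * ρ ^ 2 ≤ 2 * (ρ ^ 2 * (1 + M ^ 2)) := by
      have : 0 ≤ ρ ^ 2 * M ^ 2 := by positivity
      nlinarith
    have a6 : 0 ≤ (ρ ^ 2)⁻¹ * N2 := by positivity
    have a7 : 0 ≤ ρ ^ 2 * (1 + M ^ 2) * (κ ^ 2 * N2) := by positivity
    have a8 : (0 : ℝ) ≤ n := Nat.cast_nonneg n
    have a9 := mul_le_mul_of_nonneg_right a5 a4
    have a10 : 0 ≤ (n : ℝ) * ((ρ ^ 2)⁻¹ * N2) := by positivity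
    have a11 : 0 ≤ (n : ℝ) * (ρ ^ 2 * (1 + M ^ 2) * (κ ^ 2 * N2)) := by positivity
    rw [hB1]
    nlinarith
  -- second step
  refine ⟨W, hWs, hWL, by rw [← hN2, ← hB1]; exact s1, ?_⟩
  rw [← hN2, ← hB1]
  have a1 := cac2 hs hη1 c1 hWs (fun x hx => hn x (hc.o2 (hc.t12 (t1 hx))))
  refine a1.trans ?_
  have i2 : Integrable fun x => (χ₂ x * Ew ρ G x) ^ 2 * gq W x :=
    icc ((hη2.continuous.pow 2).mul hgW) (HasCompactSupport.intro c2 fun x hx => by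
      have z1 : χ₂ x * Ew ρ G x = 0 :=
        image_eq_zero_of_notMem_tsupport (f := fun y => χ₂ y * Ew ρ G y) hx
      rw [z1]; ring)
  have a2 : ∫ x, (6 * ((χ₁ x * Ew ρ G x) ^ 2 * Lv s W x ^ 2) +
      8 * (gq (fun y => χ₁ y * Ew ρ G y) x * gq W x)) ≤
      ∫ x, (6 * (F x ^ 2 * Real.exp (-(2 * ρ * G x))) +
        16 * n * (ρ ^ 2 * (1 + M ^ 2)) * ((χ₂ x * Ew ρ G x) ^ 2 * gq W x)) := by
    refine integral_mono (icc ?_ (HasCompactSupport.intro c1 fun x hx => ?_))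
      ((hFi.const_mul _).add (i2.const_mul _)) fun x => ?_
    · exact (continuous_const.mul ((hη1.continuous.pow 2).mul (hLc.pow 2))).add
        (continuous_const.mul ((gq_c hη1).mul hgW))
    · have z1 : χ₁ x * Ew ρ G x = 0 :=
        image_eq_zero_of_notMem_tsupport (f := fun y => χ₁ y * Ew ρ G y) hx
      have z2 : gq (fun y => χ₁ y * Ew ρ G y) x = 0 :=
        Finset.sum_eq_zero fun i _ => by rw [poff hx]; ring
      rw [z1, z2]; ring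
    · show 6 * ((χ₁ x * Ew ρ G x) ^ 2 * Lv s W x ^ 2) +
        8 * (gq (fun y => χ₁ y * Ew ρ G y) x * gq W x) ≤
        6 * (F x ^ 2 * Real.exp (-(2 * ρ * G x))) +
        16 * n * (ρ ^ 2 * (1 + M ^ 2)) * ((χ₂ x * Ew ρ G x) ^ 2 * gq W x)
      have n1 := gq_nn W x
      by_cases hx : x ∈ tsupport χ₁
      · have hxO := hc.o2 (hc.t12 hx)
        rw [hWL x (hc.t12 hx), ← Ew_sq, hc.i2 x hx, one_mul]
        have b1 := gq_cut hρ0.le hG hc.s1 (hc.b1 x) (fun k => hc.d1 k x) (hM x hxO)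
        have b2 : χ₁ x ^ 2 ≤ 1 := by
          rw [← sq_abs]; exact pow_le_one₀ (abs_nonneg _) (hc.b1 x)
        have b3 := mul_le_mul_of_nonneg_right b1 n1
        have b6 : 0 ≤ Ew ρ G x ^ 2 * F x ^ 2 := by positivity
        have b7 := mul_le_mul_of_nonneg_right b2 b6
        have e2 : (χ₁ x * Ew ρ G x) ^ 2 * F x ^ 2 = χ₁ x ^ 2 * (Ew ρ G x ^ 2 * F x ^ 2) := by ring
        rw [e2]
        nlinarith
      · have z1 : χ₁ x = 0 := image_eq_zero_of_notMem_tsupport hx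
        have z2 : gq (fun y => χ₁ y * Ew ρ G y) x = 0 :=
          Finset.sum_eq_zero fun i _ => by rw [poff (fun h => hx (t1 h))]; ring
        rw [z1, z2]
        have z4 : 0 ≤ 6 * (F x ^ 2 * Real.exp (-(2 * ρ * G x))) := by positivity
        have z5 : 0 ≤ 16 * n * (ρ ^ 2 * (1 + M ^ 2)) * ((χ₂ x * Ew ρ G x) ^ 2 * gq W x) := by
          positivity
        linarith
  refine a2.trans ?_
  rw [integral_add (hFi.const_mul _) (i2.const_mul _), integral_const_mul, integral_const_mul,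
    ← hN2]
  have a3 : 16 * n * (ρ ^ 2 * (1 + M ^ 2)) * ∫ x, (χ₂ x * Ew ρ G x) ^ 2 * gq W x ≤
      16 * n * (ρ ^ 2 * (1 + M ^ 2)) * (B1 * N2) := mul_le_mul_of_nonneg_left s1 (by positivity)
  linarith

end Vale.Agent.P088.R2.H238.S3
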