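import Vale.Agent.P088.R2.H238.S3.Res
import Vale.Agent.P088.R2.H238.S3.Tfrw
import Vale.Agent.P088.R2.H794.Mat

/-!
# P088, stage 3: tools for the normalisation
-/

open MeasureTheory Set
open scoped ContDiff Matrix Topology

noncomputable section

namespace Vale.Agent.P088.R2.H238.S3.Nm

open Vale.Agent.P088.LR Vale.Agent.P088.HY Vale.Agent.P088.HY.T3 Vale.Agent.P088.R2.H238.S3
  Vale.Agent.P088.R2.H238.S3.A

variable {n : ℕ}

/-- derivatives of `f ∘ fa` -/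
theorem ifd_fa {f : V n → ℝ} (hf : ContDiff ℝ ∞ f) (A : Matrix (Fin n) (Fin n) ℝ) (v : V n) (l : ℕ)
    (y : V n) : ‖iteratedFDeriv ℝ l (fun y => f (fa A v y)) y‖ ≤
      ‖lm A⁻¹‖ ^ l * ‖iteratedFDeriv ℝ l f (fa A v y)‖ := by
  have h1 : iteratedFDeriv ℝ l (fun y => f (fa A v y)) y =
      iteratedFDeriv ℝ l (fun z => f (lm A⁻¹ z)) (y - v) := by
    have := iteratedFDeriv_comp_sub' (𝕜 := ℝ) (f := fun z => f (lm A⁻¹ z)) l v
    have h2 := congrFun this y
    simp only [lm_apply] at h2 ⊢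
    exact h2
  have h2 : iteratedFDeriv ℝ l (fun z => f (lm A⁻¹ z)) (y - v) =
      (iteratedFDeriv ℝ l f (fa A v y)).compContinuousLinearMap fun _ => lm A⁻¹ := by
    have := ContinuousLinearMap.iteratedFDeriv_comp_right (lm A⁻¹)
      (f := f) (n := ∞) hf (y - v) (i := l) (by exact_mod_cast le_top)
    rw [lm_apply] at this
    exact this
  rw [h1, h2]
  refine (ContinuousMultilinearMap.norm_compContinuousLinearMap_le _ _).trans ?_
  rw [Finset.prod_const, Finset.card_univ, Fintype.card_fin, mul_comm]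

/-- The zoomed function is small on a fixed ball. -/
theorem near_fa {k : ℕ} {B : ℝ} {f : V n → ℝ} (hf : ContDiff ℝ ∞ f) (hB : Cl (k + 1) B f)
    (hf0 : f 0 = 0) (A : Matrix (Fin n) (Fin n) ℝ) (v : V n) {t : ℝ} (ht : ‖lm A⁻¹‖ ≤ t)
    (ht1 : t ≤ 1) {R : ℝ} (hR : 1 ≤ R) {y : V n} (hy : ‖y - v‖ ≤ R) (l : ℕ) (hl : l ≤ k) :
    ‖iteratedFDeriv ℝ l (fun y => f (fa A v y)) y‖ ≤ B * t * R := by
  have hB0 : 0 ≤ B := (norm_nonneg _).trans (hB 0 (by omega) v)
  have ht0 : 0 ≤ t := (norm_nonneg _).trans ht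
  rcases Nat.eq_zero_or_pos l with rfl | hl0
  · rw [norm_iteratedFDeriv_zero]
    have h1 : ‖f (fa A v y) - f 0‖ ≤ B * ‖fa A v y - 0‖ := by
      refine Convex.norm_image_sub_le_of_norm_fderiv_le (𝕜 := ℝ) (s := univ) (fun x _ =>
        (hf.differentiable (by simp)) x) (fun x _ => ?_) convex_univ (mem_univ _) (mem_univ _)
      have := hB 1 (by omega) x
      rwa [norm_iteratedFDeriv_one] at this
    rw [hf0, sub_zero, sub_zero] at h1
    refine h1.trans ?_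
    have h2 : fa A v y = lm A⁻¹ (y - v) := by rw [lm_apply]; rfl
    rw [h2, mul_assoc]
    refine mul_le_mul_of_nonneg_left ?_ hB0
    exact ((lm A⁻¹).le_opNorm _).trans (mul_le_mul ht hy (norm_nonneg _) ht0)
  · refine (ifd_fa hf A v l y).trans ?_
    have h3 : ‖lm A⁻¹‖ ^ l ≤ t := by
      calc ‖lm A⁻¹‖ ^ l ≤ t ^ l := pow_le_pow_left₀ (norm_nonneg _) ht l
        _ ≤ t ^ 1 := pow_le_pow_of_le_one ht0 ht1 hl0
        _ = t := pow_one t
    calc ‖lm A⁻¹‖ ^ l * ‖iteratedFDeriv ℝ l f (fa A v y)‖ ≤ t * B := by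
          gcongr
          exact hB l (by omega) _
      _ = B * t * 1 := by ring
      _ ≤ B * t * R := by gcongr

/-- Cut-off of a function which is small on the support of the cut-off. -/
theorem cl_cut {k : ℕ} {χ f : V n → ℝ} (hχ : ContDiff ℝ ∞ χ) (hf : ContDiff ℝ ∞ f) {C δ R : ℝ}
    (hC : Cl k C χ) (hs : ∀ y ∈ tsupport χ, ‖y‖ ≤ R)
    (hδ : ∀ y : V n, ‖y‖ ≤ R → ∀ l ≤ k, ‖iteratedFDeriv ℝ l f y‖ ≤ δ) (hδ0 : 0 ≤ δ) :
    Cl k (2 ^ k * (C * δ)) (fun y => χ y * f y) := by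
  intro l hl y
  have hC0 : 0 ≤ C := (norm_nonneg _).trans (hC 0 (by omega) y)
  by_cases hy : y ∈ tsupport χ
  · have hyR : ‖y‖ ≤ R := hs y hy
    refine (norm_iteratedFDeriv_mul_le (𝕜 := ℝ) (n := l) (N := ∞) hχ hf y
      (by exact_mod_cast le_top)).trans ?_
    calc ∑ i ∈ Finset.range (l + 1), (l.choose i : ℝ) * ‖iteratedFDeriv ℝ i χ y‖ *
          ‖iteratedFDeriv ℝ (l - i) f y‖
        ≤ ∑ i ∈ Finset.range (l + 1), (l.choose i : ℝ) * (C * δ) := by
          refine Finset.sum_le_sum fun i hi => ?_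
          have hi' : i ≤ l := Nat.lt_succ_iff.1 (Finset.mem_range.1 hi)
          rw [mul_assoc]
          gcongr
          · exact hC i (hi'.trans hl) y
          · exact hδ y hyR (l - i) (by omega)
      _ = 2 ^ l * (C * δ) := by
          rw [← Finset.sum_mul]
          congr 1
          have := Nat.sum_range_choose l
          exact_mod_cast this
      _ ≤ 2 ^ k * (C * δ) := by
          gcongr
          norm_num
  · have h1 : y ∉ Function.support (iteratedFDeriv ℝ l (fun y => χ y * f y)) := fun h =>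
      hy (tsupport_mul_subset_left (support_iteratedFDeriv_subset l h))
    rw [Function.notMem_support.1 h1, norm_zero]
    positivity

/-- A compactly supported smooth function has bounded derivatives. -/
theorem cl_compact {χ : V n → ℝ} (hχ : ContDiff ℝ ∞ χ) (hc : HasCompactSupport χ) (k : ℕ) :
    ∃ C > 0, Cl k C χ := by
  have h : ∀ l : ℕ, ∃ C, ∀ x, ‖iteratedFDeriv ℝ l χ x‖ ≤ C := fun l =>
    (hc.iteratedFDeriv l).exists_bound_of_continuous
      (hχ.continuous_iteratedFDeriv (by exact_mod_cast le_top))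
  choose C hC using h
  refine ⟨∑ l ∈ Finset.range (k + 1), |C l| + 1, by positivity, fun l hl x => ?_⟩
  calc ‖iteratedFDeriv ℝ l χ x‖ ≤ C l := hC l x
    _ ≤ |C l| := le_abs_self _
    _ ≤ ∑ l ∈ Finset.range (k + 1), |C l| :=
        Finset.single_le_sum (f := fun l => |C l|) (fun i _ => abs_nonneg _)
          (Finset.mem_range.2 (by omega))
    _ ≤ _ := by linarith

theorem Cl_mono {k : ℕ} {a b : ℝ} (h : a ≤ b) {f : V n → ℝ} (hf : Cl k a f) : Cl k b f :=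
  fun l hl x => (hf l hl x).trans h

/-- The reflection taking `b` to a negative multiple of `e0`. -/
theorem house (hn : 0 < n) {b : V n} (hb : b ≠ 0) : ∃ O : Matrix (Fin n) (Fin n) ℝ,
    Oᵀ * O = 1 ∧ ∃ β : ℝ, 0 < β ∧ O *ᵥ b = -(β • e0 n) := by
  have he : e0 n ⬝ᵥ e0 n = 1 := by
    unfold e0 dotProduct
    rw [Finset.sum_eq_single (⟨0, hn⟩ : Fin n)]
    · simp
    · intro i _ hi
      have : i.val ≠ 0 := fun h => hi (Fin.ext h)
      simp [this]
    · intro h; exact absurd (Finset.mem_univ _) h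
  have hbb : 0 < b ⬝ᵥ b := by
    have h0 : 0 ≤ b ⬝ᵥ b := Finset.sum_nonneg fun i _ => mul_self_nonneg _
    exact lt_of_le_of_ne h0 (fun h => hb (dotProduct_self_eq_zero.1 h.symm))
  obtain ⟨β, hβ⟩ : ∃ β : ℝ, β = √(b ⬝ᵥ b) := ⟨_, rfl⟩
  have hβ0 : 0 < β := by rw [hβ]; exact Real.sqrt_pos.2 hbb
  have hβ2 : β * β = b ⬝ᵥ b := by rw [hβ]; exact Real.mul_self_sqrt hbb.le
  obtain ⟨c, hc⟩ : ∃ c : V n, c = -(β • e0 n) := ⟨_, rfl⟩
  have hcc : c ⬝ᵥ c = b ⬝ᵥ b := by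
    rw [hc, neg_dotProduct_neg, smul_dotProduct, dotProduct_smul, he, smul_eq_mul, smul_eq_mul,
      mul_one, hβ2]
  by_cases h : b = c
  · exact ⟨1, by simp, β, hβ0, by rw [Matrix.one_mulVec, ← hc, h]⟩
  · obtain ⟨u, hu⟩ : ∃ u : V n, u = b - c := ⟨_, rfl⟩
    have hu0 : u ≠ 0 := by rw [hu]; exact sub_ne_zero.2 h
    have hq : u ⬝ᵥ u ≠ 0 := fun h => hu0 (dotProduct_self_eq_zero.1 h)
    have hub : 2 * (u ⬝ᵥ b) = u ⬝ᵥ u := by
      rw [hu, dotProduct_sub (b - c) b c, sub_dotProduct, sub_dotProduct, hcc,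
        dotProduct_comm c b]
      ring
    obtain ⟨q, hqq⟩ : ∃ q : ℝ, q = u ⬝ᵥ u := ⟨_, rfl⟩
    rw [← hqq] at hq hub
    refine ⟨1 - (2 / q) • Matrix.vecMulVec u u, ?_, β, hβ0, ?_⟩
    · rw [Matrix.transpose_sub, Matrix.transpose_one, Matrix.transpose_smul,
        Matrix.transpose_vecMulVec, Matrix.sub_mul, Matrix.mul_sub, Matrix.mul_sub, Matrix.one_mul,
        Matrix.mul_one, Matrix.one_mul, Matrix.smul_mul, Matrix.mul_smul, Matrix.vecMulVec_mul_vecMulVec]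
      ext i j
      simp only [Matrix.sub_apply, Matrix.smul_apply, Matrix.vecMulVec_apply, smul_eq_mul,
        Pi.smul_apply]
      rw [← hqq]
      field_simp
      ring
    · rw [Matrix.sub_mulVec, Matrix.one_mulVec, Matrix.smul_mulVec, ← hc]
      funext i
      have e1 : (Matrix.vecMulVec u u *ᵥ b) i = u i * (u ⬝ᵥ b) := by
        simp only [Matrix.mulVec, dotProduct, Matrix.vecMulVec_apply, Finset.mul_sum]
        exact Finset.sum_congr rfl fun j _ => by ring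
      rw [Pi.sub_apply, Pi.smul_apply, e1, smul_eq_mul]
      have e2 : u ⬝ᵥ b = q / 2 := by linarith
      rw [e2, hu, Pi.sub_apply]
      field_simp
      ring

/-- The normalising matrix. -/
theorem nmat (hn : 0 < n) {S : Matrix (Fin n) (Fin n) ℝ} (hS : S.PosDef) {a : V n} (ha : a ≠ 0) :
    ∃ P : Matrix (Fin n) (Fin n) ℝ, P.det ≠ 0 ∧ P * S * Pᵀ = 1 ∧
      ∃ β : ℝ, 0 < β ∧ (P⁻¹)ᵀ *ᵥ a = -(β • e0 n) := by
  obtain ⟨Q, hQ, hQd⟩ := H794.posDef_root hS.inv
  have hQu : IsUnit Q.det := hQd.isUnit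
  have hSu : IsUnit S.det := hS.det_pos.ne'.isUnit
  have hb : (Q⁻¹)ᵀ *ᵥ a ≠ 0 := by
    intro h
    apply ha
    have h1 : Qᵀ *ᵥ ((Q⁻¹)ᵀ *ᵥ a) = a := by
      rw [Matrix.mulVec_mulVec, ← Matrix.transpose_mul, Matrix.nonsing_inv_mul Q hQu,
        Matrix.transpose_one, Matrix.one_mulVec]
    rw [← h1, h, Matrix.mulVec_zero]
  obtain ⟨O, hO, β, hβ, hOb⟩ := house hn hb
  have hO' : O * Oᵀ = 1 := mul_eq_one_comm.1 hO
  have hQS : Q * S * Qᵀ = 1 := by
    have h1 : Qᵀ * (Q * S) = 1 := by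
      rw [← Matrix.mul_assoc, hQ, Matrix.nonsing_inv_mul S hSu]
    exact mul_eq_one_comm.1 h1
  have hOd : O.det ≠ 0 := fun h => by
    have := congrArg Matrix.det hO
    rw [Matrix.det_mul, h, mul_zero, Matrix.det_one] at this
    exact zero_ne_one this
  refine ⟨O * Q, ?_, ?_, β, hβ, ?_⟩
  · rw [Matrix.det_mul]; exact mul_ne_zero hOd hQd
  · rw [Matrix.transpose_mul]
    calc O * Q * S * (Qᵀ * Oᵀ) = O * (Q * S * Qᵀ) * Oᵀ := by simp only [Matrix.mul_assoc]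
      _ = 1 := by rw [hQS, Matrix.mul_one, hO']
  · have e : (O * Q)⁻¹ = Q⁻¹ * Oᵀ := by
      rw [Matrix.mul_inv_rev]
      congr 1
      exact Matrix.inv_eq_left_inv hO
    rw [e, Matrix.transpose_mul, Matrix.transpose_transpose, ← Matrix.mulVec_mulVec, hOb]

end Vale.Agent.P088.R2.H238.S3.Nm
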