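import Vale.Agent.P088.R2.H313.MuD

/-!
# P088, stage 3, row PHI-NT: the final slope is arbitrary
-/

open Set Filter Topology MeasureTheory
open scoped ContDiff

noncomputable section

namespace Vale.Agent.P088.R2.H313.Ph

namespace Pr

variable (p : Pr)

/-- The constant of the decay at infinity. -/
def Bc (m : ℝ) : ℝ := (p.X * m) * (p.C2 * p.X * m + p.cq m * Real.exp (p.u3 m)) +
  p.X * m * Real.exp (max (Real.log m + p.s2 + 1) (p.u3 m + 1))

variable {p} in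
theorem Lg.decay' {m : ℝ} (hm : p.Lg m) (u : ℝ) :
    p.Nt m - p.NN m u ≤ p.Bc m * Real.exp (-u) := by
  have hX := mul_pos p.X_pos hm.pos
  set D : ℝ := (p.X * m) * (p.C2 * p.X * m + p.cq m * Real.exp (p.u3 m)) with hD
  have hD0 : 0 < D := by
    have := p.h2
    have := p.X_pos
    have := hm.pos
    have := hm.cq_pos
    positivity
  set u0 : ℝ := max (Real.log m + p.s2 + 1) (p.u3 m + 1) with hu0
  have hR : ∀ u, u0 ≤ u → p.NN m u * p.RR m u ≤ D * Real.exp (-u) := by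
    intro u hu
    have a1 : p.s2 + 1 ≤ u - Real.log m := by
      have := (le_max_left (Real.log m + p.s2 + 1) (p.u3 m + 1)).trans hu
      linarith
    have a2 : 1 ≤ u - p.u3 m := by
      have := (le_max_right (Real.log m + p.s2 + 1) (p.u3 m + 1)).trans hu
      linarith
    have a3 : p.RR m u ≤ (p.C2 * p.X * m + p.cq m * Real.exp (p.u3 m)) * Real.exp (-u) := by
      have b1 := hm.Q_le_hh u
      rw [hh_right a2] at b1
      have b2 : Real.exp (-(u - p.u3 m)) = Real.exp (p.u3 m) * Real.exp (-u) := by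
        rw [← Real.exp_add]; congr 1; ring
      have b3 : Real.exp (-(u - Real.log m)) = m * Real.exp (-u) := by
        rw [show -(u - Real.log m) = Real.log m + -u by ring, Real.exp_add, Real.exp_log hm.pos]
      show p.R0 (u - Real.log m) + p.Q m u ≤ _
      rw [p.R0_right a1, b3]
      rw [b2] at b1
      linarith
    calc p.NN m u * p.RR m u ≤
          (p.X * m) * ((p.C2 * p.X * m + p.cq m * Real.exp (p.u3 m)) * Real.exp (-u)) :=
          mul_le_mul (hm.N_le u) a3 (hm.R_pos u).le hX.le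
      _ = D * Real.exp (-u) := by rw [hD]; ring
  have hanti : AntitoneOn (fun u => p.NN m u + D * Real.exp (-u)) (Ici u0) := by
    have hd : ∀ u, HasDerivAt (fun u => p.NN m u + D * Real.exp (-u))
        (p.NN m u * p.RR m u + D * (Real.exp (-u) * (-1))) u := fun u =>
      (hm.N_deriv u).add (((hasDerivAt_neg u).exp).const_mul D)
    refine antitoneOn_of_deriv_nonpos (convex_Ici u0)
      (fun u _ => (hd u).continuousAt.continuousWithinAt)
      (fun u _ => (hd u).differentiableAt.differentiableWithinAt) fun u hu => ?_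
    rw [interior_Ici] at hu
    rw [(hd u).deriv]
    have := hR u (le_of_lt hu)
    linarith
  have h1 : ∀ u, u0 ≤ u → p.Nt m - p.NN m u ≤ D * Real.exp (-u) := by
    intro u hu
    have : p.Nt m ≤ p.NN m u + D * Real.exp (-u) := by
      refine ciSup_le fun t => ?_
      rcases le_total t u with h | h
      · have := hm.N_mono h
        have := mul_pos hD0 (Real.exp_pos (-u))
        linarith
      · have h2 := hanti (mem_Ici.2 hu) (mem_Ici.2 (hu.trans h)) h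
        have h3 := mul_pos hD0 (Real.exp_pos (-t))
        simp only at h2
        linarith
    linarith
  have hB : p.Bc m = D + p.X * m * Real.exp u0 := rfl
  rw [hB]
  have hE := Real.exp_pos (-u)
  rcases le_total u0 u with h | h
  · have h2 := h1 u h
    have h3 : 0 < p.X * m * Real.exp u0 * Real.exp (-u) :=
      mul_pos (mul_pos hX (Real.exp_pos _)) hE
    linarith
  · have h2 : 1 ≤ Real.exp u0 * Real.exp (-u) := by
      rw [← Real.exp_add, Real.one_le_exp_iff]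
      linarith
    have h3 := hm.Nt_le
    have h4 := hm.N_pos u
    have h5 := mul_le_mul_of_nonneg_left h2 hX.le
    have h6 := mul_pos hD0 hE
    linarith

theorem cq_cont : Continuous fun τ : ℝ => p.cq (Real.exp τ) := by
  unfold cq
  refine continuous_const.mul ((continuous_const.mul Real.continuous_exp).rpow_const fun τ =>
    Or.inl (mul_pos p.X0_pos (Real.exp_pos τ)).ne')

theorem aa_exp (τ : ℝ) : p.aa (Real.exp τ) = τ + p.s2 := by
  unfold aa; rw [Real.log_exp]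

theorem u3_exp (τ : ℝ) : p.u3 (Real.exp τ) = Real.log p.C3 + p.be * (Real.log p.X + τ) := by
  unfold u3; rw [Real.log_exp]

theorem NN_cont (u : ℝ) : Continuous fun τ : ℝ => p.NN (Real.exp τ) u := by
  have hQ : Continuous (Function.uncurry fun τ t : ℝ => p.Q (Real.exp τ) t) := by
    have e : (Function.uncurry fun τ t : ℝ => p.Q (Real.exp τ) t) = fun z : ℝ × ℝ =>
        p.cq (Real.exp z.1) * st (z.2 - (z.1 + p.s2)) *
          hh (z.2 - (Real.log p.C3 + p.be * (Real.log p.X + z.1))) := by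
      funext z
      show p.Q (Real.exp z.1) z.2 = _
      unfold Q
      rw [p.aa_exp, p.u3_exp]
    rw [e]
    have h1 := p.cq_cont.comp (continuous_fst (X := ℝ) (Y := ℝ))
    have h2 : Continuous fun z : ℝ × ℝ => st (z.2 - (z.1 + p.s2)) :=
      st_smooth.continuous.comp (by fun_prop)
    have h3 : Continuous fun z : ℝ × ℝ =>
        hh (z.2 - (Real.log p.C3 + p.be * (Real.log p.X + z.1))) :=
      hh_smooth.continuous.comp (by fun_prop)
    exact (h1.mul h2).mul h3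
  have hH : Continuous fun τ : ℝ => p.H1 (Real.exp τ) u := by
    have h1 : Continuous fun τ : ℝ => ∫ t in u..(τ + p.s2), p.Q (Real.exp τ) t :=
      intervalIntegral.continuous_parametric_intervalIntegral_of_continuous hQ
        (continuous_id.add continuous_const)
    have e : (fun τ : ℝ => p.H1 (Real.exp τ) u) =
        fun τ => -∫ t in u..(τ + p.s2), p.Q (Real.exp τ) t := by
      funext τ
      unfold H1
      rw [p.aa_exp, intervalIntegral.integral_symm]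
    rw [e]
    exact h1.neg
  unfold NN
  have h0 : Continuous fun τ : ℝ => p.H0 (u - Real.log (Real.exp τ)) := by
    simp only [Real.log_exp]
    exact p.H0_smooth.continuous.comp (continuous_const.sub continuous_id)
  exact Real.continuous_exp.mul (Real.continuous_exp.comp (h0.add hH))

theorem Bc_cont : Continuous fun τ : ℝ => p.Bc (Real.exp τ) := by
  unfold Bc
  simp only [p.u3_exp, Real.log_exp]
  have h1 := p.cq_cont
  have h2 : Continuous fun τ : ℝ => max (τ + p.s2 + 1)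
      (Real.log p.C3 + p.be * (Real.log p.X + τ) + 1) := by fun_prop
  have h3 := Real.continuous_exp.comp h2
  have h4 : Continuous fun τ : ℝ => Real.exp (Real.log p.C3 + p.be * (Real.log p.X + τ)) := by
    fun_prop
  have h5 : Continuous fun τ : ℝ => p.X * Real.exp τ := by fun_prop
  have h6 : Continuous fun τ : ℝ => p.C2 * p.X * Real.exp τ := by fun_prop
  exact (h5.mul (h6.add (h1.mul h4))).add (h5.mul h3)

theorem Nt_cont {a b : ℝ} (h : ∀ τ ∈ Icc a b, p.Lg (Real.exp τ)) :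
    ContinuousOn (fun τ => p.Nt (Real.exp τ)) (Icc a b) := by
  obtain ⟨B, hB⟩ := (isCompact_Icc (a := a) (b := b)).exists_bound_of_continuousOn
    p.Bc_cont.continuousOn
  have ht : TendstoUniformlyOn (fun (u : ℝ) τ => p.NN (Real.exp τ) u)
      (fun τ => p.Nt (Real.exp τ)) atTop (Icc a b) := by
    rw [Metric.tendstoUniformlyOn_iff]
    intro ε hε
    have h1 : Tendsto (fun u : ℝ => (|B| + 1) * Real.exp (-u)) atTop (𝓝 ((|B| + 1) * 0)) :=
      Real.tendsto_exp_neg_atTop_nhds_zero.const_mul _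
    rw [mul_zero] at h1
    filter_upwards [h1.eventually (gt_mem_nhds hε)] with u hu τ hτ
    have hm := h τ hτ
    have h2 := hm.decay' u
    have h3 : 0 ≤ p.Nt (Real.exp τ) - p.NN (Real.exp τ) u := sub_nonneg.2 (hm.le_Nt u)
    rw [Real.dist_eq, abs_of_nonneg h3]
    refine lt_of_le_of_lt (h2.trans ?_) hu
    refine mul_le_mul_of_nonneg_right ?_ (Real.exp_pos _).le
    have h4 := hB τ hτ
    rw [Real.norm_eq_abs] at h4
    linarith [le_abs_self (p.Bc (Real.exp τ)), le_abs_self B]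
  exact ht.continuousOn (Frequently.of_forall fun u => (p.NN_cont u).continuousOn)

/-- The final slope takes all large values. -/
theorem Nt_surj {M1 N : ℝ} (hM1 : 0 < M1) (h : ∀ m, M1 ≤ m → p.Lg m) (hN : p.X * M1 ≤ N) :
    ∃ M0, M1 ≤ M0 ∧ p.Nt M0 = N := by
  have hX := p.X_ge
  have hMN : M1 ≤ N := (le_mul_of_one_le_left hM1.le hX).trans hN
  have hN0 : 0 < N := lt_of_lt_of_le hM1 hMN
  have hl : Real.log M1 ≤ Real.log N := Real.log_le_log hM1 hMN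
  have hc := p.Nt_cont (a := Real.log M1) (b := Real.log N) fun τ hτ => h _ (by
    rw [← Real.log_le_iff_le_exp hM1]; exact hτ.1)
  have h1 : p.Nt (Real.exp (Real.log M1)) ≤ N := by
    rw [Real.exp_log hM1]
    exact (h M1 le_rfl).Nt_le.trans hN
  have h2 : N ≤ p.Nt (Real.exp (Real.log N)) := by
    rw [Real.exp_log hN0]
    exact ((h N hMN).N_ge 0).trans ((h N hMN).le_Nt 0)
  obtain ⟨τ, hτ, he⟩ := intermediate_value_Icc hl hc ⟨h1, h2⟩
  exact ⟨Real.exp τ, by rw [← Real.log_le_iff_le_exp hM1]; exact hτ.1, he⟩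

end Pr

/-- **Row PHI-NT**: `exists_phiU`, with an arbitrary (large) final slope. -/
theorem exists_phiU_nt {ρ κ nm ν C1 C2 C3 al be : ℝ} (hρ : 0 < ρ) (hρ1 : ρ < 1) (hκ : 0 < κ)
    (hnm : 0 < nm) (hν : 0 < ν) (h1 : 0 < C1) (h2 : 0 < C2) (h3 : 0 < C3)
    (hκn : κ ≤ ρ * nm) (hνn : ν ≤ nm) (hc : C2 * ν ≤ ρ / 40) (hal : 0 < al) (hal1 : al < 1)
    (hbe : 0 < be) :
    ∃ (Ms Cb : ℝ) (Cd : ℕ → ℝ), 1 ≤ Ms ∧ 0 < Cb ∧ (∀ j, 0 ≤ Cd j) ∧
      (∀ M0, Ms ≤ M0 → ∃ Φ : ℝ → ℝ, IsPhiU ρ κ nm ν C1 C2 C3 al be Cb Cd M0 Φ) ∧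
      ∀ M1, Ms ≤ M1 → ∀ N, Cb * M1 ≤ N → ∃ M0, M1 ≤ M0 ∧
        ∃ Φ : ℝ → ℝ, IsPhiU ρ κ nm ν C1 C2 C3 al be Cb Cd M0 Φ ∧
        ∃ B : ℝ, ∀ u, 0 ≤ N - deriv Φ u ∧ N - deriv Φ u ≤ B * Real.exp (-u) := by
  obtain ⟨p, Ms, Cb, Cd, -, a1, a2, a3, hX, H⟩ := exists_phiU_aux hρ hρ1 hκ hnm hν h1 h2 h3
    hκn hνn hc hal hal1 hbe
  refine ⟨Ms, Cb, Cd, a1, a2, a3, fun M0 hM0 => ⟨_, (H M0 hM0).2⟩, fun M1 hM1 N hN => ?_⟩
  have hM10 : 0 < M1 := by linarith
  obtain ⟨M0, hM, he⟩ := p.Nt_surj hM10 (fun m hm => (H m (hM1.trans hm)).1)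
    ((mul_le_mul_of_nonneg_right hX hM10.le).trans hN)
  obtain ⟨hm, hΦ⟩ := H M0 (hM1.trans hM)
  obtain ⟨B, hB⟩ := hm.decay
  refine ⟨M0, hM, p.PP M0, hΦ, B, fun u => ?_⟩
  rw [(p.PP_deriv M0 u).deriv, ← he]
  exact ⟨sub_nonneg.2 (hm.le_Nt u), hB u⟩

end Vale.Agent.P088.R2.H313.Ph

namespace Vale.Agent.P088.R2.H313.Mu

open Ph

/-- **Rows PHI and MU**, with an arbitrary (large) final slope. -/
theorem exists_slope_nt : ∃ Cm : ℕ → ℝ, (∀ j, 0 ≤ Cm j) ∧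
    ∀ {ρ κ nm ν C1 C2 C3 al be Cs del : ℝ}, 0 < ρ → ρ < 1 → 0 < κ → 0 < nm → 0 < ν →
      0 < C1 → 0 < C2 → 0 < C3 → κ ≤ ρ * nm → ν ≤ nm → C2 * ν ≤ ρ / 40 → 0 < al → al < 1 →
      1 < be → 1 ≤ Cs → 0 < del →
      ∃ (Ms Cb c : ℝ) (Cd : ℕ → ℝ), Real.exp 100 ≤ Ms ∧ 0 < Cb ∧ (∀ j, 0 ≤ Cd j) ∧ 0 < c ∧
        (∀ M0, Ms ≤ M0 → ∃ Φ μ : ℝ → ℝ, IsPhiU ρ κ nm ν C1 C2 C3 al be Cb Cd M0 Φ ∧
          IsMu Cs del Cm M0 μ ∧ b0 del M0 ≤ 1 / 8 ∧ (∀ s, |μ s| ≤ 1 / 8) ∧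
          (∀ u, Real.exp u ≤ 8 * Real.exp 1 ^ 2 * Cs * deriv Φ u →
            c * Real.exp u ≤ deriv (deriv Φ) u) ∧
          (∀ u, 4 * deriv Φ u ^ (13 / 5 : ℝ) ≤ M0 ^ (261 / 100 : ℝ))) ∧
        ∀ M1, Ms ≤ M1 → ∀ N, Cb * M1 ≤ N → ∃ M0, M1 ≤ M0 ∧
          ∃ Φ μ : ℝ → ℝ, (IsPhiU ρ κ nm ν C1 C2 C3 al be Cb Cd M0 Φ ∧
          IsMu Cs del Cm M0 μ ∧ b0 del M0 ≤ 1 / 8 ∧ (∀ s, |μ s| ≤ 1 / 8) ∧
          (∀ u, Real.exp u ≤ 8 * Real.exp 1 ^ 2 * Cs * deriv Φ u →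
            c * Real.exp u ≤ deriv (deriv Φ) u) ∧
          (∀ u, 4 * deriv Φ u ^ (13 / 5 : ℝ) ≤ M0 ^ (261 / 100 : ℝ))) ∧
          ∃ B : ℝ, ∀ u, 0 ≤ N - deriv Φ u ∧ N - deriv Φ u ≤ B * Real.exp (-u) := by
  obtain ⟨Cm, hCm, H⟩ := exists_mu
  refine ⟨Cm, hCm, ?_⟩
  intro ρ κ nm ν C1 C2 C3 al be Cs del hρ hρ1 hκ hnm hν h1 h2 h3 hκn hνn hc hal hal1 hbe hCs hdel
  obtain ⟨Ma, Cb, Cd, hMa, hCb, hCd, HΦ, HN⟩ := exists_phiU_nt hρ hρ1 hκ hnm hν h1 h2 h3 hκn hνn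
    hc hal hal1 (by linarith : 0 < be)
  obtain ⟨Mb, hMb, Hμ⟩ := H Cs del hCs hdel
  obtain ⟨Mc, HMc⟩ := b0_small del (by norm_num : (0 : ℝ) < 1 / 8)
  obtain ⟨Me, c, hc0, HMe⟩ := low (Cd := Cd) (Cb := Cb) (nm := nm) (al := al) hρ hκ hν h1 h2 h3 hbe
    (A := 8 * Real.exp 1 ^ 2 * Cs) (by positivity)
  obtain ⟨Mf, HMf⟩ := four_le Cb
  have key : ∀ M0, max Ma (max Mb (max Mc (max Me (max Mf (Real.exp 100))))) ≤ M0 → ∀ Φ : ℝ → ℝ,
      IsPhiU ρ κ nm ν C1 C2 C3 al be Cb Cd M0 Φ →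
      ∃ μ : ℝ → ℝ, IsPhiU ρ κ nm ν C1 C2 C3 al be Cb Cd M0 Φ ∧
          IsMu Cs del Cm M0 μ ∧ b0 del M0 ≤ 1 / 8 ∧ (∀ s, |μ s| ≤ 1 / 8) ∧
          (∀ u, Real.exp u ≤ 8 * Real.exp 1 ^ 2 * Cs * deriv Φ u →
            c * Real.exp u ≤ deriv (deriv Φ) u) ∧
          (∀ u, 4 * deriv Φ u ^ (13 / 5 : ℝ) ≤ M0 ^ (261 / 100 : ℝ)) := by
    intro M0 hM0 Φ hΦ
    simp only [max_le_iff] at hM0
    obtain ⟨a1, a2, a3, a4, a6, a5⟩ := hM0
    obtain ⟨μ, hμ⟩ := Hμ M0 a2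
    obtain ⟨b1, b2⟩ := HMc M0 a3
    have hMp : 0 < M0 := lt_of_lt_of_le (Real.exp_pos _) a5
    refine ⟨μ, hΦ, hμ, b1, fun s => ?_, fun u hu => HMe M0 a4 Φ hΦ u hu,
      fun u => HMf M0 a6 _ (hMp.le.trans (hΦ.n1 u)) (hΦ.n2 u)⟩
    have h5 := hμ.bd s
    rw [abs_of_pos hdel] at b2
    have h6 : 0 ≤ del * Real.log M0 ^ (-(1 / 2) : ℝ) := by
      have := Real.rpow_nonneg (Real.log_nonneg (by
        have := Real.one_le_exp (by norm_num : (0 : ℝ) ≤ 100)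
        linarith : (1 : ℝ) ≤ M0)) (-(1 / 2) : ℝ)
      positivity
    nlinarith
  refine ⟨max Ma (max Mb (max Mc (max Me (max Mf (Real.exp 100))))), Cb, c, Cd, ?_, hCb, hCd, hc0,
    fun M0 hM0 => ?_, fun M1 hM1 N hN => ?_⟩
  · exact (le_max_right _ _).trans ((le_max_right _ _).trans ((le_max_right _ _).trans
      ((le_max_right _ _).trans (le_max_right _ _))))
  · obtain ⟨Φ, hΦ⟩ := HΦ M0 ((le_max_left _ _).trans hM0)
    obtain ⟨μ, h⟩ := key M0 hM0 Φ hΦ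
    exact ⟨Φ, μ, h⟩
  · obtain ⟨M0, hM, Φ, hΦ, hB⟩ := HN M1 ((le_max_left _ _).trans hM1) N hN
    obtain ⟨μ, h⟩ := key M0 (hM1.trans hM) Φ hΦ
    exact ⟨M0, hM, Φ, μ, h, hB⟩

end Vale.Agent.P088.R2.H313.Mu
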