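import Vale.Agent.P088.R2.H238.S3.Aff3
import Vale.Agent.P088.R2.H354.Spec3n

/-!
# P088, stage 3: restriction and congruence of `Stp`
-/

open MeasureTheory Set
open scoped ContDiff Matrix Topology

noncomputable section

namespace Vale.Agent.P088.R2.H238.S3

open Vale.Agent.P088.LR Vale.Agent.P088.HY Vale.Agent.P088.HY.T3

variable {n : ℕ}

theorem Eb_open (a : V n) (R : ℝ) : IsOpen (Eb a R) := by
  have h : Continuous fun x : V n => Vale.Agent.P088.HY.sq (x - a) := by
    unfold Vale.Agent.P088.HY.sq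
    exact continuous_finsetSum _ fun j _ => (by fun_prop : Continuous fun x : V n => (x - a) j ^ 2)
  exact isOpen_lt h continuous_const

/-- Only `G ∩ D` matters. -/
theorem stp_G {D G G' : Set (V n)} {s₁ s₂ : MF n} (hG : G ∩ D = G' ∩ D) (h : Stp D G s₁ s₂) :
    Stp D G' s₁ s₂ := by
  have e : D \ G' = D \ G := by
    ext x
    constructor
    · rintro ⟨h1, h2⟩
      exact ⟨h1, fun h3 => h2 (by
        have : x ∈ G ∩ D := ⟨h3, h1⟩
        rw [hG] at this
        exact this.1)⟩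
    · rintro ⟨h1, h2⟩
      exact ⟨h1, fun h3 => h2 (by
        have : x ∈ G' ∩ D := ⟨h3, h1⟩
        rw [← hG] at this
        exact this.1)⟩
  unfold Stp at h ⊢
  rw [e, ← hG]
  exact h

/-- Congruence in the tensors. -/
theorem stp_congr {D G : Set (V n)} (hD : IsOpen D) {s₁ s₂ s₁' s₂' : MF n}
    (h1 : ∀ x ∈ D, s₁' x = s₁ x) (h2 : ∀ x ∈ D, s₂' x = s₂ x) (hGm : MeasurableSet G)
    (h : Stp D G s₁ s₂) : Stp D G s₁' s₂' := by
  obtain ⟨C₀, hC₀, h⟩ := h
  refine ⟨C₀, hC₀, ?_⟩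
  intro d f h₁ h₂ hf hfc hfD hh1 hh1c hh1D hh2 hh2c hh2D hL ε hε
  obtain ⟨w, dv, w1, w0, w2, w3, w4, wk, wb⟩ := h d f h₁ h₂ hf hfc hfD hh1 hh1c hh1D hh2 hh2c hh2D
    (fun q x hx => by
      rw [← hL q x hx]
      unfold Lv
      rw [h1 x hx]) ε hε
  refine ⟨w, dv, w1, w0, w2, w3, w4, fun q φ hφ hφc hφD => ?_, wb⟩
  have e1 : ∫ x in D, ∑ i, ∑ j, s₂' x i j * (pd i (w q) x * pd j φ x) =
      ∫ x in D, ∑ i, ∑ j, s₂ x i j * (pd i (w q) x * pd j φ x) :=
    setIntegral_congr_fun hD.measurableSet fun x hx => by simp only [h2 x hx]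
  have e2 : ∫ x in D \ G, ∑ i, ∑ j, (s₁' x i j - s₂' x i j) * (dv q i x * pd j φ x) =
      ∫ x in D \ G, ∑ i, ∑ j, (s₁ x i j - s₂ x i j) * (dv q i x * pd j φ x) :=
    setIntegral_congr_fun (hD.measurableSet.diff hGm) fun x hx => by
      simp only [h2 x hx.1, h1 x hx.1]
  rw [e1, e2]
  exact wk q φ hφ hφc hφD

/-- Restriction. -/
theorem stp_res {D D₁ G : Set (V n)} (hD : IsOpen D) (hG : MeasurableSet G)
    (hsub : D₁ ⊆ D) {s₁ s₂ : MF n} (h : Stp D G s₁ s₂) : Stp D₁ G s₁ s₂ := by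
  obtain ⟨C₀, hC₀, h⟩ := h
  refine ⟨C₀, hC₀, ?_⟩
  intro d f h₁ h₂ hf hfc hfD hh1 hh1c hh1D hh2 hh2c hh2D hL ε hε
  have hsd : D₁ \ G ⊆ D \ G := fun x hx => ⟨hsub hx.1, hx.2⟩
  obtain ⟨w, dv, w1, w0, w2, w3, w4, wk, wb⟩ := h d f h₁ h₂ hf hfc
    (fun q => (hfD q).trans hsub) hh1 hh1c
    (fun q => (hh1D q).trans (inter_subset_inter_right _ hsub)) hh2 hh2c
    (fun q => (hh2D q).trans hsub)
    (fun q x hx => by
      by_cases hx1 : x ∈ D₁
      · exact hL q x hx1
      · have z1 : x ∉ tsupport (f q) := fun h' => hx1 (hfD q h')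
        have z2 : x ∉ tsupport (h₁ q) := fun h' => hx1 (hh1D q h').2
        have z3 : x ∉ tsupport (h₂ q) := fun h' => hx1 (hh2D q h')
        rw [image_eq_zero_of_notMem_tsupport z2, image_eq_zero_of_notMem_tsupport z3, add_zero]
        unfold Lv
        refine Finset.sum_eq_zero fun i _ => Finset.sum_eq_zero fun j _ => ?_
        have z4 : x ∉ tsupport (pd j (f q)) := fun h' => z1 (by
          refine closure_minimal (fun y hy => ?_) isClosed_closure h'
          by_contra hc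
          exact hy (poff hc j))
        rw [poff z4 i, mul_zero]) ε hε
  have hfz : ∀ (u : V n → ℝ) (x : V n), tsupport u ⊆ D₁ → x ∉ D₁ → u x = 0 ∧ ∀ i, pd i u x = 0 :=
    fun u x hu hx => ⟨image_eq_zero_of_notMem_tsupport fun h' => hx (hu h'), fun i =>
      poff (fun h' => hx (hu h')) i⟩
  -- integrals over the larger set
  have big : ∀ (F : V n → ℝ), (∀ x ∉ D₁, F x = 0) → ∫ x in D, F x = ∫ x in D₁, F x := by
    intro F hF
    refine (setIntegral_eq_of_subset_of_forall_diff_eq_zero hD.measurableSet hsub ?_)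
    exact fun x hx => hF x hx.2
  have big' : ∀ (F : V n → ℝ), (∀ x ∉ D₁, F x = 0) → ∫ x in D \ G, F x = ∫ x in D₁ \ G, F x := by
    intro F hF
    refine (setIntegral_eq_of_subset_of_forall_diff_eq_zero (hD.measurableSet.diff hG) hsd ?_)
    intro x hx
    exact hF x fun h' => hx.2 ⟨h', hx.1.2⟩
  refine ⟨w, dv, fun q => (w1 q).mono hsub, fun q x hx => w0 q x ⟨hx.1, hsub hx.2⟩,
    fun q => (w2 q).mono_measure (Measure.restrict_mono hsub le_rfl),
    fun q i => (w3 q i).mono_measure (Measure.restrict_mono hsub le_rfl),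
    fun q i => (w4 q i).mono_measure (Measure.restrict_mono hsd le_rfl),
    fun q φ hφ hφc hφD => ?_, fun c => ⟨?_, ?_⟩⟩
  · have hk := wk q φ hφ hφc (hφD.trans hsub)
    rw [big _ (fun x hx => by
      refine Finset.sum_eq_zero fun i _ => Finset.sum_eq_zero fun j _ => ?_
      rw [(hfz φ x hφD hx).2 j]; ring), big' _ (fun x hx => by
      refine Finset.sum_eq_zero fun i _ => Finset.sum_eq_zero fun j _ => ?_
      rw [(hfz φ x hφD hx).2 j]; ring)] at hk
    exact hk
  · have hb := (wb c).1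
    rw [big (fun x => (∑ q, c q * h₂ q x) ^ 2) (fun x hx => by
      have : ∑ q, c q * h₂ q x = 0 := Finset.sum_eq_zero fun q _ => by
        rw [(hfz (h₂ q) x (hh2D q) hx).1, mul_zero]
      simp only [this]; ring)] at hb
    refine le_trans ?_ hb
    refine setIntegral_mono_set ?_ (Filter.Eventually.of_forall fun x =>
      Finset.sum_nonneg fun _ _ => sq_nonneg _) (HasSubset.Subset.eventuallyLE hsd)
    refine integrable_finsetSum _ fun i _ => A.comb_int (fun q => (w4 q i).sub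
      (A.memLp_cs (cp (hf q) i).continuous (scp (hfc q) i) _)) c
  · have hb := (wb c).2
    rw [big (fun x => (∑ q, c q * h₂ q x) ^ 2) (fun x hx => by
      have : ∑ q, c q * h₂ q x = 0 := Finset.sum_eq_zero fun q _ => by
        rw [(hfz (h₂ q) x (hh2D q) hx).1, mul_zero]
      simp only [this]; ring),
      big' (fun x => (∑ q, c q * f q x) ^ 2 + ∑ i, (∑ q, c q * pd i (f q) x) ^ 2) (fun x hx => by
      have h1 : ∑ q, c q * f q x = 0 := Finset.sum_eq_zero fun q _ => by
        rw [(hfz (f q) x (hfD q) hx).1, mul_zero]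
      have h2 : ∀ i, ∑ q, c q * pd i (f q) x = 0 := fun i => Finset.sum_eq_zero fun q _ => by
        rw [(hfz (f q) x (hfD q) hx).2 i, mul_zero]
      simp only [h1, h2]; simp)] at hb
    refine le_trans ?_ hb
    refine setIntegral_mono_set ?_ (Filter.Eventually.of_forall fun x => by positivity)
      (HasSubset.Subset.eventuallyLE hsub)
    exact (A.comb_int w2 c).add (integrable_finsetSum _ fun i _ => A.comb_int (fun q => w3 q i) c)

end Vale.Agent.P088.R2.H238.S3
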