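import Vale.Agent.P088.R2.H238.S3.Tfrw

/-!
# P088, stage 3: the weighted estimate of a divergence free tensor by its trace free part, the
theorem
-/

open MeasureTheory Set
open scoped ContDiff Matrix Topology

noncomputable section

namespace Vale.Agent.P088.R2.H238.S3

open Vale.Agent.P088.LR Vale.Agent.P088.HY

variable {n : ℕ}

/-- `|h|²`. -/
def nh (h : MF n) (x : V n) : ℝ := ∑ i, ∑ j, h x i j ^ 2

theorem nh_nn (h : MF n) (x : V n) : 0 ≤ nh h x :=
  Finset.sum_nonneg fun _ _ => Finset.sum_nonneg fun _ _ => sq_nonneg _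

theorem nh_c {h : MF n} (hh : SmM h) : Continuous (nh h) :=
  continuous_finsetSum _ fun i _ => continuous_finsetSum _ fun j _ => (hh i j).continuous.pow 2

theorem ipm_s {s h : MF n} (hs : SmM s) (hh : SmM h) : ContDiff ℝ ∞ (ipm s h) :=
  ContDiff.sum fun i _ => ContDiff.sum fun j _ => (hs i j).mul (hh i j)

theorem ipm_pos (hn1 : 1 ≤ n) {s : MF n} {x : V n}
    (hn : ∀ i j, |s x i j - (1 : Matrix (Fin n) (Fin n) ℝ) i j| ≤ 1 / (8 * (n + 1))) :
    0 < ipm s s x := by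
  have h1 : ∀ i : Fin n, 0 < s x i i := by
    intro i
    have h2 := hn i i
    rw [Matrix.one_apply_eq] at h2
    have h3 : (1 : ℝ) / (8 * (n + 1)) ≤ 1 / 8 := by
      apply one_div_le_one_div_of_le (by norm_num)
      have : (0 : ℝ) ≤ n := Nat.cast_nonneg n
      linarith
    have h4 := neg_le_of_abs_le (h2.trans h3)
    linarith
  have : Nonempty (Fin n) := ⟨⟨0, hn1⟩⟩
  refine Finset.sum_pos (fun i _ => ?_) Finset.univ_nonempty
  refine lt_of_lt_of_le (mul_pos (h1 i) (h1 i)) ?_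
  exact Finset.single_le_sum (f := fun j => s x i j * s x i j) (fun j _ => mul_self_nonneg _)
    (Finset.mem_univ i)

theorem nh_s {s : MF n} {x : V n}
    (hn : ∀ i j, |s x i j - (1 : Matrix (Fin n) (Fin n) ℝ) i j| ≤ 1 / (8 * (n + 1))) :
    nh s x ≤ 2 * (n + 1) := by
  have h1 := esum hn
  have h2 : nh s x ≤ ∑ i, ∑ j, (2 * (1 : Matrix (Fin n) (Fin n) ℝ) i j ^ 2 +
      2 * (s x i j - (1 : Matrix (Fin n) (Fin n) ℝ) i j) ^ 2) := by
    refine Finset.sum_le_sum fun i _ => Finset.sum_le_sum fun j _ => ?_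
    nlinarith [sq_nonneg (2 * (1 : Matrix (Fin n) (Fin n) ℝ) i j - s x i j)]
  refine h2.trans ?_
  simp only [Finset.sum_add_distrib, ← Finset.mul_sum]
  have h3 : ∑ i : Fin n, ∑ j : Fin n, (1 : Matrix (Fin n) (Fin n) ℝ) i j ^ 2 = n := by
    simp [Matrix.one_apply]
  rw [h3]
  linarith

/-- The pairing of a divergence free tensor. -/
theorem pair_id {h : MF n} (hh : SmM h) {χ W : V n → ℝ} (hχ : ContDiff ℝ ∞ χ)
    (hχc : HasCompactSupport χ) (hW : ContDiff ℝ ∞ W)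
    (hd : ∀ x ∈ tsupport χ, ∀ j, ∑ i, pd i (fun y => h y i j) x = 0) :
    ∫ x, (χ x * (∑ i, ∑ j, h x i j * pd i (pd j W) x) +
      ∑ i, ∑ j, h x i j * (pd i χ x * pd j W x)) = 0 := by
  have hm : ∀ i, ContDiff ℝ ∞ (fun y => ∑ j, h y i j * pd j W y) := fun i =>
    ContDiff.sum fun j _ => (hh i j).mul (cp hW j)
  have hF : ∀ i, ContDiff ℝ ∞ (fun y => χ y * ∑ j, h y i j * pd j W y) := fun i => hχ.mul (hm i)
  have hc : ∀ i, HasCompactSupport (fun y => χ y * ∑ j, h y i j * pd j W y) :=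
    fun i => hχc.mul_right
  rw [← intdiv hF hc]
  congr 1
  funext x
  have h1 : ∀ i, pd i (fun y => χ y * ∑ j, h y i j * pd j W y) x =
      (∑ j, h x i j * (pd i χ x * pd j W x)) +
      χ x * (∑ j, pd i (fun y => h y i j) x * pd j W x) + χ x * ∑ j, h x i j * pd i (pd j W) x := by
    intro i
    rw [pmul hχ (hm i) i x, psum (fun j => (hh i j).mul (cp hW j)) i x]
    have h2 : ∀ j, pd i (fun y => h y i j * pd j W y) x =
        pd i (fun y => h y i j) x * pd j W x + h x i j * pd i (pd j W) x := fun j =>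
      pmul (hh i j) (cp hW j) i x
    simp only [h2, Finset.sum_add_distrib]
    have h3 : ∑ j, h x i j * (pd i χ x * pd j W x) = pd i χ x * ∑ j, h x i j * pd j W x := by
      rw [Finset.mul_sum]; exact Finset.sum_congr rfl fun j _ => by ring
    rw [h3]
    ring
  simp only [h1, Finset.sum_add_distrib, ← Finset.mul_sum]
  have h5 : χ x * ∑ i, ∑ j, pd i (fun y => h y i j) x * pd j W x = 0 := by
    by_cases hx : x ∈ tsupport χ
    · rw [Finset.sum_comm]
      have : ∑ j, ∑ i, pd i (fun y => h y i j) x * pd j W x = 0 :=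
        Finset.sum_eq_zero fun j _ => by rw [← Finset.sum_mul, hd x hx j, zero_mul]
      rw [this, mul_zero]
    · rw [image_eq_zero_of_notMem_tsupport hx]; ring
  rw [h5]
  ring

theorem amgm {X P Q B : ℝ} (hB : 0 < B) (hP : 0 ≤ P) (hQ : 0 ≤ Q) (h : X ^ 2 ≤ P * Q) :
    -X ≤ B * P + (4 * B)⁻¹ * Q := by
  have h1 : |X| ≤ B * P + (4 * B)⁻¹ * Q := by
    refine abs_le_of_sq_le_sq ?_ (by positivity)
    have h2 : B * P * ((4 * B)⁻¹ * Q) = 1 / 4 * (P * Q) := by
      field_simp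
    nlinarith [sq_nonneg (B * P - (4 * B)⁻¹ * Q)]
  have := neg_le_of_abs_le h1
  linarith

/-- The constant. -/
def Ctf (n : ℕ) : ℝ := 2 + 8 * (n + 1) * (6 + 2080 * n * (n + 1)) + 1040 * (n + 1) ^ 2

theorem Ctf_pos (n : ℕ) : 0 < Ctf n := by unfold Ctf; positivity

/-- The arithmetic of the constants. -/
theorem tf_const {n : ℕ} {ρ M κ A1 A2 N2 B1 B2 J : ℝ} (hρ0 : 0 < ρ) (hA10 : 0 ≤ A1) (hA20 : 0 ≤ A2)
    (hB1 : B1 = 130 * (n + 1) * (ρ ^ 2 * (1 + M ^ 2) * κ ^ 2 + (ρ ^ 2)⁻¹))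
    (hB2 : B2 = 6 + 16 * n * (ρ ^ 2 * (1 + M ^ 2)) * B1) (key : N2 ≤ 2 * B1 * A2 + 2 * B2 * A1)
    (fin1 : J ≤ 2 * A1 + 4 * (n + 1) * N2) :
    J ≤ Ctf n * ((1 + M ^ 2) ^ 2 * (1 + ρ ^ 4 * κ ^ 2)) * (A1 + (ρ ^ 2)⁻¹ * A2) := by
  obtain ⟨Z, hZ⟩ : ∃ Z : ℝ, Z = (1 + M ^ 2) ^ 2 * (1 + ρ ^ 4 * κ ^ 2) := ⟨_, rfl⟩
  have hn0 : (0 : ℝ) ≤ n := Nat.cast_nonneg n
  have hm0 : 0 ≤ M ^ 2 := sq_nonneg M
  have hm1 : 1 ≤ 1 + M ^ 2 := by linarith
  have hk0 : 0 ≤ ρ ^ 4 * κ ^ 2 := by positivity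
  have hk1 : 1 ≤ 1 + ρ ^ 4 * κ ^ 2 := by linarith
  have hZ1 : 1 ≤ Z := by
    rw [hZ]
    exact one_le_mul_of_one_le_of_one_le (one_le_pow₀ hm1) hk1
  have hρi : 0 < (ρ ^ 2)⁻¹ := by positivity
  have b1 : ρ ^ 2 * B1 ≤ 130 * (n + 1) * ((1 + M ^ 2) * (1 + ρ ^ 4 * κ ^ 2)) := by
    have e : ρ ^ 2 * B1 = 130 * (n + 1) * ((1 + M ^ 2) * (ρ ^ 4 * κ ^ 2) + 1) := by
      rw [hB1]; field_simp
    rw [e]
    refine mul_le_mul_of_nonneg_left ?_ (by positivity)
    linarith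
  have b2 : (1 + M ^ 2) * (ρ ^ 2 * B1) ≤ 130 * (n + 1) * Z := by
    have := mul_le_mul_of_nonneg_left b1 (by linarith : (0 : ℝ) ≤ 1 + M ^ 2)
    refine this.trans (le_of_eq ?_)
    rw [hZ]
    ring
  have b3 : B2 ≤ (6 + 2080 * n * (n + 1)) * Z := by
    rw [hB2]
    have e : 16 * (n : ℝ) * (ρ ^ 2 * (1 + M ^ 2)) * B1 = 16 * n * ((1 + M ^ 2) * (ρ ^ 2 * B1)) := by
      ring
    rw [e]
    have h1 := mul_le_mul_of_nonneg_left b2 (by positivity : (0 : ℝ) ≤ 16 * n)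
    have h2 : 16 * (n : ℝ) * (130 * (n + 1) * Z) = 2080 * n * (n + 1) * Z := by ring
    rw [h2] at h1
    linarith
  have h0 : 0 ≤ ρ ^ 2 * B1 := by
    rw [hB1]; positivity
  have b4 : ρ ^ 2 * B1 ≤ 130 * (n + 1) * Z := by
    have h3 : 0 ≤ M ^ 2 * (ρ ^ 2 * B1) := mul_nonneg hm0 h0
    linarith
  have b5 : B1 ≤ 130 * (n + 1) * Z * (ρ ^ 2)⁻¹ := by
    rw [← div_eq_mul_inv, le_div_iff₀ (by positivity)]
    linarith
  have c1 := mul_le_mul_of_nonneg_right b5 hA20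
  have c2 := mul_le_mul_of_nonneg_right b3 hA10
  have c3 : N2 ≤ 2 * (130 * (n + 1) * Z * (ρ ^ 2)⁻¹ * A2) +
    2 * ((6 + 2080 * n * (n + 1)) * Z * A1) := by linarith
  have c4 := mul_le_mul_of_nonneg_left c3 (by positivity : (0 : ℝ) ≤ 4 * (n + 1))
  have d1 : 0 ≤ (ρ ^ 2)⁻¹ * A2 := by positivity
  have hZ0 : 0 ≤ Z := by linarith
  have d2 : 0 ≤ Z * A1 := mul_nonneg hZ0 hA10
  have d3 : 0 ≤ Z * ((ρ ^ 2)⁻¹ * A2) := mul_nonneg hZ0 d1
  have d4 : 2 * A1 ≤ 2 * (Z * A1) := by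
    have := mul_le_mul_of_nonneg_right hZ1 hA10
    linarith
  have e : Ctf n * Z * (A1 + (ρ ^ 2)⁻¹ * A2) =
    2 * (Z * A1) + 4 * (n + 1) * (2 * (130 * (n + 1) * Z * (ρ ^ 2)⁻¹ * A2) +
    2 * ((6 + 2080 * n * (n + 1)) * Z * A1)) + 1040 * (n + 1) ^ 2 * (Z * A1) +
    (2 + 8 * (n + 1) * (6 + 2080 * n * (n + 1))) * (Z * ((ρ ^ 2)⁻¹ * A2)) := by
    unfold Ctf; ring
  have d5 : 0 ≤ 1040 * ((n : ℝ) + 1) ^ 2 * (Z * A1) := by positivity
  have d6 : 0 ≤ (2 + 8 * ((n : ℝ) + 1) * (6 + 2080 * n * (n + 1))) *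
    (Z * ((ρ ^ 2)⁻¹ * A2)) := by positivity
  rw [← hZ, e]
  linarith

/-- **(TFR') weighted estimate of a divergence free tensor by the trace free part** -/
theorem tfrw (hn1 : 1 ≤ n) {O : Set (V n)} (hO : IsOpen O) {s h : MF n} (hs : SmM s) (hh : SmM h)
    {G : V n → ℝ} (hG : ContDiff ℝ ∞ G) {ρ M κ : ℝ} (hρ : 1 ≤ ρ) {χ χ₁ χ₂ : V n → ℝ}
    (hc : Cu O ρ χ χ₁ χ₂) (hd : ∀ x ∈ O, ∀ j, ∑ i, pd i (fun y => s y i j) x = 0)
    (hdh : ∀ x ∈ O, ∀ j, ∑ i, pd i (fun y => h y i j) x = 0)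
    (hn : ∀ x ∈ O, ∀ i j, |s x i j - (1 : Matrix (Fin n) (Fin n) ℝ) i j| ≤ 1 / (8 * (n + 1)))
    (hM : ∀ x ∈ O, ∀ k, |pd k G x| ≤ M) (hS : Slv O s G ρ κ) :
    ∫ x, χ x ^ 2 * nh h x * Real.exp (2 * ρ * G x) ≤
      Ctf n * ((1 + M ^ 2) ^ 2 * (1 + ρ ^ 4 * κ ^ 2)) *
        ((∫ x, χ x ^ 2 * nh (tfp s h) x * Real.exp (2 * ρ * G x)) +
          (ρ ^ 2)⁻¹ * ∫ x, gq χ x * nh h x * Real.exp (2 * ρ * G x)) := by
  have hρ0 : 0 < ρ := by linarith
  have tO : tsupport χ ⊆ O := (hc.t01.trans hc.t12).trans hc.o2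
  obtain ⟨φ, hφ⟩ : ∃ φ : V n → ℝ, φ = fun x => ipm s h x / ipm s s x := ⟨_, rfl⟩
  have hpos : ∀ x ∈ O, ipm s s x ≠ 0 := fun x hx => (ipm_pos hn1 (hn x hx)).ne'
  have hφs : ContDiffOn ℝ ∞ φ O := by
    rw [hφ]
    exact (ipm_s hs hh).contDiffOn.div (ipm_s hs hs).contDiffOn hpos
  have hes : ContDiff ℝ ∞ fun x => Real.exp (2 * ρ * G x) := (contDiff_const.mul hG).exp
  obtain ⟨F, hF⟩ : ∃ F : V n → ℝ, F = fun x => χ x * (φ x * Real.exp (2 * ρ * G x)) := ⟨_, rfl⟩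
  have hFs : ContDiff ℝ ∞ F := by
    rw [hF]; exact smx hO hc.s0 tO (hφs.mul hes.contDiffOn)
  have hFt : tsupport F ⊆ tsupport χ := by
    rw [hF]; exact tsupport_mul_subset_left
  have hFc : HasCompactSupport F := by
    rw [hF]; exact hc.c0.mul_right
  obtain ⟨w, hw, he, hi, hk⟩ := hS F hFs hFc (hFt.trans tO)
  obtain ⟨W, hWs, hWL, hW1, hW2⟩ := wint hO hs hG hρ hc hd hn hM hw hFs hFc he hi hk
  obtain ⟨N2, hN2⟩ : ∃ N2 : ℝ, N2 = ∫ x, F x ^ 2 * Real.exp (-(2 * ρ * G x)) := ⟨_, rfl⟩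
  obtain ⟨B1, hB1⟩ : ∃ B1 : ℝ, B1 = 130 * (n + 1) * (ρ ^ 2 * (1 + M ^ 2) * κ ^ 2 + (ρ ^ 2)⁻¹) :=
    ⟨_, rfl⟩
  obtain ⟨B2, hB2⟩ : ∃ B2 : ℝ, B2 = 6 + 16 * n * (ρ ^ 2 * (1 + M ^ 2)) * B1 := ⟨_, rfl⟩
  rw [← hN2, ← hB1] at hW1
  rw [← hN2, ← hB1, ← hB2] at hW2
  have hB10 : 0 < B1 := by rw [hB1]; positivity
  have hB20 : 0 < B2 := by rw [hB2]; positivity
  have hEs : ContDiff ℝ ∞ (Ew ρ G) := Ew_s hG
  have hη2 : ContDiff ℝ ∞ fun y => χ₂ y * Ew ρ G y := hc.s2.mul hEs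
  have hη1 : ContDiff ℝ ∞ fun y => χ₁ y * Ew ρ G y := hc.s1.mul hEs
  have ze : ∀ x ∉ tsupport χ, χ x = 0 := fun x hx => image_eq_zero_of_notMem_tsupport hx
  have zg : ∀ x ∉ tsupport χ, gq χ x = 0 := fun x hx =>
    Finset.sum_eq_zero fun i _ => by rw [poff hx]; ring
  -- the smooth representatives of the trace free part and of the factor
  obtain ⟨χ₃, U, h3s, h3t, hU, hKU, h31, h3b⟩ := ex_cut (isClosed_tsupport χ) hO tO
  have hφ3 : ContDiff ℝ ∞ fun x => χ₃ x * φ x := smx hO h3s h3t hφs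
  have etf : ∀ x i j, tfp s h x i j = h x i j - φ x * s x i j := by
    intro x i j
    rw [hφ]
    rfl
  have htf3 : ∀ i j, ContDiff ℝ ∞ fun x => h x i j - (χ₃ x * φ x) * s x i j := fun i j =>
    (hh i j).sub (hφ3.mul (hs i j))
  have e3 : ∀ x, χ x * χ₃ x = χ x := by
    intro x
    by_cases hx : x ∈ tsupport χ
    · rw [h31 x (hKU hx), mul_one]
    · rw [ze x hx, zero_mul]
  have enh : ∀ x, χ x ^ 2 * nh (tfp s h) x =
      χ x ^ 2 * ∑ i, ∑ j, (h x i j - (χ₃ x * φ x) * s x i j) ^ 2 := by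
    intro x
    by_cases hx : x ∈ tsupport χ
    · congr 1
      unfold nh
      refine Finset.sum_congr rfl fun i _ => Finset.sum_congr rfl fun j _ => ?_
      rw [etf, h31 x (hKU hx), one_mul]
    · rw [ze x hx]; ring
  -- integrability
  have iA1 : Integrable fun x => χ x ^ 2 * nh (tfp s h) x * Real.exp (2 * ρ * G x) := by
    simp only [enh]
    refine icc (((hc.s0.continuous.pow 2).mul (continuous_finsetSum _ fun i _ =>
      continuous_finsetSum _ fun j _ => (htf3 i j).continuous.pow 2)).mul hes.continuous)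
      (HasCompactSupport.intro hc.c0 fun x hx => by rw [ze x hx]; ring)
  have iA2 : Integrable fun x => gq χ x * nh h x * Real.exp (2 * ρ * G x) :=
    icc (((gq_c hc.s0).mul (nh_c hh)).mul hes.continuous)
      (HasCompactSupport.intro hc.c0 fun x hx => by rw [zg x hx]; ring)
  have iN : Integrable fun x => F x ^ 2 * Real.exp (-(2 * ρ * G x)) :=
    icc ((hFs.continuous.pow 2).mul (Real.continuous_exp.comp
      (continuous_const.mul hG.continuous).neg)) (HasCompactSupport.intro hFc fun x hx => by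
      rw [image_eq_zero_of_notMem_tsupport hx]; ring)
  have iD : Integrable fun x => χ x * (∑ i, ∑ j, h x i j * pd i (pd j W) x) +
      ∑ i, ∑ j, h x i j * (pd i χ x * pd j W x) := by
    refine icc ((hc.s0.continuous.mul (continuous_finsetSum _ fun i _ =>
      continuous_finsetSum _ fun j _ => (hh i j).continuous.mul (cp (cp hWs j) i).continuous)).add
      (continuous_finsetSum _ fun i _ => continuous_finsetSum _ fun j _ =>
        (hh i j).continuous.mul ((cp hc.s0 i).continuous.mul (cp hWs j).continuous)))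
      (HasCompactSupport.intro hc.c0 fun x hx => ?_)
    rw [ze x hx, zero_mul, zero_add]
    exact Finset.sum_eq_zero fun i _ => Finset.sum_eq_zero fun j _ => by rw [poff hx]; ring
  have i1 : Integrable fun x => (χ₂ x * Ew ρ G x) ^ 2 * gq W x :=
    icc ((hη2.continuous.pow 2).mul (gq_c hWs)) (HasCompactSupport.intro hc.c2 fun x hx => by
      rw [image_eq_zero_of_notMem_tsupport hx]; ring)
  have i2 : Integrable fun x => (χ₁ x * Ew ρ G x) ^ 2 * hq W x :=
    icc ((hη1.continuous.pow 2).mul (hq_c hWs)) (HasCompactSupport.intro hc.c1 fun x hx => by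
      rw [image_eq_zero_of_notMem_tsupport hx]; ring)
  obtain ⟨A1, hA1⟩ : ∃ A : ℝ, A = ∫ x, χ x ^ 2 * nh (tfp s h) x * Real.exp (2 * ρ * G x) :=
    ⟨_, rfl⟩
  obtain ⟨A2, hA2⟩ : ∃ A : ℝ, A = ∫ x, gq χ x * nh h x * Real.exp (2 * ρ * G x) := ⟨_, rfl⟩
  have hA10 : 0 ≤ A1 := by
    rw [hA1]
    exact integral_nonneg fun x => mul_nonneg (mul_nonneg (sq_nonneg _) (nh_nn _ _))
      (Real.exp_pos _).le
  have hA20 : 0 ≤ A2 := by
    rw [hA2]
    exact integral_nonneg fun x => mul_nonneg (mul_nonneg (gq_nn _ _) (nh_nn _ _))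
      (Real.exp_pos _).le
  -- the main inequality
  have key : N2 ≤ 2 * B1 * A2 + 2 * B2 * A1 := by
    have k1 : N2 ≤ ∫ x, ((χ x * (∑ i, ∑ j, h x i j * pd i (pd j W) x) +
        ∑ i, ∑ j, h x i j * (pd i χ x * pd j W x)) +
        (B1 * (gq χ x * nh h x * Real.exp (2 * ρ * G x)) +
          (4 * B1)⁻¹ * ((χ₂ x * Ew ρ G x) ^ 2 * gq W x) +
        (B2 * (χ x ^ 2 * nh (tfp s h) x * Real.exp (2 * ρ * G x)) +
          (4 * B2)⁻¹ * ((χ₁ x * Ew ρ G x) ^ 2 * hq W x)))) := by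
      rw [hN2]
      refine integral_mono iN (iD.add (((iA2.const_mul B1).add (i1.const_mul _)).add
        ((iA1.const_mul B2).add (i2.const_mul _)))) fun x => ?_
      show F x ^ 2 * Real.exp (-(2 * ρ * G x)) ≤
        (χ x * (∑ i, ∑ j, h x i j * pd i (pd j W) x) +
        ∑ i, ∑ j, h x i j * (pd i χ x * pd j W x)) +
        (B1 * (gq χ x * nh h x * Real.exp (2 * ρ * G x)) +
          (4 * B1)⁻¹ * ((χ₂ x * Ew ρ G x) ^ 2 * gq W x) +
        (B2 * (χ x ^ 2 * nh (tfp s h) x * Real.exp (2 * ρ * G x)) +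
          (4 * B2)⁻¹ * ((χ₁ x * Ew ρ G x) ^ 2 * hq W x)))
      by_cases hx : x ∈ tsupport χ
      · have x1 := hc.i1 x hx
        have x2 := hc.i2 x (hc.t01 hx)
        have hL := hWL x (hc.t12 (hc.t01 hx))
        have hee : Real.exp (2 * ρ * G x) * Real.exp (-(2 * ρ * G x)) = 1 := by
          rw [← Real.exp_add]; simp
        have q1 : F x ^ 2 * Real.exp (-(2 * ρ * G x)) = χ x * φ x * F x := by
          have q2 : F x = χ x * (φ x * Real.exp (2 * ρ * G x)) := by rw [hF]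
          calc F x ^ 2 * Real.exp (-(2 * ρ * G x))
              = F x * (χ x * φ x) * (Real.exp (2 * ρ * G x) * Real.exp (-(2 * ρ * G x))) := by
                rw [pow_two]
                nth_rewrite 2 [q2]
                ring
            _ = _ := by rw [hee]; ring
        have q3 : χ x * φ x * F x = χ x * (∑ i, ∑ j, h x i j * pd i (pd j W) x) -
            ∑ i, ∑ j, tfp s h x i j * (χ x * pd i (pd j W) x) := by
          rw [← hL]
          unfold Lv
          rw [mul_assoc, Finset.mul_sum, Finset.mul_sum, Finset.mul_sum, ← Finset.sum_sub_distrib]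
          refine Finset.sum_congr rfl fun i _ => ?_
          rw [Finset.mul_sum, Finset.mul_sum, Finset.mul_sum, ← Finset.sum_sub_distrib]
          refine Finset.sum_congr rfl fun j _ => ?_
          rw [etf]
          ring
        have r1 : -(∑ i, ∑ j, h x i j * (pd i χ x * pd j W x)) ≤
            B1 * (gq χ x * nh h x * Real.exp (2 * ρ * G x)) +
            (4 * B1)⁻¹ * ((χ₂ x * Ew ρ G x) ^ 2 * gq W x) := by
          refine amgm hB10 (mul_nonneg (mul_nonneg (gq_nn _ _) (nh_nn _ _)) (Real.exp_pos _).le)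
            (mul_nonneg (sq_nonneg _) (gq_nn _ _)) ?_
          refine (cs2 (fun i j => h x i j) (fun i => pd i χ x) (fun j => pd j W x)).trans
            (le_of_eq ?_)
          show nh h x * (gq χ x * gq W x) = _
          rw [x2, one_mul]
          have := Ew_inv ρ G x
          calc nh h x * (gq χ x * gq W x) = nh h x * (gq χ x * gq W x) *
              (Ew ρ G x ^ 2 * Real.exp (2 * ρ * G x)) := by rw [this, mul_one]
            _ = _ := by ring
        have r2 : -(∑ i, ∑ j, tfp s h x i j * (χ x * pd i (pd j W) x)) ≤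
            B2 * (χ x ^ 2 * nh (tfp s h) x * Real.exp (2 * ρ * G x)) +
            (4 * B2)⁻¹ * ((χ₁ x * Ew ρ G x) ^ 2 * hq W x) := by
          refine amgm hB20 (mul_nonneg (mul_nonneg (sq_nonneg _) (nh_nn _ _)) (Real.exp_pos _).le)
            (mul_nonneg (sq_nonneg _) (hq_nn _ _)) ?_
          refine (cs3 (fun i j => tfp s h x i j) (fun i j => χ x * pd i (pd j W) x)).trans
            (le_of_eq ?_)
          have e5 : ∑ i, ∑ j, (χ x * pd i (pd j W) x) ^ 2 = χ x ^ 2 * hq W x := by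
            unfold hq
            rw [Finset.mul_sum]
            refine Finset.sum_congr rfl fun i _ => ?_
            rw [Finset.mul_sum]
            exact Finset.sum_congr rfl fun j _ => by ring
          rw [e5]
          show nh (tfp s h) x * (χ x ^ 2 * hq W x) = _
          rw [x1, one_mul]
          have := Ew_inv ρ G x
          calc nh (tfp s h) x * (χ x ^ 2 * hq W x) = nh (tfp s h) x * (χ x ^ 2 * hq W x) *
              (Ew ρ G x ^ 2 * Real.exp (2 * ρ * G x)) := by rw [this, mul_one]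
            _ = _ := by ring
        rw [q1, q3]
        linarith
      · have hx' : x ∉ tsupport F := fun h => hx (hFt h)
        rw [image_eq_zero_of_notMem_tsupport hx', ze x hx, zg x hx]
        have z1 : ∑ i, ∑ j, h x i j * (pd i χ x * pd j W x) = 0 :=
          Finset.sum_eq_zero fun i _ => Finset.sum_eq_zero fun j _ => by rw [poff hx]; ring
        rw [z1]
        have z2 : 0 ≤ (4 * B1)⁻¹ * ((χ₂ x * Ew ρ G x) ^ 2 * gq W x) :=
          mul_nonneg (by positivity) (mul_nonneg (sq_nonneg _) (gq_nn _ _))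
        have z3 : 0 ≤ (4 * B2)⁻¹ * ((χ₁ x * Ew ρ G x) ^ 2 * hq W x) :=
          mul_nonneg (by positivity) (mul_nonneg (sq_nonneg _) (hq_nn _ _))
        simp only [ne_eq, OfNat.ofNat_ne_zero, not_false_eq_true, zero_pow, zero_mul, mul_zero,
          zero_add, add_zero]
        linarith
    have j1 : Integrable fun x => B1 * (gq χ x * nh h x * Real.exp (2 * ρ * G x)) +
          (4 * B1)⁻¹ * ((χ₂ x * Ew ρ G x) ^ 2 * gq W x) := (iA2.const_mul B1).add (i1.const_mul _)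
    have j2 : Integrable fun x => B2 * (χ x ^ 2 * nh (tfp s h) x * Real.exp (2 * ρ * G x)) +
          (4 * B2)⁻¹ * ((χ₁ x * Ew ρ G x) ^ 2 * hq W x) := (iA1.const_mul B2).add (i2.const_mul _)
    have j3 : Integrable fun x => B1 * (gq χ x * nh h x * Real.exp (2 * ρ * G x)) +
          (4 * B1)⁻¹ * ((χ₂ x * Ew ρ G x) ^ 2 * gq W x) +
        (B2 * (χ x ^ 2 * nh (tfp s h) x * Real.exp (2 * ρ * G x)) +
          (4 * B2)⁻¹ * ((χ₁ x * Ew ρ G x) ^ 2 * hq W x)) := j1.add j2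
    rw [integral_add iD j3, integral_add j1 j2, integral_add (iA2.const_mul B1) (i1.const_mul _),
      integral_add (iA1.const_mul B2) (i2.const_mul _), integral_const_mul, integral_const_mul,
      integral_const_mul, integral_const_mul,
      pair_id hh hc.s0 hc.c0 hWs (fun x hx => hdh x (tO hx)), ← hA1, ← hA2] at k1
    have k2 : (4 * B1)⁻¹ * ∫ x, (χ₂ x * Ew ρ G x) ^ 2 * gq W x ≤ (4 * B1)⁻¹ * (B1 * N2) :=
      mul_le_mul_of_nonneg_left hW1 (by positivity)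
    have k3 : (4 * B2)⁻¹ * ∫ x, (χ₁ x * Ew ρ G x) ^ 2 * hq W x ≤ (4 * B2)⁻¹ * (B2 * N2) :=
      mul_le_mul_of_nonneg_left hW2 (by positivity)
    have k4 : (4 * B1)⁻¹ * (B1 * N2) = N2 / 4 := by field_simp
    have k5 : (4 * B2)⁻¹ * (B2 * N2) = N2 / 4 := by field_simp
    linarith
  -- the whole tensor
  have fin1 : ∫ x, χ x ^ 2 * nh h x * Real.exp (2 * ρ * G x) ≤ 2 * A1 + 4 * (n + 1) * N2 := by
    have f1 : ∫ x, χ x ^ 2 * nh h x * Real.exp (2 * ρ * G x) ≤
        ∫ x, (2 * (χ x ^ 2 * nh (tfp s h) x * Real.exp (2 * ρ * G x)) +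
          4 * (n + 1) * (F x ^ 2 * Real.exp (-(2 * ρ * G x)))) := by
      refine integral_mono (icc (((hc.s0.continuous.pow 2).mul (nh_c hh)).mul hes.continuous)
        (HasCompactSupport.intro hc.c0 fun x hx => by rw [ze x hx]; ring))
        ((iA1.const_mul 2).add (iN.const_mul _)) fun x => ?_
      show χ x ^ 2 * nh h x * Real.exp (2 * ρ * G x) ≤
        2 * (χ x ^ 2 * nh (tfp s h) x * Real.exp (2 * ρ * G x)) +
          4 * (n + 1) * (F x ^ 2 * Real.exp (-(2 * ρ * G x)))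
      by_cases hx : x ∈ tsupport χ
      · have g1 : nh h x ≤ 2 * nh (tfp s h) x + 2 * φ x ^ 2 * nh s x := by
          unfold nh
          rw [Finset.mul_sum, Finset.mul_sum, ← Finset.sum_add_distrib]
          refine Finset.sum_le_sum fun i _ => ?_
          rw [Finset.mul_sum, Finset.mul_sum, ← Finset.sum_add_distrib]
          refine Finset.sum_le_sum fun j _ => ?_
          have g2 := etf x i j
          have g3 : h x i j = tfp s h x i j + φ x * s x i j := by linarith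
          rw [g3]
          nlinarith [sq_nonneg (tfp s h x i j - φ x * s x i j)]
        have g4 := nh_s (hn x (tO hx))
        have g5 : nh h x ≤ 2 * nh (tfp s h) x + 4 * (n + 1) * φ x ^ 2 := by
          have := mul_le_mul_of_nonneg_left g4 (sq_nonneg (φ x))
          linarith
        have g6 : F x ^ 2 * Real.exp (-(2 * ρ * G x)) =
            χ x ^ 2 * φ x ^ 2 * Real.exp (2 * ρ * G x) := by
          have hee : Real.exp (2 * ρ * G x) * Real.exp (-(2 * ρ * G x)) = 1 := by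
            rw [← Real.exp_add]; simp
          have q2 : F x = χ x * (φ x * Real.exp (2 * ρ * G x)) := by rw [hF]
          calc F x ^ 2 * Real.exp (-(2 * ρ * G x))
              = χ x ^ 2 * φ x ^ 2 * Real.exp (2 * ρ * G x) *
                (Real.exp (2 * ρ * G x) * Real.exp (-(2 * ρ * G x))) := by rw [q2]; ring
            _ = _ := by rw [hee, mul_one]
        have g7 : 0 ≤ χ x ^ 2 * Real.exp (2 * ρ * G x) := by positivity
        have g8 := mul_le_mul_of_nonneg_left g5 g7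
        rw [g6]
        linarith
      · have hx' : x ∉ tsupport F := fun h => hx (hFt h)
        rw [ze x hx, image_eq_zero_of_notMem_tsupport hx']
        simp
    rw [integral_add (iA1.const_mul 2) (iN.const_mul _), integral_const_mul, integral_const_mul,
      ← hA1, ← hN2] at f1
    exact f1
  rw [← hA1, ← hA2]
  exact tf_const hρ0 hA10 hA20 hB1 hB2 key fin1

end Vale.Agent.P088.R2.H238.S3
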